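import Vale.Agent.P254.LM.BasicA

/-!
# P254, local maximality of the simplex: elementary facts on `stdS` and `Eav`
-/

namespace Vale.Agent.P254

open MeasureTheory Set

variable {k : ℕ}

lemma measurableSet_stdS (k : ℕ) : MeasurableSet (stdS k) := (isCompact_stdS k).measurableSet

lemma convex_stdS (k : ℕ) : Convex ℝ (stdS k) := by
  intro x hx y hy a b ha hb hab
  obtain ⟨hx0, hx1⟩ := mem_stdS.mp hx
  obtain ⟨hy0, hy1⟩ := mem_stdS.mp hy
  refine mem_stdS.mpr ⟨fun i => ?_, ?_⟩
  · simp only [Pi.add_apply, Pi.smul_apply, smul_eq_mul]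
    exact add_nonneg (mul_nonneg ha (hx0 i)) (mul_nonneg hb (hy0 i))
  · simp only [Pi.add_apply, Pi.smul_apply, smul_eq_mul]
    rw [Finset.sum_add_distrib, ← Finset.mul_sum, ← Finset.mul_sum]
    nlinarith

lemma vol_stdS_pos (k : ℕ) : 0 < vol (stdS k) := by
  rw [vol_stdS]; positivity

lemma volume_stdS_ne_top (k : ℕ) : volume (stdS k) ≠ ⊤ := (isCompact_stdS k).measure_lt_top.ne

lemma integrableOn_comp_bary {F : (Fin (k + 1) → ℝ) → ℝ} (hF : Continuous F) :
    IntegrableOn (fun x => F (bary x)) (stdS k) :=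
  (hF.comp continuous_bary).continuousOn.integrableOn_compact (isCompact_stdS k)

lemma Eav_const (k : ℕ) (c : ℝ) : Eav k (fun _ => c) = c := by
  have h : ∫ _x in stdS k, c = c * vol (stdS k) := by
    rw [vol_eq_integral, ← integral_const_mul]
    simp
  unfold Eav
  rw [h, vol_stdS]
  have h2 : (k.factorial : ℝ) ≠ 0 := by positivity
  field_simp

lemma Eav_add {F G : (Fin (k + 1) → ℝ) → ℝ} (hF : Continuous F) (hG : Continuous G) :
    Eav k (fun l => F l + G l) = Eav k F + Eav k G := by
  unfold Eav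
  rw [integral_add (integrableOn_comp_bary hF) (integrableOn_comp_bary hG), mul_add]

lemma Eav_sub {F G : (Fin (k + 1) → ℝ) → ℝ} (hF : Continuous F) (hG : Continuous G) :
    Eav k (fun l => F l - G l) = Eav k F - Eav k G := by
  unfold Eav
  rw [integral_sub (integrableOn_comp_bary hF) (integrableOn_comp_bary hG), mul_sub]

lemma Eav_const_mul (c : ℝ) (F : (Fin (k + 1) → ℝ) → ℝ) :
    Eav k (fun l => c * F l) = c * Eav k F := by
  unfold Eav
  rw [integral_const_mul]
  ring

/-- only the values on the simplex matter -/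
lemma Eav_congr {F G : (Fin (k + 1) → ℝ) → ℝ}
    (h : ∀ l ∈ stdSimplex ℝ (Fin (k + 1)), F l = G l) : Eav k F = Eav k G := by
  unfold Eav
  rw [setIntegral_congr_fun (measurableSet_stdS k) (fun x hx => h _ (bary_mem_stdSimplex hx))]

lemma Eav_nonneg {F : (Fin (k + 1) → ℝ) → ℝ}
    (h : ∀ l ∈ stdSimplex ℝ (Fin (k + 1)), 0 ≤ F l) : 0 ≤ Eav k F := by
  unfold Eav
  exact mul_nonneg (by positivity)
    (setIntegral_nonneg (measurableSet_stdS k) (fun x hx => h _ (bary_mem_stdSimplex hx)))

lemma Eav_mono {F G : (Fin (k + 1) → ℝ) → ℝ} (hF : Continuous F) (hG : Continuous G)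
    (h : ∀ l ∈ stdSimplex ℝ (Fin (k + 1)), F l ≤ G l) : Eav k F ≤ Eav k G := by
  unfold Eav
  exact mul_le_mul_of_nonneg_left
    (setIntegral_mono_on (integrableOn_comp_bary hF) (integrableOn_comp_bary hG)
      (measurableSet_stdS k) (fun x hx => h _ (bary_mem_stdSimplex hx))) (by positivity)

lemma integral_one_stdS_aux (k : ℕ) : ∫ _x in stdS k, (1 : ℝ) = 1 / (k.factorial : ℝ) := by
  rw [← vol_eq_integral, vol_stdS]

lemma integral_coord_stdS_aux (k : ℕ) (i : Fin k) :
    ∫ x in stdS k, x i = 1 / ((k + 1).factorial : ℝ) := mom1_stdS k i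

lemma integral_sum_stdS_aux (k : ℕ) :
    ∫ x in stdS k, ∑ i, x i = (k : ℝ) / ((k + 1).factorial : ℝ) := by
  rw [integral_finsetSum _ (fun i _ => integrableOn_coord (isCompact_stdS k) i)]
  simp_rw [integral_coord_stdS_aux]
  simp
  ring

/-- first moments: the barycentre -/
lemma Eav_coord (k : ℕ) (i : Fin (k + 1)) : Eav k (fun l => l i) = 1 / ((k : ℝ) + 1) := by
  have h1 : ((k : ℝ) + 1) ≠ 0 := by positivity
  have h2 : (k.factorial : ℝ) ≠ 0 := by positivity
  unfold Eav
  refine Fin.cases ?_ (fun j => ?_) i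
  · simp only [bary_zero]
    have hs : IntegrableOn (fun x : Fin k → ℝ => ∑ i, x i) (stdS k) :=
      (continuous_finsetSum _ (fun i _ => continuous_apply i)).continuousOn.integrableOn_compact
        (isCompact_stdS k)
    have hc : IntegrableOn (fun _ : Fin k → ℝ => (1 : ℝ)) (stdS k) :=
      continuous_const.continuousOn.integrableOn_compact (isCompact_stdS k)
    rw [integral_sub hc hs, integral_one_stdS_aux, integral_sum_stdS_aux, Nat.factorial_succ]
    push_cast
    field_simp
    ring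
  · simp only [bary_succ]
    rw [integral_coord_stdS_aux, Nat.factorial_succ]
    push_cast
    field_simp

lemma integral_sq_sum_stdS_aux (k : ℕ) :
    ∫ x in stdS k, (∑ i, x i) ^ 2 = ((k : ℝ) ^ 2 + k) / ((k + 2).factorial : ℝ) := by
  have e : ∀ x : Fin k → ℝ, (∑ i, x i) ^ 2 = ∑ i, ∑ j, x i * x j := by
    intro x
    rw [sq, Finset.sum_mul_sum]
  simp_rw [e]
  rw [integral_finsetSum _ (fun i _ => integrable_finsetSum _
    (fun j _ => integrableOn_coord_mul (isCompact_stdS k) i j))]
  have h : ∀ i : Fin k, ∫ x in stdS k, ∑ j, x i * x j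
      = ((k : ℝ) + 1) / ((k + 2).factorial : ℝ) := by
    intro i
    rw [integral_finsetSum _ (fun j _ => integrableOn_coord_mul (isCompact_stdS k) i j)]
    have : ∀ j : Fin k, ∫ x in stdS k, x i * x j
        = (if i = j then 2 else 1) / ((k + 2).factorial : ℝ) := fun j => mom2_stdS k i j
    simp_rw [this]
    rw [← Finset.sum_div]
    congr 1
    have : ∀ j : Fin k, (if i = j then (2 : ℝ) else 1) = 1 + (if i = j then 1 else 0) := by
      intro j; split_ifs <;> norm_num
    simp_rw [this]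
    rw [Finset.sum_add_distrib]
    simp
  simp_rw [h]
  simp
  ring

lemma integral_sum_sq_stdS_aux (k : ℕ) :
    ∫ x in stdS k, ∑ i, x i ^ 2 = (2 * (k : ℝ)) / ((k + 2).factorial : ℝ) := by
  have e : ∀ x : Fin k → ℝ, ∑ i, x i ^ 2 = ∑ i, x i * x i := by
    intro x; exact Finset.sum_congr rfl (fun i _ => sq (x i))
  simp_rw [e]
  rw [integral_finsetSum _ (fun i _ => integrableOn_coord_mul (isCompact_stdS k) i i)]
  have : ∀ i : Fin k, ∫ x in stdS k, x i * x i = 2 / ((k + 2).factorial : ℝ) := by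
    intro i
    have := mom2_stdS k i i
    simpa [mom2] using this
  simp_rw [this]
  simp
  ring

/-- second moment: `E |l|² = 2 / (k + 2)` -/
lemma Eav_nsq (k : ℕ) : Eav k nsq = 2 / ((k : ℝ) + 2) := by
  have h1 : ((k : ℝ) + 1) ≠ 0 := by positivity
  have h2 : (k.factorial : ℝ) ≠ 0 := by positivity
  have h3 : ((k : ℝ) + 2) ≠ 0 := by positivity
  unfold Eav
  have e : ∀ x : Fin k → ℝ, nsq (bary x)
      = 1 - 2 * (∑ i, x i) + (∑ i, x i) ^ 2 + ∑ i, x i ^ 2 := by
    intro x; rw [nsq_bary]; ring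
  simp_rw [e]
  have hK := isCompact_stdS k
  have hc : IntegrableOn (fun _ : Fin k → ℝ => (1 : ℝ)) (stdS k) :=
    continuous_const.continuousOn.integrableOn_compact hK
  have hs : IntegrableOn (fun x : Fin k → ℝ => 2 * ∑ i, x i) (stdS k) :=
    (continuous_const.mul
      (continuous_finsetSum _ (fun i _ => continuous_apply i))).continuousOn.integrableOn_compact hK
  have hq : IntegrableOn (fun x : Fin k → ℝ => (∑ i, x i) ^ 2) (stdS k) :=
    ((continuous_finsetSum _ (fun i _ => continuous_apply i)).pow 2).continuousOn.integrableOn_compact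
      hK
  have hr : IntegrableOn (fun x : Fin k → ℝ => ∑ i, x i ^ 2) (stdS k) :=
    (continuous_finsetSum _
      (fun i _ => (continuous_apply i).pow 2)).continuousOn.integrableOn_compact hK
  have hcs : IntegrableOn (fun x : Fin k → ℝ => 1 - 2 * ∑ i, x i) (stdS k) := hc.sub hs
  have hcsq : IntegrableOn (fun x : Fin k → ℝ => 1 - 2 * ∑ i, x i + (∑ i, x i) ^ 2) (stdS k) :=
    hcs.add hq
  rw [integral_add hcsq hr, integral_add hcs hq, integral_sub hc hs,
    integral_const_mul, integral_one_stdS_aux, integral_sum_stdS_aux, integral_sq_sum_stdS_aux,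
    integral_sum_sq_stdS_aux, Nat.factorial_succ (k + 1), Nat.factorial_succ]
  push_cast
  field_simp
  ring

end Vale.Agent.P254
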