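import Vale.Agent.P254.LM.Defs

/-!
# P254, local maximality of the simplex: elementary facts on `bary`, `nsq`, `ins`, `mix`
-/

namespace Vale.Agent.P254

open MeasureTheory Set

variable {k : ℕ}

@[simp] lemma bary_zero (x : Fin k → ℝ) : bary x 0 = 1 - ∑ i, x i := by
  simp [bary]

@[simp] lemma bary_succ (x : Fin k → ℝ) (i : Fin k) : bary x i.succ = x i := by
  simp [bary]

@[simp] lemma tail_bary (x : Fin k → ℝ) : Fin.tail (bary x) = x := by
  funext i
  simp [Fin.tail]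

lemma sum_bary (x : Fin k → ℝ) : ∑ i, bary x i = 1 := by
  rw [Fin.sum_univ_succ]
  simp

lemma bary_tail {l : Fin (k + 1) → ℝ} (hl : ∑ i, l i = 1) : bary (Fin.tail l) = l := by
  rw [Fin.sum_univ_succ] at hl
  funext i
  refine Fin.cases ?_ (fun i => ?_) i
  · rw [bary_zero]
    simp only [Fin.tail]
    linarith
  · rw [bary_succ]
    rfl

lemma mem_stdS_iff_bary {x : Fin k → ℝ} : x ∈ stdS k ↔ ∀ i, 0 ≤ bary x i := by
  rw [mem_stdS, Fin.forall_fin_succ]
  simp only [bary_zero, bary_succ, sub_nonneg]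
  exact and_comm

lemma bary_mem_stdSimplex {x : Fin k → ℝ} (hx : x ∈ stdS k) :
    bary x ∈ stdSimplex ℝ (Fin (k + 1)) :=
  ⟨mem_stdS_iff_bary.1 hx, sum_bary x⟩

lemma tail_mem_stdS {l : Fin (k + 1) → ℝ} (hl : l ∈ stdSimplex ℝ (Fin (k + 1))) :
    Fin.tail l ∈ stdS k := by
  rw [mem_stdS_iff_bary, bary_tail hl.2]
  exact hl.1

lemma continuous_bary : Continuous (bary : (Fin k → ℝ) → (Fin (k + 1) → ℝ)) := by
  refine continuous_pi fun i => ?_
  refine Fin.cases ?_ (fun i => ?_) i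
  · simp only [bary_zero]
    fun_prop
  · simp only [bary_succ]
    fun_prop

/-- `bary` is affine -/
lemma bary_combo (a b : ℝ) (hab : a + b = 1) (x y : Fin k → ℝ) :
    bary (a • x + b • y) = a • bary x + b • bary y := by
  funext i
  refine Fin.cases ?_ (fun i => ?_) i
  · simp only [bary_zero, Pi.add_apply, Pi.smul_apply, smul_eq_mul, Finset.sum_add_distrib,
      ← Finset.mul_sum]
    linear_combination (-1) * hab
  · simp only [bary_succ, Pi.add_apply, Pi.smul_apply]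

lemma nsq_nonneg {m : ℕ} (l : Fin m → ℝ) : 0 ≤ nsq l :=
  Finset.sum_nonneg fun _ _ => sq_nonneg _

lemma continuous_nsq {m : ℕ} : Continuous (nsq : (Fin m → ℝ) → ℝ) := by
  unfold nsq
  fun_prop

/-- on the simplex `|l|² ≤ 1` -/
lemma nsq_le_one {m : ℕ} {l : Fin m → ℝ} (hl : l ∈ stdSimplex ℝ (Fin m)) : nsq l ≤ 1 := by
  rw [← hl.2]
  unfold nsq
  refine Finset.sum_le_sum fun i _ => ?_
  have h0 := hl.1 i
  have h1 : l i ≤ 1 := by
    rw [← hl.2]
    exact Finset.single_le_sum (fun j _ => hl.1 j) (Finset.mem_univ i)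
  nlinarith

/-- Cauchy-Schwarz: on the simplex `|l|² ≥ 1/m` -/
lemma one_le_mul_nsq {m : ℕ} {l : Fin m → ℝ} (hl : ∑ i, l i = 1) : 1 ≤ (m : ℝ) * nsq l := by
  have h := sq_sum_le_card_mul_sum_sq (s := (Finset.univ : Finset (Fin m))) (f := l)
  rw [hl, Finset.card_univ, Fintype.card_fin] at h
  unfold nsq
  linarith

lemma nsq_bary (x : Fin k → ℝ) : nsq (bary x) = (1 - ∑ i, x i) ^ 2 + ∑ i, x i ^ 2 := by
  unfold nsq
  rw [Fin.sum_univ_succ]
  simp

lemma sum_zc (m : ℕ) : ∑ i, zc (m + 1) i = 1 := by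
  unfold zc
  rw [Finset.sum_const, Finset.card_univ, Fintype.card_fin, nsmul_eq_mul]
  have : ((m + 1 : ℕ) : ℝ) ≠ 0 := by positivity
  field_simp

lemma zc_mem_stdSimplex (m : ℕ) : zc (m + 1) ∈ stdSimplex ℝ (Fin (m + 1)) := by
  refine ⟨fun i => ?_, sum_zc m⟩
  unfold zc
  positivity

lemma nsq_zc (m : ℕ) : nsq (zc (m + 1)) = 1 / ((m : ℝ) + 1) := by
  unfold nsq zc
  rw [Finset.sum_const, Finset.card_univ, Fintype.card_fin, nsmul_eq_mul]
  push_cast
  have : ((m : ℝ) + 1) ≠ 0 := by positivity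
  field_simp

lemma ins_self (j : Fin (k + 1)) (ζ : Fin k → ℝ) : ins j ζ j = 0 := by
  simp [ins]

/-- sums of a function of the coordinates of `ins j ζ` -/
lemma sum_comp_ins_basicA (j : Fin (k + 1)) (ζ : Fin k → ℝ) (f : ℝ → ℝ) :
    ∑ i, f (ins j ζ i) = f 0 + ∑ i, f (ζ i) := by
  unfold ins
  rw [Equiv.sum_comp (Equiv.swap 0 j) (fun i => f ((Fin.cons 0 ζ : Fin (k + 1) → ℝ) i)),
    Fin.sum_univ_succ]
  simp

lemma sum_ins (j : Fin (k + 1)) (ζ : Fin k → ℝ) : ∑ i, ins j ζ i = ∑ i, ζ i := by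
  have h := sum_comp_ins_basicA j ζ (fun t => t)
  simpa using h

lemma nsq_ins (j : Fin (k + 1)) (ζ : Fin k → ℝ) : nsq (ins j ζ) = nsq ζ := by
  have h := sum_comp_ins_basicA j ζ (fun t => t ^ 2)
  unfold nsq
  simpa using h

lemma ins_nonneg (j : Fin (k + 1)) {ζ : Fin k → ℝ} (h : ∀ i, 0 ≤ ζ i) (i : Fin (k + 1)) :
    0 ≤ ins j ζ i := by
  unfold ins
  generalize Equiv.swap 0 j i = t
  refine Fin.cases ?_ (fun t => ?_) t
  · simp
  · simpa using h t

lemma ins_add (j : Fin (k + 1)) (ζ ζ' : Fin k → ℝ) : ins j (ζ + ζ') = ins j ζ + ins j ζ' := by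
  funext i
  simp only [ins, Pi.add_apply]
  generalize Equiv.swap 0 j i = t
  refine Fin.cases ?_ (fun t => ?_) t
  · simp
  · simp

lemma ins_smul (j : Fin (k + 1)) (a : ℝ) (ζ : Fin k → ℝ) : ins j (a • ζ) = a • ins j ζ := by
  funext i
  simp only [ins, Pi.smul_apply]
  generalize Equiv.swap 0 j i = t
  refine Fin.cases ?_ (fun t => ?_) t
  · simp
  · simp

lemma continuous_ins (j : Fin (k + 1)) : Continuous (ins j : (Fin k → ℝ) → (Fin (k + 1) → ℝ)) := by
  refine continuous_pi fun i => ?_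
  unfold ins
  generalize Equiv.swap 0 j i = t
  refine Fin.cases ?_ (fun t => ?_) t
  · simp only [Fin.cons_zero]
    exact continuous_const
  · simp only [Fin.cons_succ]
    exact continuous_apply t

lemma ins_mem_stdSimplex (j : Fin (k + 1)) {ζ : Fin k → ℝ} (h : ζ ∈ stdSimplex ℝ (Fin k)) :
    ins j ζ ∈ stdSimplex ℝ (Fin (k + 1)) :=
  ⟨ins_nonneg j h.1, by rw [sum_ins]; exact h.2⟩

lemma ins_const_basicA (j i : Fin (k + 1)) (c : ℝ) :
    ins j (fun _ => c) i = if i = j then 0 else c := by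
  split_ifs with h
  · rw [h]; exact ins_self j _
  · unfold ins
    have hne : Equiv.swap 0 j i ≠ 0 := by
      intro h0
      apply h
      have := congrArg (Equiv.swap 0 j) h0
      rw [Equiv.swap_apply_self, Equiv.swap_apply_left] at this
      exact this
    obtain ⟨t, ht⟩ := Fin.exists_succ_eq.2 hne
    rw [← ht]
    simp

/-- the barycentre is the average of the barycentres of the facets -/
lemma sum_ins_zc (k : ℕ) :
    ∑ j : Fin (k + 2), (1 / ((k : ℝ) + 2)) • ins j (zc (k + 1)) = zc (k + 2) := by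
  funext i
  rw [Finset.sum_apply]
  have h1 : ∀ j : Fin (k + 2), ((1 / ((k : ℝ) + 2)) • ins j (zc (k + 1))) i
      = 1 / ((k : ℝ) + 2) * (1 / ((k : ℝ) + 1))
        - (if i = j then 1 / ((k : ℝ) + 2) * (1 / ((k : ℝ) + 1)) else 0) := by
    intro j
    have h2 : zc (k + 1) = fun _ => 1 / ((k : ℝ) + 1) := by
      funext t
      unfold zc
      push_cast
      rfl
    rw [Pi.smul_apply, h2, ins_const_basicA, smul_eq_mul]
    split_ifs <;> ring
  rw [Finset.sum_congr rfl fun j _ => h1 j, Finset.sum_sub_distrib, Finset.sum_const,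
    Finset.card_univ, Fintype.card_fin, nsmul_eq_mul, Finset.sum_ite_eq]
  simp only [Finset.mem_univ, if_true]
  unfold zc
  push_cast
  have e1 : ((k : ℝ) + 1) ≠ 0 := by positivity
  have e2 : ((k : ℝ) + 2) ≠ 0 := by positivity
  field_simp
  ring

lemma mix_zero (j : Fin (k + 1)) (ζ : Fin k → ℝ) : mix j 0 ζ = zc (k + 1) := by
  simp [mix]

lemma mix_one (j : Fin (k + 1)) (ζ : Fin k → ℝ) : mix j 1 ζ = ins j ζ := by
  simp [mix]

lemma sum_mix (j : Fin (k + 1)) (r : ℝ) {ζ : Fin k → ℝ} (h : ∑ i, ζ i = 1) :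
    ∑ i, mix j r ζ i = 1 := by
  simp only [mix, Pi.add_apply, Pi.smul_apply, smul_eq_mul, Finset.sum_add_distrib,
    ← Finset.mul_sum, sum_zc, sum_ins, h]
  ring

lemma nsq_mix (j : Fin (k + 1)) (r : ℝ) {ζ : Fin k → ℝ} (h : ∑ i, ζ i = 1) :
    nsq (mix j r ζ) = (1 - r ^ 2) / ((k : ℝ) + 1) + r ^ 2 * nsq ζ := by
  have h1 : ∀ i, (mix j r ζ i) ^ 2 = (1 - r) ^ 2 * (zc (k + 1) i) ^ 2
      + 2 * (1 - r) * r * (1 / ((k : ℝ) + 1)) * ins j ζ i + r ^ 2 * (ins j ζ i) ^ 2 := by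
    intro i
    simp only [mix, Pi.add_apply, Pi.smul_apply, smul_eq_mul]
    have : zc (k + 1) i = 1 / ((k : ℝ) + 1) := by
      unfold zc; push_cast; rfl
    rw [this]
    ring
  have h2 : nsq (mix j r ζ) = (1 - r) ^ 2 * nsq (zc (k + 1))
      + 2 * (1 - r) * r * (1 / ((k : ℝ) + 1)) * ∑ i, ins j ζ i + r ^ 2 * nsq (ins j ζ) := by
    unfold nsq
    rw [Finset.sum_congr rfl fun i _ => h1 i, Finset.sum_add_distrib, Finset.sum_add_distrib,
      ← Finset.mul_sum, ← Finset.mul_sum, ← Finset.mul_sum]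
  rw [h2, nsq_zc, sum_ins, h, nsq_ins]
  have e1 : ((k : ℝ) + 1) ≠ 0 := by positivity
  field_simp
  ring

lemma mix_mem_stdSimplex (j : Fin (k + 1)) {r : ℝ} (hr : r ∈ Icc (0 : ℝ) 1) {ζ : Fin k → ℝ}
    (h : ζ ∈ stdSimplex ℝ (Fin k)) : mix j r ζ ∈ stdSimplex ℝ (Fin (k + 1)) := by
  refine ⟨fun i => ?_, sum_mix j r h.2⟩
  simp only [mix, Pi.add_apply, Pi.smul_apply, smul_eq_mul]
  have h1 := (zc_mem_stdSimplex k).1 i
  have h2 := ins_nonneg j h.1 i
  have h3 : 0 ≤ 1 - r := by linarith [hr.2]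
  have h4 := hr.1
  positivity

/-- `mix` is affine in the point of the facet -/
lemma mix_combo (j : Fin (k + 1)) (r a b : ℝ) (hab : a + b = 1) (ζ ζ' : Fin k → ℝ) :
    mix j r (a • ζ + b • ζ') = a • mix j r ζ + b • mix j r ζ' := by
  funext i
  simp only [mix, ins_add, ins_smul, Pi.add_apply, Pi.smul_apply, smul_eq_mul]
  linear_combination (-(1 - r) * zc (k + 1) i) * hab

/-- `mix` is affine in the radial variable -/
lemma mix_combo_radial (j : Fin (k + 1)) (r r' a b : ℝ) (hab : a + b = 1) (ζ : Fin k → ℝ) :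
    mix j (a * r + b * r') ζ = a • mix j r ζ + b • mix j r' ζ := by
  funext i
  simp only [mix, Pi.add_apply, Pi.smul_apply, smul_eq_mul]
  linear_combination (-zc (k + 1) i) * hab

lemma continuous_mix (j : Fin (k + 1)) :
    Continuous (fun q : ℝ × (Fin k → ℝ) => mix j q.1 q.2) := by
  unfold mix
  have h := continuous_ins (k := k) j
  fun_prop

end Vale.Agent.P254
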