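import Vale.Agent.P254.LM.Basic

/-!
# P254: stellar subdivision and symmetry of the standard simplex
-/

namespace Vale.Agent.P254

open MeasureTheory Set

lemma sum_zc_of_pos (N : ℕ) (hN : 0 < N) : ∑ i, zc N i = 1 := by
  have hN' : (N : ℝ) ≠ 0 := by exact_mod_cast hN.ne'
  simp [zc, hN']

lemma zc_pos_of_pos (N : ℕ) (hN : 0 < N) (j : Fin N) : 0 < zc N j := by
  have hN' : (0 : ℝ) < N := by exact_mod_cast hN
  simp only [zc]
  positivity

lemma hatP_zc (N : ℕ) (hN : 0 < N) : hatP (zc N) = stdS N := by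
  ext x
  rw [mem_hatP_iff, mem_stdS]
  constructor
  · rintro ⟨τ, μ, h1, h2, h3, rfl⟩
    refine ⟨fun i => ?_, ?_⟩
    · simp only [Pi.add_apply, Pi.smul_apply, smul_eq_mul]
      exact add_nonneg (mul_nonneg h1 (zc_pos_of_pos N hN i).le) (h2 i)
    · simp only [Pi.add_apply, Pi.smul_apply, smul_eq_mul]
      rw [Finset.sum_add_distrib, ← Finset.mul_sum, sum_zc_of_pos N hN, mul_one]
      exact h3
  · rintro ⟨h1, h2⟩
    exact ⟨0, x, le_rfl, h1, by simpa using h2, by simp⟩

/-- `integral_hatP` for integrable functions -/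
lemma integral_hatP_of_integrableOn {N : ℕ} (ζ : Fin N → ℝ) (hζ : ∑ i, ζ i = 1)
    (f : (Fin N → ℝ) → ℝ) (hf : IntegrableOn f (hatP ζ)) :
    ∫ x in hatP ζ, f x = ∑ j, max (ζ j) 0 * ∫ x in stdS N, f ((replCol ζ j).mulVec x) := by
  classical
  set s : Fin N → Set (Fin N → ℝ) := fun j =>
    if 0 < ζ j then img (replCol ζ j) (stdS N) else ∅ with hs
  have hU : hatP ζ = ⋃ j, s j := by
    rw [hatP_eq ζ hζ]
    ext x
    simp only [mem_iUnion, mem_ofPred_eq, exists_prop, hs]
    constructor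
    · rintro ⟨j, hj, hx⟩
      exact ⟨j, by rw [if_pos hj]; exact hx⟩
    · rintro ⟨j, hx⟩
      by_cases hj : 0 < ζ j
      · rw [if_pos hj] at hx; exact ⟨j, hj, hx⟩
      · rw [if_neg hj] at hx; exact absurd hx (notMem_empty _)
  have hm : ∀ j, NullMeasurableSet (s j) volume := by
    intro j
    simp only [hs]
    split_ifs
    · exact (isCompact_img _ (isCompact_stdS N)).measurableSet.nullMeasurableSet
    · exact MeasurableSet.empty.nullMeasurableSet
  have hd : Pairwise (Function.onFun (AEDisjoint (volume : Measure (Fin N → ℝ))) s) := by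
    intro j k hjk
    simp only [Function.onFun, AEDisjoint, hs]
    by_cases hj : 0 < ζ j
    · by_cases hk : 0 < ζ k
      · rw [if_pos hj, if_pos hk]; exact pieces_null_inter ζ hjk hj hk
      · rw [if_neg hk]; simp
    · rw [if_neg hj]; simp
  have hfi : IntegrableOn f (⋃ j, s j) volume := by
    rw [← hU]
    exact hf
  rw [hU, integral_iUnion_ae hm hd hfi, tsum_fintype]
  refine Finset.sum_congr rfl fun j _ => ?_
  simp only [hs]
  by_cases hj : 0 < ζ j
  · rw [if_pos hj, integral_img _ (by rw [det_replCol]; exact hj.ne'), det_replCol,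
      abs_of_pos hj, max_eq_left hj.le]
  · rw [if_neg hj, max_eq_right (not_lt.1 hj)]
    simp

/-- stellar subdivision of `stdS N` (a cone over the simplex `{∑ X = 1}`) at the barycentre `zc N` -/
theorem integral_stdS_subdiv (N : ℕ) (hN : 0 < N) (f : (Fin N → ℝ) → ℝ)
    (hf : IntegrableOn f (stdS N)) :
    ∫ X in stdS N, f X = ∑ j, (1 / (N : ℝ)) * ∫ X in stdS N, f ((replCol (zc N) j).mulVec X) := by
  have h := integral_hatP_of_integrableOn (zc N) (sum_zc_of_pos N hN) f (by rw [hatP_zc N hN]; exact hf)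
  rw [hatP_zc N hN] at h
  rw [h]
  refine Finset.sum_congr rfl fun j _ => ?_
  rw [max_eq_left (zc_pos_of_pos N hN j).le]
  rfl

/-- the pieces of the subdivision stay inside -/
theorem replCol_zc_mem_stdS (N : ℕ) (hN : 0 < N) (j : Fin N) {X : Fin N → ℝ} (hX : X ∈ stdS N) :
    (replCol (zc N) j).mulVec X ∈ stdS N := by
  rw [← hatP_zc N hN, hatP_eq (zc N) (sum_zc_of_pos N hN)]
  simp only [mem_iUnion, mem_ofPred_eq, exists_prop]
  exact ⟨j, zc_pos_of_pos N hN j, X, hX, rfl⟩

/-- invariance under permutations of the coordinates -/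
theorem integral_stdS_perm (N : ℕ) (σ : Equiv.Perm (Fin N)) (f : (Fin N → ℝ) → ℝ) :
    ∫ X in stdS N, f (fun i => X (σ i)) = ∫ X in stdS N, f X := by
  have hmul : ∀ X : Fin N → ℝ,
      (σ.toPEquiv.toMatrix : Matrix (Fin N) (Fin N) ℝ).mulVec X = fun i => X (σ i) := by
    intro X
    rw [PEquiv.toMatrix_toPEquiv_mulVec]
    rfl
  have hdet : |(σ.toPEquiv.toMatrix : Matrix (Fin N) (Fin N) ℝ).det| = 1 := by
    rw [Matrix.det_permutation]
    rcases Int.units_eq_one_or (Equiv.Perm.sign σ) with h | h <;> simp [h]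
  have hdet0 : (σ.toPEquiv.toMatrix : Matrix (Fin N) (Fin N) ℝ).det ≠ 0 := by
    intro h0
    rw [h0] at hdet
    simp at hdet
  have himg : img (σ.toPEquiv.toMatrix : Matrix (Fin N) (Fin N) ℝ) (stdS N) = stdS N := by
    ext y
    constructor
    · rintro ⟨X, ⟨h1, h2⟩, rfl⟩
      simp only [hmul]
      refine ⟨fun i => h1 _, ?_⟩
      rw [Equiv.sum_comp σ X]
      exact h2
    · rintro ⟨h1, h2⟩
      refine ⟨fun i => y (σ.symm i), ⟨fun i => h1 _, ?_⟩, ?_⟩
      · rw [Equiv.sum_comp σ.symm y]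
        exact h2
      · simp only [hmul]
        ext i
        simp
  have h := integral_img (σ.toPEquiv.toMatrix : Matrix (Fin N) (Fin N) ℝ) hdet0 (stdS N) f
  rw [himg, hdet, one_mul] at h
  rw [h]
  simp only [hmul]

end Vale.Agent.P254
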