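import Vale.Agent.P254.LM.ConeInt
import Vale.Agent.P254.LM.Subdiv

/-!
# P254: the cone formula: integration over a simplex in polar coordinates about the barycentre
-/

namespace Vale.Agent.P254

open MeasureTheory Set

/-- bounded measurable functions are integrable on `(0,1) × stdS k` -/
theorem integrableOn_prod_of_bdd {k : ℕ} {G : ℝ × (Fin k → ℝ) → ℝ} (hG : Measurable G) {M : ℝ}
    (hb : ∀ q ∈ Ioo (0 : ℝ) 1 ×ˢ stdS k, |G q| ≤ M) : IntegrableOn G (Ioo (0 : ℝ) 1 ×ˢ stdS k) := by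
  apply Measure.integrableOn_of_bounded (M := M) _ hG.aestronglyMeasurable
  · apply ae_restrict_of_forall_mem (measurableSet_Ioo.prod (measurableSet_stdS k))
    intro q hq
    rw [Real.norm_eq_abs]
    exact hb q hq
  · rw [Measure.volume_eq_prod, Measure.prod_prod]
    apply ENNReal.mul_ne_top
    · simp
    · exact volume_stdS_ne_top k

/-- Fubini, radial variable outside -/
theorem setIntegral_prod_radial_outer {k : ℕ} {G : ℝ × (Fin k → ℝ) → ℝ}
    (hG : IntegrableOn G (Ioo (0 : ℝ) 1 ×ˢ stdS k)) :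
    ∫ q in Ioo (0 : ℝ) 1 ×ˢ stdS k, G q = ∫ r in Ioo (0 : ℝ) 1, ∫ y in stdS k, G (r, y) :=
  setIntegral_prod G hG

/-- Fubini, radial variable inside -/
theorem setIntegral_prod_radial_inner {k : ℕ} {G : ℝ × (Fin k → ℝ) → ℝ}
    (hG : IntegrableOn G (Ioo (0 : ℝ) 1 ×ˢ stdS k)) :
    ∫ q in Ioo (0 : ℝ) 1 ×ˢ stdS k, G q = ∫ y in stdS k, ∫ r in Ioo (0 : ℝ) 1, G (r, y) := by
  have h : IntegrableOn G (Ioo (0 : ℝ) 1 ×ˢ stdS k)
      ((volume : Measure ℝ).prod (volume : Measure (Fin k → ℝ))) := hG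
  unfold IntegrableOn at h
  rw [← Measure.prod_restrict] at h
  rw [Measure.volume_eq_prod, ← Measure.prod_restrict]
  exact integral_prod_symm G h

theorem integrableOn_stdS_of_bdd {n : ℕ} {f : (Fin n → ℝ) → ℝ} (hf : Measurable f) {M : ℝ}
    (hb : ∀ x ∈ stdS n, |f x| ≤ M) : IntegrableOn f (stdS n) := by
  apply Measure.integrableOn_of_bounded (M := M) (volume_stdS_ne_top n) hf.aestronglyMeasurable
  apply ae_restrict_of_forall_mem (measurableSet_stdS n)
  intro q hq
  rw [Real.norm_eq_abs]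
  exact hb q hq

theorem integral_Ioo_pow_mul (m : ℕ) (c : ℝ) :
    ∫ s in Ioo (0 : ℝ) 1, s ^ m * c = (1 / ((m : ℝ) + 1)) * c := by
  rw [integral_mul_const, ← integral_Ioc_eq_integral_Ioo,
    ← intervalIntegral.integral_of_le zero_le_one, integral_pow]
  simp

/-- integration of a function which is constant on the rays -/
theorem integral_stdS_succ_radial (m : ℕ) (H : (Fin (m + 1) → ℝ) → ℝ)
    (hH : IntegrableOn H (stdS (m + 1))) (g : (Fin m → ℝ) → ℝ)
    (hg : ∀ s ∈ Ioo (0 : ℝ) 1, ∀ x ∈ stdS m, H (s • bary x) = g x) :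
    ∫ X in stdS (m + 1), H X = (1 / ((m : ℝ) + 1)) * ∫ x in stdS m, g x := by
  rw [integral_stdS_succ_cone m H hH, ← integral_Ioo_pow_mul]
  apply setIntegral_congr_fun measurableSet_Ioo
  intro s hs
  have : ∫ x in stdS m, H (s • bary x) = ∫ x in stdS m, g x :=
    setIntegral_congr_fun (measurableSet_stdS m) (fun x hx => hg s hs x hx)
  simp only [this]

/-- the radial extension of a function on the simplex -/
noncomputable def radExt {n : ℕ} (F : (Fin n → ℝ) → ℝ) (X : Fin n → ℝ) : ℝ :=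
  F ((∑ i, X i)⁻¹ • X)

theorem radExt_smul {n : ℕ} (F : (Fin n → ℝ) → ℝ) {s : ℝ} (hs : 0 < s) {Y : Fin n → ℝ}
    (hY : ∑ i, Y i = 1) : radExt F (s • Y) = F Y := by
  unfold radExt
  have : ∑ i, (s • Y) i = s := by
    simp only [Pi.smul_apply, smul_eq_mul]
    rw [← Finset.mul_sum, hY, mul_one]
  rw [this, smul_smul, inv_mul_cancel₀ hs.ne', one_smul]

theorem measurable_radExt {n : ℕ} {F : (Fin n → ℝ) → ℝ} (hF : Measurable F) :
    Measurable (radExt F) := by
  apply hF.comp
  have h1 : Measurable (fun X : Fin n → ℝ => (∑ i, X i)⁻¹) :=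
    (Finset.measurable_sum _ (fun i _ => measurable_pi_apply i)).inv
  exact h1.smul measurable_id

theorem radExt_bdd {n : ℕ} {F : (Fin n → ℝ) → ℝ} {M : ℝ}
    (hb : ∀ l ∈ stdSimplex ℝ (Fin n), |F l| ≤ M) {Y : Fin n → ℝ} (hY : ∀ i, 0 ≤ Y i) :
    |radExt F Y| ≤ |M| + |F 0| := by
  unfold radExt
  by_cases h : ∑ i, Y i = 0
  · rw [h, inv_zero, zero_smul]
    have := abs_nonneg M
    linarith
  · have hpos : 0 < ∑ i, Y i :=
      lt_of_le_of_ne (Finset.sum_nonneg (fun i _ => hY i)) (Ne.symm h)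
    have hm : (∑ i, Y i)⁻¹ • Y ∈ stdSimplex ℝ (Fin n) := by
      refine ⟨fun i => ?_, ?_⟩
      · exact mul_nonneg (inv_nonneg.mpr hpos.le) (hY i)
      · simp only [Pi.smul_apply, smul_eq_mul]
        rw [← Finset.mul_sum, inv_mul_cancel₀ h]
    have h1 := hb _ hm
    have h2 := le_abs_self M
    have h3 := abs_nonneg (F 0)
    linarith

/-- the point of the cone number `j` with parameter `x` -/
noncomputable def conePt {k : ℕ} (j : Fin (k + 2)) (x : Fin (k + 1) → ℝ) : Fin (k + 2) → ℝ :=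
  (1 - ∑ i, x i) • zc (k + 2) + ins j x

theorem sum_conePt {k : ℕ} (j : Fin (k + 2)) (x : Fin (k + 1) → ℝ) : ∑ i, conePt j x i = 1 := by
  unfold conePt
  simp only [Pi.add_apply, Pi.smul_apply, smul_eq_mul]
  rw [Finset.sum_add_distrib, ← Finset.mul_sum, sum_zc (k + 1), sum_ins]
  ring

theorem conePt_mem {k : ℕ} (j : Fin (k + 2)) {x : Fin (k + 1) → ℝ} (hx : x ∈ stdS (k + 1)) :
    conePt j x ∈ stdSimplex ℝ (Fin (k + 2)) := by
  refine ⟨fun i => ?_, sum_conePt j x⟩
  unfold conePt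
  simp only [Pi.add_apply, Pi.smul_apply, smul_eq_mul]
  have h1 : 0 ≤ 1 - ∑ i, x i := by linarith [hx.2]
  have h2 : 0 ≤ zc (k + 2) i := (zc_mem_stdSimplex (k + 1)).1 i
  have h3 := ins_nonneg j hx.1 i
  positivity

theorem continuous_conePt {k : ℕ} (j : Fin (k + 2)) : Continuous (conePt j) := by
  unfold conePt
  apply Continuous.add
  · have h1 : Continuous (fun x : Fin (k + 1) → ℝ => 1 - ∑ i, x i) :=
      continuous_const.sub (continuous_finsetSum _ (fun i _ => continuous_apply i))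
    exact h1.smul continuous_const
  · exact continuous_ins j

theorem conePt_smul_bary {k : ℕ} (j : Fin (k + 2)) (r : ℝ) (y : Fin k → ℝ) :
    conePt j (r • bary y) = mix j r (bary y) := by
  unfold conePt mix
  have : ∑ i, (r • bary y) i = r := by
    simp only [Pi.smul_apply, smul_eq_mul]
    rw [← Finset.mul_sum, sum_bary, mul_one]
  rw [this, ins_smul]

/-- the linear map of the piece number `j` after exchanging the coordinates `0` and `j` -/
theorem replCol_swap {k : ℕ} (j : Fin (k + 2)) (X : Fin (k + 2) → ℝ) :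
    (replCol (zc (k + 2)) j).mulVec (fun i => X (Equiv.swap 0 j i)) =
      X 0 • zc (k + 2) + ins j (Fin.tail X) := by
  funext r
  rw [replCol_mulVec, Equiv.swap_apply_right]
  simp only [Pi.add_apply, Pi.smul_apply, smul_eq_mul]
  congr 1
  unfold ins
  by_cases h : r = j
  · subst h
    rw [if_pos rfl, Equiv.swap_apply_right, Fin.cons_zero]
  · rw [if_neg h]
    have h0 : Equiv.swap 0 j r ≠ 0 := by
      intro h1
      apply h
      have := congrArg (Equiv.swap 0 j) h1
      rw [Equiv.swap_apply_self, Equiv.swap_apply_left] at this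
      exact this
    obtain ⟨i, hi⟩ := Fin.exists_succ_eq.mpr h0
    rw [← hi, Fin.cons_succ]
    rfl

theorem piece_smul_bary {k : ℕ} (j : Fin (k + 2)) (s : ℝ) (x : Fin (k + 1) → ℝ) :
    (s • bary x) 0 • zc (k + 2) + ins j (Fin.tail (s • bary x)) = s • conePt j x := by
  have h1 : (s • bary x) 0 = s * (1 - ∑ i, x i) := by
    rw [Pi.smul_apply, bary_zero, smul_eq_mul]
  have h2 : Fin.tail (s • bary x) = s • x := by
    funext i
    show s * bary x i.succ = s * x i
    rw [bary_succ]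
  rw [h1, h2, ins_smul]
  unfold conePt
  rw [smul_add, smul_smul]

theorem continuous_piece {k : ℕ} (j : Fin (k + 2)) :
    Continuous (fun X : Fin (k + 2) → ℝ => X 0 • zc (k + 2) + ins j (Fin.tail X)) := by
  apply Continuous.add
  · exact (continuous_apply 0).smul continuous_const
  · apply (continuous_ins j).comp
    exact continuous_pi (fun i => continuous_apply i.succ)

theorem piece_nonneg {k : ℕ} (j : Fin (k + 2)) {X : Fin (k + 2) → ℝ} (hX : X ∈ stdS (k + 2))
    (i : Fin (k + 2)) : 0 ≤ (X 0 • zc (k + 2) + ins j (Fin.tail X)) i := by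
  simp only [Pi.add_apply, Pi.smul_apply, smul_eq_mul]
  have h1 : 0 ≤ X 0 := hX.1 0
  have h2 : 0 ≤ zc (k + 2) i := (zc_mem_stdSimplex (k + 1)).1 i
  have h3 := ins_nonneg j (ζ := Fin.tail X) (fun i => hX.1 i.succ) i
  positivity

/-- one piece of the subdivision -/
theorem integral_piece (k : ℕ) (F : (Fin (k + 2) → ℝ) → ℝ) (hF : Measurable F) {M : ℝ}
    (hb : ∀ l ∈ stdSimplex ℝ (Fin (k + 2)), |F l| ≤ M) (j : Fin (k + 2)) :
    ∫ X in stdS (k + 2), radExt F ((replCol (zc (k + 2)) j).mulVec X) =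
      (1 / ((k : ℝ) + 2)) * ∫ x in stdS (k + 1), F (conePt j x) := by
  rw [← integral_stdS_perm (k + 2) (Equiv.swap 0 j)
    (fun X => radExt F ((replCol (zc (k + 2)) j).mulVec X))]
  simp_rw [replCol_swap]
  have hint : IntegrableOn (fun X : Fin (k + 2) → ℝ =>
      radExt F (X 0 • zc (k + 2) + ins j (Fin.tail X))) (stdS (k + 2)) :=
    integrableOn_stdS_of_bdd ((measurable_radExt hF).comp (continuous_piece j).measurable)
      (fun X hX => radExt_bdd hb (piece_nonneg j hX))
  rw [integral_stdS_succ_radial (k + 1) _ hint (fun x => F (conePt j x))]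
  · congr 2
    push_cast
    ring
  · intro s hs x _
    rw [piece_smul_bary, radExt_smul F hs.1 (sum_conePt j x)]

/-- the cone number `j` in polar coordinates -/
theorem integral_conePt (k : ℕ) (F : (Fin (k + 2) → ℝ) → ℝ) (hF : Measurable F) {M : ℝ}
    (hb : ∀ l ∈ stdSimplex ℝ (Fin (k + 2)), |F l| ≤ M) (j : Fin (k + 2)) :
    ∫ x in stdS (k + 1), F (conePt j x) =
      ∫ q in Ioo (0 : ℝ) 1 ×ˢ stdS k, q.1 ^ k * F (mix j q.1 (bary q.2)) := by
  have hint : IntegrableOn (fun x : Fin (k + 1) → ℝ => F (conePt j x)) (stdS (k + 1)) :=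
    integrableOn_stdS_of_bdd (hF.comp (continuous_conePt j).measurable)
      (fun x hx => hb _ (conePt_mem j hx))
  rw [integral_stdS_succ_cone k _ hint]
  have hmeas : Measurable (fun q : ℝ × (Fin k → ℝ) => q.1 ^ k * F (mix j q.1 (bary q.2))) := by
    apply Measurable.mul
    · exact (measurable_fst).pow_const k
    · apply hF.comp
      exact ((continuous_mix j).comp
        (continuous_fst.prodMk (continuous_bary.comp continuous_snd))).measurable
  have hG : IntegrableOn (fun q : ℝ × (Fin k → ℝ) => q.1 ^ k * F (mix j q.1 (bary q.2)))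
      (Ioo (0 : ℝ) 1 ×ˢ stdS k) := by
    apply integrableOn_prod_of_bdd hmeas (M := M)
    rintro ⟨r, y⟩ ⟨hr, hy⟩
    have hr' : r ∈ Ioo (0 : ℝ) 1 := hr
    have hy' : y ∈ stdS k := hy
    have h1 := hb _ (mix_mem_stdSimplex j (r := r) ⟨hr'.1.le, hr'.2.le⟩ (bary_mem_stdSimplex hy'))
    have h2 : |r ^ k| ≤ 1 := by
      rw [abs_of_nonneg (pow_nonneg hr'.1.le k)]
      exact pow_le_one₀ hr'.1.le hr'.2.le
    show |r ^ k * F (mix j r (bary y))| ≤ M
    rw [abs_mul]
    calc |r ^ k| * |F (mix j r (bary y))| ≤ 1 * |F (mix j r (bary y))| :=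
          mul_le_mul_of_nonneg_right h2 (abs_nonneg _)
      _ ≤ M := by rw [one_mul]; exact h1
  rw [setIntegral_prod_radial_outer hG]
  apply setIntegral_congr_fun measurableSet_Ioo
  intro r _
  simp only [conePt_smul_bary]
  rw [integral_const_mul]

/-- **Cone formula.** The `(k+1)`-simplex is the union of the `k+2` cones with apex the barycentre
over its facets; the point `mix j r ζ` runs through the cone number `j`. -/
theorem Eav_succ (k : ℕ) (F : (Fin (k + 2) → ℝ) → ℝ) (hF : Measurable F)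
    (hb : ∃ M, ∀ l ∈ stdSimplex ℝ (Fin (k + 2)), |F l| ≤ M) :
    Eav (k + 1) F = (1 / ((k : ℝ) + 2)) * ∑ j : Fin (k + 2), ((k + 1).factorial : ℝ) *
      ∫ q in Ioo (0 : ℝ) 1 ×ˢ stdS k, q.1 ^ k * F (mix j q.1 (bary q.2)) := by
  obtain ⟨M, hM⟩ := hb
  have hint : IntegrableOn (radExt F) (stdS (k + 2)) :=
    integrableOn_stdS_of_bdd (measurable_radExt hF) (fun X hX => radExt_bdd hM hX.1)
  have e1 : ∫ X in stdS (k + 2), radExt F X =
      (1 / (((k + 1 : ℕ) : ℝ) + 1)) * ∫ x in stdS (k + 1), F (bary x) :=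
    integral_stdS_succ_radial (k + 1) _ hint (fun x => F (bary x))
      (fun s hs x _ => radExt_smul F hs.1 (sum_bary x))
  have e2 := integral_stdS_subdiv (k + 2) (by omega) (radExt F) hint
  simp_rw [integral_piece k F hF hM, integral_conePt k F hF hM] at e2
  rw [e1] at e2
  unfold Eav
  have hk : (0 : ℝ) < (k : ℝ) + 2 := by positivity
  have c1 : (((k + 1 : ℕ) : ℝ) + 1) = (k : ℝ) + 2 := by push_cast; ring
  have c2 : (((k + 2 : ℕ) : ℝ)) = (k : ℝ) + 2 := by push_cast; ring
  rw [c1, c2, ← Finset.mul_sum, ← Finset.mul_sum] at e2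
  have e3 : ∫ x in stdS (k + 1), F (bary x) = (1 / ((k : ℝ) + 2)) *
      ∑ j : Fin (k + 2), ∫ q in Ioo (0 : ℝ) 1 ×ˢ stdS k, q.1 ^ k * F (mix j q.1 (bary q.2)) := by
    have h0 : (1 / ((k : ℝ) + 2)) ≠ 0 := by positivity
    exact mul_left_cancel₀ h0 e2
  rw [e3, ← Finset.mul_sum]
  ring

end Vale.Agent.P254
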