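import Vale.Agent.P254.LM.GaugeFacts

/-!
# P254: a convex subset of the simplex of almost full volume contains a large core
-/

namespace Vale.Agent.P254

open MeasureTheory Set

variable {n : ℕ} {K : Set (Fin n → ℝ)}

open Pointwise in
theorem containsCore_of_vol (hKc : IsCompact K) (hconv : Convex ℝ K) (hKT : K ⊆ stdS n) {θ : ℝ}
    (hθ : 0 < θ) (hvol : (1 - θ ^ n) * vol (stdS n) < vol K) : ContainsCore K θ := by
  intro x hx hbx
  by_contra hxK
  obtain ⟨f, u, hfK, hfx⟩ := geometric_hahn_banach_closed_point hconv hKc.isClosed hxK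
  have hne : (stdS n).Nonempty := ⟨x, hx⟩
  obtain ⟨v, hv, hvmax⟩ := (isCompact_stdS n).exists_isMaxOn hne f.continuous.continuousOn
  obtain ⟨Q, hQ⟩ : ∃ Q : Set (Fin n → ℝ), Q = (fun z => (x + θ • v) + z) '' ((-θ) • stdS n) :=
    ⟨_, rfl⟩
  have hQmem : ∀ z ∈ Q, ∃ y ∈ stdS n, z = x + θ • (v - y) := by
    intro z hz
    rw [hQ] at hz
    obtain ⟨w, hw, rfl⟩ := hz
    obtain ⟨y, hy, rfl⟩ := Set.mem_smul_set.mp hw
    refine ⟨y, hy, ?_⟩
    simp only [smul_sub, neg_smul]
    abel
  have hx0 : θ ≤ 1 - ∑ i, x i := by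
    have := hbx 0
    rwa [bary_zero] at this
  have hxi : ∀ i, θ ≤ x i := by
    intro i
    have := hbx i.succ
    rwa [bary_succ] at this
  have hQT : Q ⊆ stdS n := by
    intro z hz
    obtain ⟨y, hy, rfl⟩ := hQmem z hz
    refine ⟨fun i => ?_, ?_⟩
    · have h1 : y i ≤ 1 :=
        le_trans (Finset.single_le_sum (f := y) (fun j _ => hy.1 j) (Finset.mem_univ i)) hy.2
      have h2 := hv.1 i
      have h3 := hxi i
      simp only [Pi.add_apply, Pi.smul_apply, Pi.sub_apply, smul_eq_mul]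
      nlinarith
    · have h1 : 0 ≤ ∑ i, y i := Finset.sum_nonneg (fun j _ => hy.1 j)
      have h2 := hv.2
      have e : ∑ i, (x + θ • (v - y)) i = ∑ i, x i + θ * (∑ i, v i - ∑ i, y i) := by
        simp only [Pi.add_apply, Pi.smul_apply, Pi.sub_apply, smul_eq_mul]
        rw [Finset.sum_add_distrib, ← Finset.mul_sum, Finset.sum_sub_distrib]
      rw [e]
      nlinarith
  have hQK : Disjoint K Q := by
    rw [Set.disjoint_left]
    intro z hzK hzQ
    obtain ⟨y, hy, rfl⟩ := hQmem z hzQ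
    have h1 := hfK _ hzK
    have h2 : f y ≤ f v := hvmax hy
    rw [map_add, map_smul, map_sub, smul_eq_mul] at h1
    nlinarith
  have hQc : IsCompact Q := by
    rw [hQ]
    exact ((isCompact_stdS n).smul (-θ)).image (by fun_prop)
  have hQvol : volume Q = ENNReal.ofReal (θ ^ n) * volume (stdS n) := by
    rw [hQ, Set.image_add_left, measure_preimage_add, Measure.addHaar_smul]
    congr 2
    rw [Module.finrank_fin_fun, abs_pow, abs_neg, abs_of_pos hθ]
  have h1 : volume (K ∪ Q) ≤ volume (stdS n) := measure_mono (union_subset hKT hQT)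
  rw [measure_union hQK hQc.measurableSet] at h1
  have h2 := ENNReal.toReal_mono (volume_stdS_ne_top n) h1
  rw [ENNReal.toReal_add hKc.measure_lt_top.ne hQc.measure_lt_top.ne, hQvol, ENNReal.toReal_mul,
    ENNReal.toReal_ofReal (by positivity)] at h2
  unfold vol at hvol
  nlinarith

theorem eq_stdS_of_vol_eq (hKc : IsCompact K) (hconv : Convex ℝ K) (hKT : K ⊆ stdS n)
    (h : vol K = vol (stdS n)) : K = stdS n := by
  apply Subset.antisymm hKT
  intro x hx
  have hcore : ∀ θ : ℝ, 0 < θ → ContainsCore K θ := by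
    intro θ hθ
    apply containsCore_of_vol hKc hconv hKT hθ
    rw [h]
    have h1 := vol_stdS_pos n
    have h2 : 0 < θ ^ n := by positivity
    nlinarith
  have hbx : ∀ i, 0 ≤ bary x i := mem_stdS_iff_bary.mp hx
  have hn : (0 : ℝ) < (n : ℝ) + 1 := by positivity
  have hpt : ∀ t : ℝ, t ∈ Ioo (0 : ℝ) 1 → (1 - t) • x + t • Fin.tail (zc (n + 1)) ∈ K := by
    intro t ht
    have hb : bary ((1 - t) • x + t • Fin.tail (zc (n + 1))) =
        (1 - t) • bary x + t • zc (n + 1) := by
      rw [bary_combo (1 - t) t (by ring), bary_tail (sum_zc n)]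
    have hge : ∀ i, t / ((n : ℝ) + 1) ≤ bary ((1 - t) • x + t • Fin.tail (zc (n + 1))) i := by
      intro i
      rw [hb]
      simp only [Pi.add_apply, Pi.smul_apply, smul_eq_mul, zc]
      have h1 : 0 ≤ (1 - t) * bary x i := mul_nonneg (by linarith [ht.2]) (hbx i)
      have h2 : t * (1 / ((n + 1 : ℕ) : ℝ)) = t / ((n : ℝ) + 1) := by
        push_cast
        ring
      rw [h2]
      linarith
    have hpos : 0 < t / ((n : ℝ) + 1) := div_pos ht.1 hn
    apply hcore _ hpos _ _ hge
    rw [mem_stdS_iff_bary]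
    intro i
    exact le_trans hpos.le (hge i)
  have hcont : Continuous (fun t : ℝ => (1 - t) • x + t • Fin.tail (zc (n + 1))) := by
    fun_prop
  have htend : Filter.Tendsto (fun t : ℝ => (1 - t) • x + t • Fin.tail (zc (n + 1)))
      (nhdsWithin 0 (Set.Ioi 0)) (nhds x) := by
    have h0 := (hcont.tendsto 0).mono_left (nhdsWithin_le_nhds (s := Set.Ioi (0 : ℝ)))
    simpa using h0
  apply hKc.isClosed.mem_of_tendsto htend
  have : Ioo (0 : ℝ) 1 ∈ nhdsWithin (0 : ℝ) (Set.Ioi 0) := Ioo_mem_nhdsGT (by norm_num)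
  filter_upwards [this] with t ht
  exact hpt t ht

end Vale.Agent.P254
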