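import Vale.Agent.P254.LM.Basic

/-!
# P254: integration over cones
-/

namespace Vale.Agent.P254

open MeasureTheory Set

open Pointwise in
/-- integration over the cone `cone0 K = {t (1,y) : t ∈ [0,1], y ∈ K}` -/
theorem integral_cone0 {k : ℕ} {K : Set (Fin k → ℝ)} (hK : IsCompact K)
    (f : (Fin (k + 1) → ℝ) → ℝ) (hf : IntegrableOn f (cone0 K)) :
    ∫ p in cone0 K, f p = ∫ t in Ioo (0 : ℝ) 1, t ^ k * ∫ y in K, f (t • lift1 y) := by
  obtain ⟨e, he⟩ : ∃ e, e = MeasurableEquiv.piFinSuccAbove (fun _ : Fin (k + 1) => ℝ) 0 := ⟨_, rfl⟩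
  have mp : MeasurePreserving e.symm volume volume := by
    rw [he]; exact (volume_preserving_piFinSuccAbove (fun _ : Fin (k + 1) => ℝ) 0).symm
  have hes : ∀ q : ℝ × (Fin k → ℝ), e.symm q = (Fin.cons q.1 q.2 : Fin (k + 1) → ℝ) := by
    intro q
    simp [he, MeasurableEquiv.piFinSuccAbove, Fin.insertNthEquiv, Fin.insertNth_zero']
  have h1 := mp.setIntegral_preimage_emb e.symm.measurableEmbedding f (cone0 K)
  have hpre : e.symm ⁻¹' (cone0 K) = profileProd (fun t => t) K := by
    ext ⟨t, y⟩
    simp only [mem_preimage, hes, cone0, profileSet, profileProd, mem_image, mem_prod, Prod.exists,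
      Prod.mk.injEq]
    constructor
    · rintro ⟨a, b, hab, heq⟩
      have h0 := congrFun heq 0
      simp only [Fin.cons_zero] at h0
      have h2 : a • b = y := by
        ext j
        have := congrFun heq j.succ
        simpa using this
      exact ⟨a, b, hab, h0, h2⟩
    · rintro ⟨a, b, hab, rfl, rfl⟩
      exact ⟨a, b, hab, rfl⟩
  have hint0 : IntegrableOn (f ∘ e.symm) (e.symm ⁻¹' (cone0 K)) volume :=
    (mp.integrableOn_comp_preimage e.symm.measurableEmbedding).mpr hf
  rw [← h1, hpre]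
  rw [hpre] at hint0
  have hfe : (f ∘ e.symm) = fun q : ℝ × (Fin k → ℝ) => f (Fin.cons q.1 q.2) := by
    funext q; simp only [Function.comp, hes]
  rw [hfe] at hint0
  simp only [hes]
  have hcomp := isCompact_profileProd (continuous_id' : Continuous (fun t : ℝ => t)) hK
  have hmeas : MeasurableSet (profileProd (fun t => t) K) := hcomp.isClosed.measurableSet
  rw [← integral_indicator hmeas, Measure.volume_eq_prod, integral_prod]
  swap
  · rw [← Measure.volume_eq_prod, integrable_indicator_iff hmeas]; exact hint0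
  have hinner : ∀ t : ℝ, ∫ y, (profileProd (fun t => t) K).indicator
      (fun q : ℝ × (Fin k → ℝ) => f (Fin.cons q.1 q.2)) (t, y)
      = (Icc (0 : ℝ) 1).indicator (fun t => ∫ y in t • K, f (Fin.cons t y)) t := by
    intro t
    by_cases ht : t ∈ Icc (0 : ℝ) 1
    · rw [indicator_of_mem ht]
      have : ∀ y, (profileProd (fun t => t) K).indicator
          (fun q : ℝ × (Fin k → ℝ) => f (Fin.cons q.1 q.2)) (t, y)
          = (t • K).indicator (fun y => f (Fin.cons t y)) y := by
        intro y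
        by_cases hy : y ∈ t • K
        · rw [indicator_of_mem hy, indicator_of_mem (mem_profileProd.mpr ⟨ht, hy⟩)]
        · rw [indicator_of_notMem hy, indicator_of_notMem]
          intro hc; exact hy (mem_profileProd.mp hc).2
      simp_rw [this]
      have hm : MeasurableSet (t • K) := (hK.smul t).isClosed.measurableSet
      rw [integral_indicator hm]
    · rw [indicator_of_notMem ht]
      have : ∀ y, (profileProd (fun t => t) K).indicator
          (fun q : ℝ × (Fin k → ℝ) => f (Fin.cons q.1 q.2)) (t, y) = 0 := by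
        intro y
        rw [indicator_of_notMem]
        intro hc; exact ht (mem_profileProd.mp hc).1
      simp_rw [this]
      simp
  simp_rw [hinner]
  rw [integral_indicator measurableSet_Icc, integral_Icc_eq_integral_Ioo]
  refine setIntegral_congr_fun measurableSet_Ioo fun t ht => ?_
  have hp : 0 < t := ht.1
  have h3 := Measure.setIntegral_comp_smul_of_pos (volume : Measure (Fin k → ℝ))
    (fun y => f (Fin.cons t y)) K hp
  simp only [Module.finrank_fin_fun, smul_eq_mul] at h3
  have hne : t ^ k ≠ 0 := pow_ne_zero _ hp.ne'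
  have hl : ∀ y : Fin k → ℝ, t • lift1 y = (Fin.cons t (t • y) : Fin (k + 1) → ℝ) := by
    intro y
    ext i
    refine Fin.cases ?_ (fun j => ?_) i
    · simp [lift1]
    · simp [lift1]
  simp_rw [hl]
  show ∫ y in t • K, f (Fin.cons t y) = _
  rw [h3]; field_simp

lemma integrableOn_img_iff {n : ℕ} (A : Matrix (Fin n) (Fin n) ℝ) (hA : A.det ≠ 0)
    (K : Set (Fin n → ℝ)) (f : (Fin n → ℝ) → ℝ) :
    IntegrableOn f (img A K) ↔ IntegrableOn (fun x => f (A.mulVec x)) K := by
  set L : (Fin n → ℝ) →ₗ[ℝ] (Fin n → ℝ) := Matrix.toLin' A with hL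
  have hdet : LinearMap.det L = A.det := by rw [hL, LinearMap.det_toLin']
  have hdet' : LinearMap.det L ≠ 0 := by rw [hdet]; exact hA
  have hLx : ∀ x, L x = A.mulVec x := fun x => by rw [hL, Matrix.toLin'_apply]
  let e : (Fin n → ℝ) ≃L[ℝ] (Fin n → ℝ) :=
    (LinearMap.equivOfDetNeZero L hdet').toContinuousLinearEquiv
  have he : ∀ x, e x = L x := fun x => rfl
  have hemb : MeasurableEmbedding (L : (Fin n → ℝ) → (Fin n → ℝ)) := by
    have : (L : (Fin n → ℝ) → (Fin n → ℝ)) = e := by ext1 x; exact (he x).symm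
    rw [this]
    exact e.toHomeomorph.measurableEmbedding
  have hinj : Function.Injective (L : (Fin n → ℝ) → (Fin n → ℝ)) := hemb.injective
  have himg : img A K = L '' K := by
    unfold img; congr 1
  have h1 := hemb.integrableOn_map_iff (μ := (volume : Measure (Fin n → ℝ))) (f := f)
    (s := L '' K)
  rw [Measure.map_linearMap_addHaar_eq_smul_addHaar _ hdet', preimage_image_eq _ hinj] at h1
  have h2 : IntegrableOn f (L '' K) (ENNReal.ofReal |(LinearMap.det L)⁻¹| • volume)
      ↔ IntegrableOn f (L '' K) volume := by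
    unfold IntegrableOn
    rw [Measure.restrict_smul]
    refine integrable_smul_measure ?_ ENNReal.ofReal_ne_top
    simp only [ne_eq, ENNReal.ofReal_eq_zero, not_le]
    exact abs_pos.mpr (inv_ne_zero hdet')
  rw [himg, ← h2, h1]
  rfl

/-- the unimodular matrix `p ↦ (p 0 - ∑ i ≥ 1, p i, p 1, …)` -/
noncomputable def NmMat (k : ℕ) : Matrix (Fin (k + 1)) (Fin (k + 1)) ℝ :=
  (replCol (Fin.cons 1 (fun _ => -1) : Fin (k + 1) → ℝ) 0).transpose

lemma det_NmMat (k : ℕ) : (NmMat k).det = 1 := by
  rw [NmMat, Matrix.det_transpose, det_replCol]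
  simp

lemma NmMat_mulVec_smul_lift1 (k : ℕ) (t : ℝ) (y : Fin k → ℝ) :
    (NmMat k).mulVec (t • lift1 y) = t • bary y := by
  ext r
  simp only [NmMat, Matrix.mulVec, dotProduct, Matrix.transpose_apply, replCol, Matrix.of_apply]
  refine Fin.cases ?_ (fun j => ?_) r
  · simp only [if_true, Fin.sum_univ_succ, Fin.cons_zero, Fin.cons_succ, Pi.smul_apply,
      smul_eq_mul, lift1, bary]
    rw [mul_sub, Finset.mul_sum, sub_eq_add_neg, ← Finset.sum_neg_distrib]
    congr 1
    · ring
    · exact Finset.sum_congr rfl fun i _ => by ring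
  · simp only [Fin.succ_ne_zero, if_false, ite_mul, one_mul, zero_mul]
    rw [Finset.sum_ite_eq' Finset.univ j.succ]
    simp [lift1, bary]

lemma stdS_succ_eq_img (k : ℕ) : stdS (k + 1) = img (NmMat k) (cone0 (stdS k)) := by
  ext X
  constructor
  · intro hX
    obtain ⟨h0, h1⟩ := mem_stdS.mp hX
    have hs0 : 0 ≤ ∑ i, X i := Finset.sum_nonneg fun i _ => h0 i
    rcases hs0.eq_or_lt with hz | hpos
    · have hX0 : X = 0 := by
        ext i
        exact (Finset.sum_eq_zero_iff_of_nonneg fun i _ => h0 i).mp hz.symm i (Finset.mem_univ i)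
      refine ⟨(0 : ℝ) • lift1 (0 : Fin k → ℝ), mem_cone0.mpr ⟨0, ⟨le_rfl, zero_le_one⟩, 0, ?_, rfl⟩,
        ?_⟩
      · exact mem_stdS.mpr ⟨fun i => le_rfl, by simp⟩
      · show (NmMat k).mulVec _ = X
        rw [NmMat_mulVec_smul_lift1, hX0]; simp
    · set s := ∑ i, X i with hs
      have hbx : bary (Fin.tail (s⁻¹ • X)) = s⁻¹ • X := by
        apply bary_tail
        simp only [Pi.smul_apply, smul_eq_mul]
        rw [← Finset.mul_sum, ← hs, inv_mul_cancel₀ hpos.ne']
      refine ⟨s • lift1 (Fin.tail (s⁻¹ • X)), mem_cone0.mpr ⟨s, ⟨hs0, h1⟩, _, ?_, rfl⟩, ?_⟩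
      · rw [mem_stdS_iff_bary, hbx]
        intro i
        simp only [Pi.smul_apply, smul_eq_mul]
        exact mul_nonneg (inv_nonneg.mpr hs0) (h0 i)
      · show (NmMat k).mulVec _ = X
        rw [NmMat_mulVec_smul_lift1, hbx, smul_smul, mul_inv_cancel₀ hpos.ne', one_smul]
  · rintro ⟨p, hp, rfl⟩
    obtain ⟨s, hs, x, hx, rfl⟩ := mem_cone0.mp hp
    show (NmMat k).mulVec _ ∈ _
    rw [NmMat_mulVec_smul_lift1, mem_stdS]
    constructor
    · intro i
      simp only [Pi.smul_apply, smul_eq_mul]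
      exact mul_nonneg hs.1 (mem_stdS_iff_bary.mp hx i)
    · simp only [Pi.smul_apply, smul_eq_mul]
      rw [← Finset.mul_sum, sum_bary, mul_one]
      exact hs.2

/-- the standard simplex of `ℝ^{k+1}` is the cone with apex `0` over its facet `{∑ X = 1}`, and
this facet is parametrised by `bary` -/
theorem integral_stdS_succ_cone (k : ℕ) (H : (Fin (k + 1) → ℝ) → ℝ)
    (hH : IntegrableOn H (stdS (k + 1))) :
    ∫ X in stdS (k + 1), H X = ∫ s in Ioo (0 : ℝ) 1, s ^ k * ∫ x in stdS k, H (s • bary x) := by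
  have hdet : (NmMat k).det ≠ 0 := by rw [det_NmMat]; exact one_ne_zero
  rw [stdS_succ_eq_img] at hH ⊢
  rw [integral_img _ hdet, det_NmMat, abs_one, one_mul,
    integral_cone0 (isCompact_stdS k) _ ((integrableOn_img_iff _ hdet _ _).mp hH)]
  simp_rw [NmMat_mulVec_smul_lift1]

end Vale.Agent.P254
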