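import Vale.Agent.P254.LM.DetAMGM
import Vale.Agent.P254.LM.Basic

/-!
# P254: comparison of a body with the standard simplex through the quadratic form of the simplex
-/

namespace Vale.Agent.P254

open MeasureTheory Set Matrix

/-- the inverse covariance matrix of the standard simplex: `(n+1)(n+2)(1 + J)` -/
noncomputable def PT (n : ℕ) : Matrix (Fin n) (Fin n) ℝ :=
  Matrix.of fun i j => (((n : ℝ) + 1) * ((n : ℝ) + 2)) * ((if i = j then 1 else 0) + 1)

theorem PT_posSemidef (n : ℕ) : (PT n).PosSemidef := by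
  refine Matrix.PosSemidef.of_dotProduct_mulVec_nonneg ?_ ?_
  · ext i j
    simp only [PT, Matrix.conjTranspose_apply, Matrix.of_apply, star_trivial, eq_comm]
  · intro y
    have key : star y ⬝ᵥ (PT n).mulVec y
        = (((n : ℝ) + 1) * ((n : ℝ) + 2)) * (∑ i, y i ^ 2 + (∑ i, y i) ^ 2) := by
      simp only [dotProduct, Matrix.mulVec, PT, Matrix.of_apply, star_trivial]
      have h1 : ∀ i, ∑ j, (((n : ℝ) + 1) * ((n : ℝ) + 2)) * ((if i = j then 1 else 0) + 1) * y j
          = (((n : ℝ) + 1) * ((n : ℝ) + 2)) * (y i + ∑ j, y j) := by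
        intro i
        have : ∀ j, (((n : ℝ) + 1) * ((n : ℝ) + 2)) * ((if i = j then 1 else 0) + 1) * y j
            = (((n : ℝ) + 1) * ((n : ℝ) + 2)) * ((if i = j then y j else 0) + y j) := by
          intro j
          split_ifs <;> ring
        simp only [this, ← Finset.mul_sum, Finset.sum_add_distrib, Finset.sum_ite_eq,
          Finset.mem_univ, if_true]
      simp only [h1]
      rw [sq (∑ i, y i), Finset.sum_mul, ← Finset.sum_add_distrib, Finset.mul_sum]
      refine Finset.sum_congr rfl fun i _ => ?_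
      ring
    rw [key]
    have : 0 ≤ ∑ i, y i ^ 2 := Finset.sum_nonneg fun i _ => sq_nonneg _
    positivity

theorem det_PT (n : ℕ) : (PT n).det = ((n : ℝ) + 1) ^ (n + 1) * ((n : ℝ) + 2) ^ n := by
  have h : PT n = (((n : ℝ) + 1) * ((n : ℝ) + 2)) •
      (1 + replicateCol Unit (fun _ : Fin n => (1 : ℝ)) * replicateRow Unit (fun _ => (1 : ℝ))) := by
    ext i j
    simp [PT, Matrix.one_apply, Matrix.mul_apply]
  rw [h, Matrix.det_smul, Matrix.det_one_add_replicateCol_mul_replicateRow]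
  simp only [Fintype.card_fin, dotProduct, mul_one, Finset.sum_const, Finset.card_univ,
    nsmul_eq_mul]
  rw [mul_pow]
  ring

/-- the trace of `PT n * A` -/
theorem trace_PT_mul_ki (n : ℕ) (A : Matrix (Fin n) (Fin n) ℝ) :
    (PT n * A).trace
      = (((n : ℝ) + 1) * ((n : ℝ) + 2)) * (∑ i, A i i + ∑ i, ∑ j, A j i) := by
  simp only [Matrix.trace, Matrix.diag_apply, Matrix.mul_apply, PT, Matrix.of_apply]
  have h1 : ∀ i, ∑ j, (((n : ℝ) + 1) * ((n : ℝ) + 2)) * ((if i = j then 1 else 0) + 1) * A j i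
      = (((n : ℝ) + 1) * ((n : ℝ) + 2)) * (A i i + ∑ j, A j i) := by
    intro i
    have : ∀ j, (((n : ℝ) + 1) * ((n : ℝ) + 2)) * ((if i = j then 1 else 0) + 1) * A j i
        = (((n : ℝ) + 1) * ((n : ℝ) + 2)) * ((if i = j then A j i else 0) + A j i) := by
      intro j
      split_ifs <;> ring
    simp only [this, ← Finset.mul_sum, Finset.sum_add_distrib, Finset.sum_ite_eq,
      Finset.mem_univ, if_true]
  simp only [h1, ← Finset.mul_sum, Finset.sum_add_distrib]

theorem integral_nsq_bary_ki {n : ℕ} {K : Set (Fin n → ℝ)} (hK : IsCompact K) :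
    ∫ x in K, nsq (bary x)
      = vol K - 2 * ∑ i, mom1 K i + ∑ i, ∑ j, mom2 K i j + ∑ i, mom2 K i i := by
  have e : ∀ x : Fin n → ℝ, nsq (bary x)
      = 1 - 2 * ∑ i, x i + ∑ i, ∑ j, x i * x j + ∑ i, x i * x i := by
    intro x
    rw [nsq_bary, ← Finset.sum_mul_sum]
    have : ∑ i, x i ^ 2 = ∑ i, x i * x i := Finset.sum_congr rfl fun i _ => sq _
    rw [this]
    ring
  simp_rw [e]
  have i0 : IntegrableOn (fun _ : Fin n → ℝ => (1 : ℝ)) K volume :=
    continuous_const.continuousOn.integrableOn_compact hK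
  have i1 : IntegrableOn (fun x : Fin n → ℝ => 2 * ∑ i, x i) K volume :=
    (integrable_finsetSum _ fun i _ => integrableOn_coord hK i).const_mul _
  have i2 : IntegrableOn (fun x : Fin n → ℝ => ∑ i, ∑ j, x i * x j) K volume :=
    integrable_finsetSum _ fun i _ => integrable_finsetSum _ fun j _ =>
      integrableOn_coord_mul hK i j
  have i3 : IntegrableOn (fun x : Fin n → ℝ => ∑ i, x i * x i) K volume :=
    integrable_finsetSum _ fun i _ => integrableOn_coord_mul hK i i
  have s1 : ∫ x in K, (1 - 2 * ∑ i, x i + ∑ i, ∑ j, x i * x j + ∑ i, x i * x i)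
      = (∫ x in K, (1 - 2 * ∑ i, x i + ∑ i, ∑ j, x i * x j)) + ∫ x in K, ∑ i, x i * x i :=
    integral_add ((i0.sub i1).add i2) i3
  have s2 : ∫ x in K, (1 - 2 * ∑ i, x i + ∑ i, ∑ j, x i * x j)
      = (∫ x in K, (1 - 2 * ∑ i, x i)) + ∫ x in K, ∑ i, ∑ j, x i * x j :=
    integral_add (i0.sub i1) i2
  have s3 : ∫ x in K, (1 - 2 * ∑ i, x i) = (∫ _x in K, (1 : ℝ)) - ∫ x in K, 2 * ∑ i, x i :=
    integral_sub i0 i1
  rw [s1, s2, s3, integral_const_mul, ← vol_eq_integral,
    integral_finsetSum _ (fun i _ => integrableOn_coord hK i),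
    integral_finsetSum _ (fun i _ => integrableOn_coord_mul hK i i),
    integral_finsetSum _ (fun i _ => integrable_finsetSum _ fun j _ =>
      integrableOn_coord_mul hK i j)]
  simp_rw [integral_finsetSum _ (fun j _ => integrableOn_coord_mul hK _ j)]
  rfl

theorem integral_MT_ki {n : ℕ} {K : Set (Fin n → ℝ)} (hK : IsCompact K) :
    ∫ x in K, MT n x = ((n : ℝ) + 2) * (((n : ℝ) + 1) * (∫ x in K, nsq (bary x)) - vol K) := by
  have i0 : IntegrableOn (fun _ : Fin n → ℝ => (1 : ℝ)) K volume :=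
    continuous_const.continuousOn.integrableOn_compact hK
  have i1 : IntegrableOn (fun x : Fin n → ℝ => nsq (bary x)) K volume :=
    (continuous_nsq.comp continuous_bary).continuousOn.integrableOn_compact hK
  unfold MT
  rw [integral_const_mul, integral_sub (i1.const_mul _) i0, integral_const_mul, ← vol_eq_integral]

/-- `tr (P Σ_K) ≤ |K|⁻¹ ∫_K M_T` (the difference is the value of the form at `b_K - b_T`) -/
theorem trace_PT_covMat_le {n : ℕ} {K : Set (Fin n → ℝ)} (hK : IsCompact K) (hv : 0 < vol K) :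
    (PT n * covMat K).trace ≤ (vol K)⁻¹ * ∫ x in K, MT n x := by
  set V := vol K with hV
  have hV0 : V ≠ 0 := hv.ne'
  set b : Fin n → ℝ := fun i => mom1 K i / V with hb
  have hcs : 1 ≤ ((n : ℝ) + 1) * nsq (bary b) := by
    have := one_le_mul_nsq (sum_bary b)
    push_cast at this
    exact this
  rw [nsq_bary] at hcs
  rw [trace_PT_mul_ki, integral_MT_ki hK, integral_nsq_bary_ki hK]
  simp only [covMat_apply_eq hK hV0]
  simp only [Finset.sum_sub_distrib, ← Finset.sum_div]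
  have h1 : ∑ i, mom1 K i / V * (mom1 K i / V) = ∑ i, b i ^ 2 :=
    Finset.sum_congr rfl fun i _ => (sq _).symm
  have h2 : ∑ i, ∑ j, mom1 K j / V * (mom1 K i / V) = (∑ i, b i) ^ 2 := by
    rw [sq, Finset.sum_mul_sum]
    exact Finset.sum_congr rfl fun i _ => Finset.sum_congr rfl fun j _ => mul_comm _ _
  have h3 : ∑ i, mom1 K i = V * ∑ i, b i := by
    rw [Finset.mul_sum]
    exact Finset.sum_congr rfl fun i _ => by rw [hb]; field_simp
  have h4 : ∑ i, ∑ j, mom2 K j i = ∑ i, ∑ j, mom2 K i j := Finset.sum_comm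
  rw [h1, h2, h3, h4]
  set S1 := ∑ i, mom2 K i i with hS1
  set S2 := ∑ i, ∑ j, mom2 K i j with hS2
  set B := ∑ i, b i with hB
  set B2 := ∑ i, b i ^ 2 with hB2
  have e : V⁻¹ * (((n : ℝ) + 2) * (((n : ℝ) + 1) * (V - 2 * (V * B) + S2 + S1) - V))
      - ((n : ℝ) + 1) * ((n : ℝ) + 2) * (S1 / V - B2 + (S2 / V - B ^ 2))
      = ((n : ℝ) + 2) * (((n : ℝ) + 1) * ((1 - B) ^ 2 + B2) - 1) := by
    field_simp
    ring
  have hpos : 0 ≤ ((n : ℝ) + 2) * (((n : ℝ) + 1) * ((1 - B) ^ 2 + B2) - 1) :=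
    mul_nonneg (by positivity) (by linarith)
  linarith

theorem trace_PT_covMat_nonneg {n : ℕ} {K : Set (Fin n → ℝ)} (hK : IsCompact K) :
    0 ≤ (PT n * covMat K).trace := by
  rw [trace_PT_mul_ki]
  have hps := covMat_posSemidef hK
  have h1 : 0 ≤ ∑ i, covMat K i i := Finset.sum_nonneg fun i _ => hps.diag_nonneg
  have h2 : 0 ≤ ∑ i, ∑ j, covMat K j i := by
    have := hps.dotProduct_mulVec_nonneg (fun _ => (1 : ℝ))
    simp only [dotProduct, Matrix.mulVec, star_trivial, Pi.star_apply, one_mul, mul_one] at this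
    rw [Finset.sum_comm]
    exact this
  positivity

/-- **Key inequality.** -/
theorem isoQ_le_KI {n : ℕ} (hn : 1 ≤ n) {K : Set (Fin n → ℝ)} (hK : IsCompact K)
    (hv : 0 < vol K) :
    isoQ K ≤ aN n * (((vol K)⁻¹ * ∫ x in K, MT n x) / n) ^ n * (vol (stdS n) / vol K) ^ 2 := by
  have h1 := det_mul_det_le hn (PT n) (covMat K) (PT_posSemidef n) (covMat_posSemidef hK)
  have hnpos : (0 : ℝ) < n := by exact_mod_cast hn
  have h2 : ((PT n * covMat K).trace / n) ^ n ≤ (((vol K)⁻¹ * ∫ x in K, MT n x) / n) ^ n := by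
    refine pow_le_pow_left₀ (div_nonneg (trace_PT_covMat_nonneg hK) hnpos.le) ?_ n
    exact div_le_div_of_nonneg_right (trace_PT_covMat_le hK hv) hnpos.le
  have h3 := h1.trans h2
  rw [det_PT] at h3
  set X := (((vol K)⁻¹ * ∫ x in K, MT n x) / n) ^ n with hX
  have hd : 0 < ((n : ℝ) + 1) ^ (n + 1) * ((n : ℝ) + 2) ^ n := by positivity
  have hf : (0 : ℝ) < (n.factorial : ℝ) := by exact_mod_cast n.factorial_pos
  unfold isoQ aN
  rw [vol_stdS]
  have e : (n.factorial : ℝ) ^ 2 / (((n : ℝ) + 1) ^ (n + 1) * ((n : ℝ) + 2) ^ n) * X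
      * (1 / (n.factorial : ℝ) / vol K) ^ 2
      = (X / (((n : ℝ) + 1) ^ (n + 1) * ((n : ℝ) + 2) ^ n)) / vol K ^ 2 := by
    field_simp
  rw [e]
  refine div_le_div_of_nonneg_right ?_ (by positivity)
  rw [le_div_iff₀ hd]
  linarith

/-- `∫_T M_T = n |T|` -/
theorem integral_MT_stdS (n : ℕ) : ∫ x in stdS n, MT n x = n * vol (stdS n) := by
  rw [integral_MT_ki (isCompact_stdS n), vol_stdS]
  have h := Eav_nsq n
  unfold Eav at h
  have hf : (n.factorial : ℝ) ≠ 0 := by exact_mod_cast n.factorial_pos.ne'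
  have h2 : ∫ x in stdS n, nsq (bary x) = 2 / ((n : ℝ) + 2) / (n.factorial : ℝ) := by
    rw [← h]
    field_simp
  rw [h2]
  have : (n : ℝ) + 2 ≠ 0 := by positivity
  field_simp
  ring

end Vale.Agent.P254
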