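import Vale.Agent.P254.LM.MainIneq
import Vale.Agent.P254.LM.Closeness
import Vale.Agent.P254.LM.KI

/-!
# P254: the core theorem for bodies in Klee position in the standard simplex
-/

namespace Vale.Agent.P254

open MeasureTheory Set

lemma deltaN_pos (k : ℕ) : 0 < deltaN (k + 1) := by
  unfold deltaN
  push_cast
  positivity

lemma thetaN_pos (k : ℕ) : 0 < thetaN (k + 1) := by
  unfold thetaN
  have := deltaN_pos k
  positivity

lemma thetaN_lt_one (k : ℕ) : thetaN (k + 1) < 1 := by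
  unfold thetaN
  have h := deltaN_pos k
  rw [div_lt_one (by positivity)]
  push_cast
  have hk : (0 : ℝ) ≤ k := Nat.cast_nonneg k
  nlinarith [mul_nonneg h.le hk]

lemma epsN_pos (k : ℕ) : 0 < epsN (k + 1) := by
  unfold epsN
  have := thetaN_pos k
  positivity

lemma MT_nonneg (n : ℕ) (x : Fin n → ℝ) : 0 ≤ MT n x := by
  unfold MT
  have h := one_le_mul_nsq (sum_bary x)
  push_cast at h
  have hn : (0 : ℝ) ≤ n := Nat.cast_nonneg n
  have : 0 ≤ ((n : ℝ) + 1) * nsq (bary x) - 1 := by linarith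
  positivity

lemma continuous_MT (n : ℕ) : Continuous (MT n) := by
  unfold MT
  have := (continuous_nsq (m := n + 1)).comp (continuous_bary (k := n))
  simp only [Function.comp_def] at this
  fun_prop

lemma vol_le_of_subset {n : ℕ} {K T : Set (Fin n → ℝ)} (hT : IsCompact T) (h : K ⊆ T) :
    vol K ≤ vol T :=
  ENNReal.toReal_mono hT.measure_lt_top.ne (measure_mono h)

lemma vol_diff {n : ℕ} {K T : Set (Fin n → ℝ)} (hK : IsCompact K) (hT : IsCompact T) (h : K ⊆ T) :
    vol (T \ K) = vol T - vol K := by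
  unfold vol
  rw [measure_diff h hK.measurableSet.nullMeasurableSet hK.measure_lt_top.ne,
    ENNReal.toReal_sub_of_le (measure_mono h) hT.measure_lt_top.ne]

/-- upper bound for the integral of the quadratic form over the body -/
lemma integral_MT_le (k : ℕ) {K : Set (Fin (k + 1) → ℝ)} (hKc : IsCompact K)
    (hKT : K ⊆ stdS (k + 1))
    (hW : 0 ≤ ∫ x in stdS (k + 1) \ K, (((k : ℝ) + 2) * nsq (bary x) - 2)) :
    ∫ x in K, MT (k + 1) x ≤ ((k : ℝ) + 3) * vol K - 2 * vol (stdS (k + 1)) := by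
  have hTc := isCompact_stdS (k + 1)
  have hint : IntegrableOn (MT (k + 1)) (stdS (k + 1)) :=
    (continuous_MT (k + 1)).continuousOn.integrableOn_compact hTc
  have h1 := integral_diff hKc.measurableSet hint hKT
  have h2 := integral_MT_stdS (k + 1)
  have hw : Continuous fun x : Fin (k + 1) → ℝ => ((k : ℝ) + 2) * nsq (bary x) - 2 := by
    have := (continuous_nsq (m := k + 1 + 1)).comp (continuous_bary (k := k + 1))
    simp only [Function.comp_def] at this
    fun_prop
  have hwint : IntegrableOn (fun x : Fin (k + 1) → ℝ => ((k : ℝ) + 2) * nsq (bary x) - 2)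
      (stdS (k + 1) \ K) :=
    (hw.continuousOn.integrableOn_compact hTc).mono_set diff_subset
  have hfin : volume (stdS (k + 1) \ K) ≠ ⊤ :=
    (lt_of_le_of_lt (measure_mono diff_subset) hTc.measure_lt_top).ne
  have h3 : ∫ x in stdS (k + 1) \ K, MT (k + 1) x =
      ((k : ℝ) + 3) * ((∫ x in stdS (k + 1) \ K, (((k : ℝ) + 2) * nsq (bary x) - 2)) +
        vol (stdS (k + 1) \ K)) := by
    rw [vol_eq_integral, ← integral_add hwint (integrableOn_const hfin), ← integral_const_mul]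
    refine integral_congr_ae (Filter.Eventually.of_forall fun x => ?_)
    simp only [MT]
    push_cast
    ring
  rw [vol_diff hKc hTc hKT] at h3
  push_cast at h2
  have hk : (0 : ℝ) ≤ k := Nat.cast_nonneg k
  nlinarith [mul_nonneg (by positivity : (0 : ℝ) ≤ (k : ℝ) + 3) hW]

theorem core (k : ℕ) {K : Set (Fin (k + 1) → ℝ)} (hKc : IsCompact K) (hconv : Convex ℝ K)
    (hKT : K ⊆ stdS (k + 1))
    (hcen : ∀ j : Fin (k + 2), ∃ x ∈ K, bary x = ins j (zc (k + 1)))
    (hvol : (1 - epsN (k + 1)) * vol (stdS (k + 1)) ≤ vol K) :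
    isoQ K ≤ aN (k + 1) ∧ (isoQ K = aN (k + 1) → K = stdS (k + 1)) := by
  have hTc := isCompact_stdS (k + 1)
  have hV : 0 < vol (stdS (k + 1)) := vol_stdS_pos (k + 1)
  have hθ := thetaN_pos k
  have hθ1 := thetaN_lt_one k
  have hθn : 0 < thetaN (k + 1) ^ (k + 1) := by positivity
  have hθn1 : thetaN (k + 1) ^ (k + 1) ≤ 1 := pow_le_one₀ hθ.le hθ1.le
  have hcore : ContainsCore K (thetaN (k + 1)) := by
    refine containsCore_of_vol hKc hconv hKT hθ (lt_of_lt_of_le ?_ hvol)
    unfold epsN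
    nlinarith
  have hW := main_ineq k hKc hconv hKT hcore hcen
  have hvK : 0 < vol K := by
    refine lt_of_lt_of_le ?_ hvol
    unfold epsN
    nlinarith
  have hM := integral_MT_le k hKc hKT hW
  have hKI := isoQ_le_KI (Nat.succ_le_succ (Nat.zero_le k)) hKc hvK
  set V := vol (stdS (k + 1)) with hVdef
  set v := vol K / V with hv
  have hv0 : 0 < v := div_pos hvK hV
  have hv1 : v ≤ 1 := by
    rw [hv, div_le_one hV]
    exact vol_le_of_subset hTc hKT
  have hvolK : vol K = v * V := by rw [hv]; field_simp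
  set EM := (vol K)⁻¹ * ∫ x in K, MT (k + 1) x with hEM
  have hEM0 : 0 ≤ EM := by
    have : 0 ≤ ∫ x in K, MT (k + 1) x := setIntegral_nonneg hKc.measurableSet
      fun x _ => MT_nonneg (k + 1) x
    positivity
  have hn0 : (0 : ℝ) < ((k + 1 : ℕ) : ℝ) := by positivity
  set X := ((((k + 1 : ℕ) : ℝ) + 2) * v - 2) / ((k + 1 : ℕ) : ℝ) with hX
  have hEMle : EM / ((k + 1 : ℕ) : ℝ) ≤ X / v := by
    rw [hEM, hX, div_le_div_iff₀ hn0 hv0, hvolK]
    rw [hvolK] at hM
    have e1 : (v * V)⁻¹ * (∫ x in K, MT (k + 1) x) * v = (∫ x in K, MT (k + 1) x) / V := by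
      field_simp
    rw [e1, div_mul_cancel₀ _ hn0.ne', div_le_iff₀ hV]
    push_cast
    nlinarith
  have hX0 : 0 ≤ X := by
    have h1 : 0 ≤ X / v := le_trans (by positivity) hEMle
    have := mul_nonneg h1 hv0.le
    rwa [div_mul_cancel₀ _ hv0.ne'] at this
  obtain ⟨hfin, hfineq⟩ := final_ineq (k + 1) (Nat.succ_le_succ (Nat.zero_le k)) v hv0 hv1 hX0
  have ha := aN_pos (k + 1)
  have hpow : (EM / ((k + 1 : ℕ) : ℝ)) ^ (k + 1) ≤ (X / v) ^ (k + 1) :=
    pow_le_pow_left₀ (by positivity) hEMle _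
  have hVv : V / vol K = 1 / v := by rw [hvolK]; field_simp
  have hbound : isoQ K ≤ aN (k + 1) * (X ^ (k + 1) / v ^ (k + 1 + 2)) := by
    calc isoQ K ≤ aN (k + 1) * (EM / ((k + 1 : ℕ) : ℝ)) ^ (k + 1) * (V / vol K) ^ 2 := hKI
      _ ≤ aN (k + 1) * (X / v) ^ (k + 1) * (V / vol K) ^ 2 := by
        gcongr
      _ = aN (k + 1) * (X ^ (k + 1) / v ^ (k + 1 + 2)) := by
        rw [hVv, div_pow, pow_add v]
        field_simp
        ring
  have hvp : 0 < v ^ (k + 1 + 2) := by positivity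
  refine ⟨?_, fun h => ?_⟩
  · have : X ^ (k + 1) / v ^ (k + 1 + 2) ≤ 1 := by
      rw [div_le_one hvp]; exact hfin
    calc isoQ K ≤ aN (k + 1) * (X ^ (k + 1) / v ^ (k + 1 + 2)) := hbound
      _ ≤ aN (k + 1) * 1 := by gcongr
      _ = aN (k + 1) := mul_one _
  · rw [h] at hbound
    have h1 : 1 ≤ X ^ (k + 1) / v ^ (k + 1 + 2) := by
      have h2 : aN (k + 1) * 1 ≤ aN (k + 1) * (X ^ (k + 1) / v ^ (k + 1 + 2)) := by
        rw [mul_one]; exact hbound
      exact le_of_mul_le_mul_left h2 ha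
    rw [le_div_iff₀ hvp, one_mul] at h1
    have hv_one : v = 1 := hfineq (le_antisymm hfin h1)
    refine eq_stdS_of_vol_eq hKc hconv hKT ?_
    rw [hvolK, hv_one, one_mul]

end Vale.Agent.P254
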