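import Vale.Agent.P254.IsoPow

/-!
# P254, local maximality of the simplex: definitions

`stdS k = {x ∈ ℝᵏ : x ≥ 0, ∑ x ≤ 1}` is the standard simplex, `bary x = (1 - ∑ x, x)` are the
barycentric coordinates of `x`.
-/

namespace Vale.Agent.P254

open MeasureTheory Set

/-- barycentric coordinates of a point of `ℝᵏ` with respect to the standard simplex -/
def bary {k : ℕ} (x : Fin k → ℝ) : Fin (k + 1) → ℝ := Fin.cons (1 - ∑ i, x i) x

/-- sum of squares -/
def nsq {m : ℕ} (l : Fin m → ℝ) : ℝ := ∑ i, l i ^ 2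

/-- the barycentre, in barycentric coordinates -/
noncomputable def zc (m : ℕ) : Fin m → ℝ := fun _ => 1 / (m : ℝ)

/-- normalised average over the standard simplex of a function of the barycentric coordinates -/
noncomputable def Eav (k : ℕ) (F : (Fin (k + 1) → ℝ) → ℝ) : ℝ :=
  (k.factorial : ℝ) * ∫ x in stdS k, F (bary x)

/-- embedding of the facet number `j`: put `0` in front, then exchange the positions `0` and `j` -/
def ins {k : ℕ} (j : Fin (k + 1)) (ζ : Fin k → ℝ) : Fin (k + 1) → ℝ :=
  fun i => (Fin.cons 0 ζ : Fin (k + 1) → ℝ) (Equiv.swap 0 j i)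

/-- the point at relative distance `r` from the barycentre on the ray towards `ins j ζ` -/
noncomputable def mix {k : ℕ} (j : Fin (k + 1)) (r : ℝ) (ζ : Fin k → ℝ) : Fin (k + 1) → ℝ :=
  (1 - r) • zc (k + 1) + r • ins j ζ

/-- the constant of the weighted Jensen inequality on the `k`-dimensional simplex -/
noncomputable def c0 (k : ℕ) : ℝ := 2 / (((k : ℝ) + 1) * ((k : ℝ) + 3))

/-- the Mahalanobis quadratic form of the standard simplex -/
noncomputable def MT (n : ℕ) (x : Fin n → ℝ) : ℝ :=
  ((n : ℝ) + 2) * (((n : ℝ) + 1) * nsq (bary x) - 1)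

/-- admissible relative depth of the missing part -/
noncomputable def deltaN (n : ℕ) : ℝ := 4 / ((n : ℝ) ^ 2 * ((n : ℝ) + 2) * ((n : ℝ) + 3))

/-- all points with barycentric coordinates at least `thetaN n` will belong to the body -/
noncomputable def thetaN (n : ℕ) : ℝ := deltaN n / ((1 + deltaN n) * ((n : ℝ) + 1))

/-- the size of the neighbourhood -/
noncomputable def epsN (n : ℕ) : ℝ := thetaN n ^ n / 2

/-- the gauge of `K` about the barycentre of the standard simplex, as a function of barycentric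
coordinates -/
noncomputable def gam {n : ℕ} (K : Set (Fin n → ℝ)) (l : Fin (n + 1) → ℝ) : ℝ :=
  gauge ((fun x => x - Fin.tail (zc (n + 1))) '' K) (Fin.tail l - Fin.tail (zc (n + 1)))

/-- matrices `C` whose rows are affine functions `ℓ_i(x) = (C (1,x))_i` with `∑ ℓ_i = 1` and
`ℓ_i ≥ 0` on `K`: the barycentric coordinate systems of the simplices containing `K` -/
def admC {n : ℕ} (K : Set (Fin n → ℝ)) : Set (Matrix (Fin (n + 1)) (Fin (n + 1)) ℝ) :=
  {C | (∀ j, ∑ i, C i j = if j = 0 then 1 else 0) ∧ ∀ x ∈ K, ∀ i, 0 ≤ (C.mulVec (lift1 x)) i}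

/-- the image of `K` under the affine map `x ↦ (ℓ_1(x), …, ℓ_n(x))` -/
def trC {n : ℕ} (C : Matrix (Fin (n + 1)) (Fin (n + 1)) ℝ) (K : Set (Fin n → ℝ)) :
    Set (Fin n → ℝ) := (fun x => Fin.tail (C.mulVec (lift1 x))) '' K

end Vale.Agent.P254
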