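import Vale.Agent.P254.LM.Defs

/-!
# P254: the arithmetic-geometric mean inequality for determinants
-/

namespace Vale.Agent.P254

open Matrix

/-- AM-GM in the power form. -/
theorem prod_le_avg_pow {n : ℕ} (hn : 1 ≤ n) (z : Fin n → ℝ) (hz : ∀ i, 0 ≤ z i) :
    ∏ i, z i ≤ ((∑ i, z i) / n) ^ n := by
  have hn0 : (0 : ℝ) < n := by exact_mod_cast hn
  have h := Real.geom_mean_le_arith_mean_weighted Finset.univ (fun _ : Fin n => (1 : ℝ) / n) z
    (fun i _ => by positivity) (by simp; field_simp) (fun i _ => hz i)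
  have h1 : ∏ i, z i ^ ((1 : ℝ) / n) = (∏ i, z i) ^ ((1 : ℝ) / n) := by
    rw [Real.finsetProd_rpow _ _ (fun i _ => hz i)]
  have h2 : ∑ i, (1 : ℝ) / n * z i = (∑ i, z i) / n := by
    rw [← Finset.mul_sum]; ring
  rw [h1, h2] at h
  have hp : 0 ≤ ∏ i, z i := Finset.prod_nonneg fun i _ => hz i
  have h3 : ((∏ i, z i) ^ ((1 : ℝ) / n)) ^ n = ∏ i, z i := by
    rw [← Real.rpow_natCast, ← Real.rpow_mul hp]
    rw [one_div, inv_mul_cancel₀ hn0.ne', Real.rpow_one]
  calc ∏ i, z i = ((∏ i, z i) ^ ((1 : ℝ) / n)) ^ n := h3.symm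
    _ ≤ ((∑ i, z i) / n) ^ n := pow_le_pow_left₀ (Real.rpow_nonneg hp _) h n

/-- `det X ≤ (tr X / n)^n` for a positive semidefinite matrix. -/
theorem det_le_trace_pow {n : ℕ} (hn : 1 ≤ n) (X : Matrix (Fin n) (Fin n) ℝ) (hX : X.PosSemidef) :
    X.det ≤ (X.trace / n) ^ n := by
  have h1 := hX.isHermitian.det_eq_prod_eigenvalues
  have h2 := hX.isHermitian.trace_eq_sum_eigenvalues
  simp only [RCLike.ofReal_real_eq_id, id] at h1 h2
  rw [h1, h2]
  exact prod_le_avg_pow hn _ hX.eigenvalues_nonneg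

open scoped MatrixOrder in
/-- `det P * det A ≤ (tr (P A) / n)^n` for positive semidefinite matrices. -/
theorem det_mul_det_le {n : ℕ} (hn : 1 ≤ n) (P A : Matrix (Fin n) (Fin n) ℝ) (hP : P.PosSemidef)
    (hA : A.PosSemidef) : P.det * A.det ≤ ((P * A).trace / n) ^ n := by
  obtain ⟨B, rfl⟩ := CStarAlgebra.nonneg_iff_eq_star_mul_self.mp hA.nonneg
  have hX : (B * P * Bᴴ).PosSemidef := hP.mul_mul_conjTranspose_same B
  have h := det_le_trace_pow hn _ hX
  have hd : (B * P * Bᴴ).det = P.det * (star B * B).det := by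
    rw [star_eq_conjTranspose, det_mul, det_mul, det_mul]; ring
  have ht : (B * P * Bᴴ).trace = (P * (star B * B)).trace := by
    rw [star_eq_conjTranspose, Matrix.trace_mul_cycle, ← Matrix.mul_assoc, Matrix.trace_mul_comm,
      ← Matrix.mul_assoc]
  rw [hd, ht] at h
  exact h

end Vale.Agent.P254
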