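import Vale.Agent.P254.LM.LocalMax

/-!
# P254: an explicit size of the neighbourhood
-/

namespace Vale.Agent.P254

open MeasureTheory Set

lemma thetaN_ge (k : ℕ) : 2 / (((k + 1 : ℕ) : ℝ) + 3) ^ 5 ≤ thetaN (k + 1) := by
  unfold thetaN deltaN
  push_cast
  have hk : (0 : ℝ) ≤ k := Nat.cast_nonneg k
  set a : ℝ := (k : ℝ) + 1 with ha
  have ha1 : 1 ≤ a := by rw [ha]; linarith
  have hD : 0 < a ^ 2 * (a + 2) * (a + 3) := by positivity
  have e : 4 / (a ^ 2 * (a + 2) * (a + 3)) / ((1 + 4 / (a ^ 2 * (a + 2) * (a + 3))) * (a + 1))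
      = 4 / ((a ^ 2 * (a + 2) * (a + 3) + 4) * (a + 1)) := by
    field_simp
  rw [e, div_le_div_iff₀ (by positivity) (by positivity)]
  have h1 : a ^ 2 * (a + 2) * (a + 3) + 4 ≤ 2 * (a + 3) ^ 4 := by
    nlinarith [pow_pos (by linarith : (0 : ℝ) < a) 2, pow_pos (by linarith : (0 : ℝ) < a) 3,
      pow_pos (by linarith : (0 : ℝ) < a) 4]
  have h2 : a + 1 ≤ a + 3 := by linarith
  have h3 : (a ^ 2 * (a + 2) * (a + 3) + 4) * (a + 1) ≤ 2 * (a + 3) ^ 4 * (a + 3) :=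
    mul_le_mul h1 h2 (by linarith) (by positivity)
  nlinarith

lemma epsN_ge (k : ℕ) : 1 / (((k + 1 : ℕ) : ℝ) + 3) ^ (5 * (k + 1)) ≤ epsN (k + 1) := by
  unfold epsN
  have h := thetaN_ge k
  have hb : (0 : ℝ) < ((k + 1 : ℕ) : ℝ) + 3 := by positivity
  have h1 : (2 / (((k + 1 : ℕ) : ℝ) + 3) ^ 5) ^ (k + 1) ≤ thetaN (k + 1) ^ (k + 1) :=
    pow_le_pow_left₀ (by positivity) h _
  have h2 : (2 / (((k + 1 : ℕ) : ℝ) + 3) ^ 5) ^ (k + 1)
      = 2 ^ (k + 1) * (1 / (((k + 1 : ℕ) : ℝ) + 3) ^ (5 * (k + 1))) := by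
    rw [div_pow, ← pow_mul]
    ring
  have h3 : (2 : ℝ) ≤ 2 ^ (k + 1) := by
    calc (2 : ℝ) = 2 ^ 1 := (pow_one 2).symm
      _ ≤ 2 ^ (k + 1) := pow_le_pow_right₀ (by norm_num) (by omega)
  have h4 : (0 : ℝ) < 1 / (((k + 1 : ℕ) : ℝ) + 3) ^ (5 * (k + 1)) := by positivity
  rw [h2] at h1
  nlinarith

/-- **Simplices are strict local maximisers of the isotropic constant**, explicit form. -/
theorem local_max_explicit (n : ℕ) (hn : 1 ≤ n) (K S : Set (Fin n → ℝ)) (hK : IsConvexBody K)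
    (hS : IsSimplex S) (hKS : K ⊆ S)
    (hvol : (1 - 1 / ((n : ℝ) + 3) ^ (5 * n)) * vol S ≤ vol K) :
    isoConst K ≤ isoConst S ∧ (isoConst K = isoConst S → IsSimplex K) := by
  obtain ⟨k, rfl⟩ : ∃ k, n = k + 1 := ⟨n - 1, by omega⟩
  refine local_max k K S hK hS hKS (le_trans ?_ hvol)
  have hv : 0 ≤ vol S := hS.isConvexBody.vol_pos.le
  have := epsN_ge k
  exact mul_le_mul_of_nonneg_right (by linarith) hv

end Vale.Agent.P254
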