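import Vale.Agent.P254.LM.Basic

/-!
# P254: the gauge of a body `K ⊆ stdS n` about the barycentre
-/

namespace Vale.Agent.P254

open MeasureTheory Set Topology

variable {n : ℕ} {K : Set (Fin n → ℝ)}

/-- the hypothesis: `K` contains all points whose barycentric coordinates are at least `θ` -/
def ContainsCore (K : Set (Fin n → ℝ)) (θ : ℝ) : Prop :=
  ∀ x ∈ stdS n, (∀ i, θ ≤ bary x i) → x ∈ K

private lemma zc_apply' (i : Fin (n + 1)) : zc (n + 1) i = 1 / ((n : ℝ) + 1) := by
  simp [zc]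

private lemma bary_tail_zc : bary (Fin.tail (zc (n + 1))) = zc (n + 1) :=
  bary_tail (sum_zc n)

private lemma convex_translate (hconv : Convex ℝ K) :
    Convex ℝ ((fun x => x - Fin.tail (zc (n + 1))) '' K) := by
  rintro _ ⟨x, hx, rfl⟩ _ ⟨y, hy, rfl⟩ a b ha hb hab
  refine ⟨a • x + b • y, hconv hx hy ha hb hab, ?_⟩
  have hb' : b = 1 - a := by linarith
  subst hb'
  ext i
  simp only [Pi.sub_apply, Pi.add_apply, Pi.smul_apply, smul_eq_mul]
  ring

theorem translate_mem_nhds {θ : ℝ} (hθ : θ < 1 / ((n : ℝ) + 1)) (hin : ContainsCore K θ) :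
    (fun x => x - Fin.tail (zc (n + 1))) '' K ∈ 𝓝 (0 : Fin n → ℝ) := by
  have hopen : IsOpen {x : Fin n → ℝ | ∀ i, max θ 0 < bary x i} := by
    have : {x : Fin n → ℝ | ∀ i, max θ 0 < bary x i}
        = ⋂ i, {x : Fin n → ℝ | max θ 0 < bary x i} := by
      ext x; simp
    rw [this]
    refine isOpen_iInter_of_finite fun i => ?_
    exact isOpen_lt continuous_const ((continuous_apply i).comp continuous_bary)
  have hc : Fin.tail (zc (n + 1)) ∈ {x : Fin n → ℝ | ∀ i, max θ 0 < bary x i} := by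
    intro i
    rw [bary_tail_zc, zc_apply']
    have : (0 : ℝ) < 1 / ((n : ℝ) + 1) := by positivity
    exact max_lt hθ this
  have hsub : {x : Fin n → ℝ | ∀ i, max θ 0 < bary x i} ⊆ K := by
    intro x hx
    refine hin x (mem_stdS_iff_bary.2 fun i => ?_) fun i => ?_
    · exact (le_max_right θ 0).trans (hx i).le
    · exact (le_max_left θ 0).trans (hx i).le
  have hK : K ∈ 𝓝 (Fin.tail (zc (n + 1))) :=
    Filter.mem_of_superset (hopen.mem_nhds hc) hsub
  have h := (isOpenMap_sub_right (Fin.tail (zc (n + 1)))).image_mem_nhds hK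
  simpa using h

theorem continuous_gam (hconv : Convex ℝ K) {θ : ℝ} (hθ : θ < 1 / ((n : ℝ) + 1))
    (hin : ContainsCore K θ) : Continuous (gam K) := by
  have h := continuous_gauge (convex_translate hconv) (translate_mem_nhds hθ hin)
  have h2 : Continuous fun l : Fin (n + 1) → ℝ => Fin.tail l - Fin.tail (zc (n + 1)) := by
    refine Continuous.sub ?_ continuous_const
    exact continuous_pi fun i => continuous_apply i.succ
  exact h.comp h2

theorem convexOn_gam (hconv : Convex ℝ K) {θ : ℝ} (hθ : θ < 1 / ((n : ℝ) + 1))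
    (hin : ContainsCore K θ) : ConvexOn ℝ univ (gam K) := by
  refine ⟨convex_univ, fun x _ y _ a b ha hb hab => ?_⟩
  have hS := convex_translate hconv
  have habs : Absorbent ℝ ((fun x => x - Fin.tail (zc (n + 1))) '' K) :=
    absorbent_nhds_zero (translate_mem_nhds hθ hin)
  have e : Fin.tail (a • x + b • y) - Fin.tail (zc (n + 1))
      = a • (Fin.tail x - Fin.tail (zc (n + 1))) + b • (Fin.tail y - Fin.tail (zc (n + 1))) := by
    have hb' : b = 1 - a := by linarith
    subst hb'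
    ext i
    simp only [Fin.tail, Pi.sub_apply, Pi.add_apply, Pi.smul_apply, smul_eq_mul]
    ring
  unfold gam
  rw [e]
  refine (gauge_add_le hS habs _ _).trans ?_
  rw [gauge_smul_of_nonneg ha, gauge_smul_of_nonneg hb]

theorem gam_bary_le_one_iff (hKc : IsCompact K) (hconv : Convex ℝ K) {θ : ℝ}
    (hθ : θ < 1 / ((n : ℝ) + 1)) (hin : ContainsCore K θ) (x : Fin n → ℝ) :
    gam K (bary x) ≤ 1 ↔ x ∈ K := by
  unfold gam
  rw [tail_bary, gauge_le_one_iff_mem_closure (convex_translate hconv) (translate_mem_nhds hθ hin)]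
  have hcl : IsClosed ((fun x => x - Fin.tail (zc (n + 1))) '' K) :=
    (hKc.image (continuous_id.sub continuous_const)).isClosed
  rw [hcl.closure_eq]
  constructor
  · rintro ⟨y, hy, hyx⟩
    have : y = x := sub_left_injective hyx
    exact this ▸ hy
  · intro hx
    exact ⟨x, hx, rfl⟩

/-- homogeneity along the rays from the barycentre -/
theorem gam_ray (l : Fin (n + 1) → ℝ) {r : ℝ} (hr : 0 ≤ r) :
    gam K ((1 - r) • zc (n + 1) + r • l) = r * gam K l := by
  have e : Fin.tail ((1 - r) • zc (n + 1) + r • l) - Fin.tail (zc (n + 1))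
      = r • (Fin.tail l - Fin.tail (zc (n + 1))) := by
    ext i
    simp only [Fin.tail, Pi.sub_apply, Pi.add_apply, Pi.smul_apply, smul_eq_mul]
    ring
  unfold gam
  rw [e, gauge_smul_of_nonneg hr, smul_eq_mul]

private lemma gam_nonneg (l : Fin (n + 1) → ℝ) : 0 ≤ gam K l := gauge_nonneg _

/-- on the boundary of the simplex the gauge is at least one -/
theorem one_le_gam_of_boundary (hKc : IsCompact K) (hconv : Convex ℝ K) (hKT : K ⊆ stdS n) {θ : ℝ}
    (hθ : θ < 1 / ((n : ℝ) + 1)) (hin : ContainsCore K θ) {l : Fin (n + 1) → ℝ}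
    (hl : ∑ i, l i = 1) {j : Fin (n + 1)} (hj : l j = 0) : 1 ≤ gam K l := by
  by_contra hlt
  rw [not_le] at hlt
  have hg0 : 0 ≤ gam K l := gam_nonneg l
  -- choose eta
  obtain ⟨η, hη, hle⟩ : ∃ η : ℝ, 0 < η ∧ (1 + η) * gam K l ≤ 1 := by
    refine ⟨1 - gam K l, by linarith, ?_⟩
    nlinarith
  set p : Fin (n + 1) → ℝ := (1 - (1 + η)) • zc (n + 1) + (1 + η) • l with hp
  have hgp : gam K p ≤ 1 := by
    rw [hp, gam_ray l (by linarith : (0 : ℝ) ≤ 1 + η)]
    exact hle
  have hsum : ∑ i, p i = 1 := by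
    simp only [hp, Pi.add_apply, Pi.smul_apply, smul_eq_mul, Finset.sum_add_distrib,
      ← Finset.mul_sum, sum_zc, hl]
    ring
  have hbt : bary (Fin.tail p) = p := bary_tail hsum
  have hmem : Fin.tail p ∈ K := by
    rw [← gam_bary_le_one_iff hKc hconv hθ hin, hbt]
    exact hgp
  have hnn : 0 ≤ bary (Fin.tail p) j := mem_stdS_iff_bary.1 (hKT hmem) j
  rw [hbt] at hnn
  have hpj : p j = -η * (1 / ((n : ℝ) + 1)) := by
    simp only [hp, Pi.add_apply, Pi.smul_apply, smul_eq_mul, hj, zc_apply']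
    ring
  have : (0 : ℝ) < 1 / ((n : ℝ) + 1) := by positivity
  rw [hpj] at hnn
  nlinarith

/-- on the simplex the gauge is at most `1 + δ` when `θ = δ / ((1 + δ)(n + 1))` -/
theorem gam_le_of_core (hKc : IsCompact K) (hconv : Convex ℝ K) {δ : ℝ} (hδ : 0 < δ)
    (hin : ContainsCore K (δ / ((1 + δ) * ((n : ℝ) + 1)))) {l : Fin (n + 1) → ℝ}
    (hl : l ∈ stdSimplex ℝ (Fin (n + 1))) : gam K l ≤ 1 + δ := by
  have hn : (0 : ℝ) < (n : ℝ) + 1 := by positivity
  have h1δ : (0 : ℝ) < 1 + δ := by linarith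
  have hθ : δ / ((1 + δ) * ((n : ℝ) + 1)) < 1 / ((n : ℝ) + 1) := by
    rw [div_lt_div_iff₀ (by positivity) hn]
    nlinarith
  set r : ℝ := 1 / (1 + δ) with hr
  have hr0 : 0 < r := by positivity
  have h1r : 1 - r = δ / (1 + δ) := by
    rw [hr]; field_simp; ring
  set p : Fin (n + 1) → ℝ := (1 - r) • zc (n + 1) + r • l with hp
  have hsum : ∑ i, p i = 1 := by
    simp only [hp, Pi.add_apply, Pi.smul_apply, smul_eq_mul, Finset.sum_add_distrib,
      ← Finset.mul_sum, sum_zc, hl.2]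
    ring
  have hbt : bary (Fin.tail p) = p := bary_tail hsum
  have hpi : ∀ i, δ / ((1 + δ) * ((n : ℝ) + 1)) ≤ p i := by
    intro i
    have h1 : p i = δ / ((1 + δ) * ((n : ℝ) + 1)) + r * l i := by
      simp only [hp, Pi.add_apply, Pi.smul_apply, smul_eq_mul, zc_apply', h1r]
      field_simp
    rw [h1]
    have := mul_nonneg hr0.le (hl.1 i)
    linarith
  have hθ0 : 0 ≤ δ / ((1 + δ) * ((n : ℝ) + 1)) := by positivity
  have hmem : Fin.tail p ∈ K := by
    refine hin _ (mem_stdS_iff_bary.2 fun i => ?_) fun i => ?_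
    · rw [hbt]; exact hθ0.trans (hpi i)
    · rw [hbt]; exact hpi i
  have hgp : gam K p ≤ 1 := by
    rw [← hbt, gam_bary_le_one_iff hKc hconv hθ hin]
    exact hmem
  rw [hp, gam_ray l hr0.le] at hgp
  have : gam K l = (1 + δ) * (r * gam K l) := by
    rw [hr]; field_simp
  rw [this]
  nlinarith

end Vale.Agent.P254
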