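import Vale.Agent.P254.LM.HomA

/-!
# P254: Hausdorff closeness to a convex set with an interior ball gives homothetic inclusions
-/

namespace Vale.Agent.P254

open MeasureTheory Set Metric

variable {n : ℕ}

theorem subset_hom_of_near {K S : Set (Fin n → ℝ)} (hSconv : Convex ℝ S) {c : Fin n → ℝ}
    {ρ η : ℝ} (hρ : 0 < ρ) (hball : closedBall c ρ ⊆ S) (hη : 0 < η)
    (h : ∀ x ∈ K, ∃ y ∈ S, dist x y < η) : K ⊆ hom c (1 + η / ρ) S := by
  intro x hx
  obtain ⟨y, hy, hxy⟩ := h x hx
  set a := η / ρ with ha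
  have ha0 : 0 < a := div_pos hη hρ
  have hp : c + (1 / a) • (x - y) ∈ S := by
    apply hball
    rw [mem_closedBall, dist_eq_norm, add_sub_cancel_left, norm_smul, Real.norm_eq_abs,
      abs_of_pos (by positivity), ← dist_eq_norm]
    have e : 1 / a = ρ / η := by
      rw [ha]
      field_simp
    rw [e, div_mul_eq_mul_div, div_le_iff₀ hη]
    exact mul_le_mul_of_nonneg_left hxy.le hρ.le
  have hw := hSconv hy hp (a := 1 / (1 + a)) (b := a / (1 + a)) (by positivity) (by positivity)
    (by field_simp)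
  refine ⟨_, hw, ?_⟩
  ext i
  simp only [Pi.add_apply, Pi.smul_apply, Pi.sub_apply, smul_eq_mul]
  field_simp
  ring

theorem hom_subset_of_near {K S : Set (Fin n → ℝ)} (hKc : IsClosed K) (hKconv : Convex ℝ K)
    (hSconv : Convex ℝ S) {c : Fin n → ℝ} {ρ η : ℝ} (hρ : 0 < ρ) (hball : closedBall c ρ ⊆ S)
    (hη : 0 < η) (hηρ : η ≤ ρ) (h : ∀ y ∈ S, ∃ x ∈ K, dist y x < η) :
    hom c (1 - η / ρ) S ⊆ K := by
  rintro x ⟨s, hs, rfl⟩
  by_contra hxK
  obtain ⟨f, u, hfK, hux⟩ := geometric_hahn_banach_closed_point hKconv hKc hxK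
  set a := η / ρ with ha
  have ha0 : 0 < a := div_pos hη hρ
  have ha1 : a ≤ 1 := (div_le_one hρ).mpr hηρ
  have haρ : a * ρ = η := div_mul_cancel₀ η hρ.ne'
  let e : Fin n → (Fin n → ℝ) := fun i j => if i = j then 1 else 0
  have hf : ∀ w : Fin n → ℝ, f w = ∑ i, w i * f (e i) := fun w => by
    have h0 := f.pi_apply_eq_sum_univ w
    simpa [smul_eq_mul] using h0
  set Nf := ∑ i, |f (e i)| with hNf
  let v : Fin n → ℝ := fun i => if 0 ≤ f (e i) then ρ else -ρ
  have hv : ‖v‖ ≤ ρ := by
    rw [pi_norm_le_iff_of_nonneg hρ.le]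
    intro i
    simp only [v, Real.norm_eq_abs]
    split_ifs
    · rw [abs_of_pos hρ]
    · rw [abs_neg, abs_of_pos hρ]
  have hfv : f v = ρ * Nf := by
    rw [hf v, hNf, Finset.mul_sum]
    refine Finset.sum_congr rfl fun i _ => ?_
    simp only [v]
    split_ifs with h0
    · rw [abs_of_nonneg h0]
    · rw [abs_of_neg (not_le.mp h0)]
      ring
  have hcv : c + v ∈ S := hball (by
    rw [mem_closedBall, dist_eq_norm, add_sub_cancel_left]
    exact hv)
  have hp : (1 - a) • s + a • (c + v) ∈ S := hSconv hs hcv (by linarith) ha0.le (by ring)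
  obtain ⟨b, hbK, hpb⟩ := h _ hp
  have h1 : f ((1 - a) • s + a • (c + v)) = f (c + (1 - a) • (s - c)) + η * Nf := by
    have e1 : (1 - a) • s + a • (c + v) = (c + (1 - a) • (s - c)) + a • v := by
      ext i
      simp only [Pi.add_apply, Pi.smul_apply, Pi.sub_apply, smul_eq_mul]
      ring
    rw [e1, map_add, map_smul, hfv, smul_eq_mul, ← mul_assoc, haρ]
  have h2 : f ((1 - a) • s + a • (c + v)) - f b ≤ η * Nf := by
    rw [← map_sub, hf, hNf, Finset.mul_sum]
    refine Finset.sum_le_sum fun i _ => ?_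
    calc ((1 - a) • s + a • (c + v) - b) i * f (e i)
        ≤ |((1 - a) • s + a • (c + v) - b) i| * |f (e i)| := by
          rw [← abs_mul]
          exact le_abs_self _
      _ ≤ η * |f (e i)| := by
          apply mul_le_mul_of_nonneg_right _ (abs_nonneg _)
          have h3 := norm_le_pi_norm ((1 - a) • s + a • (c + v) - b) i
          rw [Real.norm_eq_abs] at h3
          rw [dist_eq_norm] at hpb
          linarith
  have h3 := hfK b hbK
  linarith

end Vale.Agent.P254
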