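import Vale.Agent.P254.LM.Hausdorff

/-!
# P254: explicit radius of the Hausdorff neighbourhood of a simplex
-/

namespace Vale.Agent.P254

open MeasureTheory Set Metric

/-- Explicit radius: if the simplex `S` contains the closed ball of radius `ρ` about `c`, then
every convex body within Hausdorff distance `ρ / (2 n (n+3)^(5n))` of `S` obeys the conjecture. -/
theorem local_max_hausdorff_explicit (n : ℕ) (hn : 1 ≤ n) (S : Set (Fin n → ℝ)) (hS : IsSimplex S)
    (c : Fin n → ℝ) (ρ : ℝ) (hρ : 0 < ρ) (hball : closedBall c ρ ⊆ S)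
    (K : Set (Fin n → ℝ)) (hK : IsConvexBody K)
    (hH0 : hausdorffDist K S < ρ / (2 * (n : ℝ) * ((n : ℝ) + 3) ^ (5 * n))) :
    isoConst K ≤ isoConst S ∧ (isoConst K = isoConst S → IsSimplex K) := by
  have hSb := hS.isConvexBody
  have hn0 : (0 : ℝ) < n := by exact_mod_cast hn
  set ε : ℝ := 1 / ((n : ℝ) + 3) ^ (5 * n) with hε
  have hε0 : 0 < ε := by positivity
  have hε1 : ε ≤ 1 := by
    rw [hε, div_le_one (by positivity)]
    exact one_le_pow₀ (by linarith)
  set a : ℝ := ε / (2 * n) with ha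
  have ha0 : 0 < a := by positivity
  have ha2 : a ≤ 1 / 2 := by
    rw [ha, div_le_div_iff₀ (by positivity) (by norm_num)]
    have : (1 : ℝ) ≤ n := by exact_mod_cast hn
    nlinarith
  have hna : 2 * n * a = ε := by rw [ha]; field_simp
  have hrad : ρ / (2 * (n : ℝ) * ((n : ℝ) + 3) ^ (5 * n)) = ρ * a := by
    rw [ha, hε]
    field_simp
  have hH : hausdorffDist K S < ρ * a := by rwa [hrad] at hH0
  have hKne : K.Nonempty := hK.2.2.mono interior_subset
  have hSne : S.Nonempty := hSb.2.2.mono interior_subset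
  have hfin : hausdorffEDist K S ≠ ⊤ :=
    hausdorffEDist_ne_top_of_nonempty_of_bounded hKne hSne hK.1.isBounded hSb.1.isBounded
  have hη : 0 < ρ * a := by positivity
  have hq : ρ * a / ρ = a := by field_simp
  have h1 : ∀ x ∈ K, ∃ y ∈ S, dist x y < ρ * a := fun x hx =>
    exists_dist_lt_of_hausdorffDist_lt hx hH hfin
  have h2 : ∀ y ∈ S, ∃ x ∈ K, dist y x < ρ * a := by
    intro y hy
    obtain ⟨x, hx, hxy⟩ := exists_dist_lt_of_hausdorffDist_lt' hy hH hfin
    exact ⟨x, hx, by rwa [dist_comm]⟩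
  have hsup := subset_hom_of_near hSb.2.1 hρ hball hη h1
  have hsub := hom_subset_of_near hK.1.isClosed hK.2.1 hSb.2.1 hρ hball hη
    (by nlinarith) h2
  rw [hq] at hsup hsub
  have hS' : IsSimplex (hom c (1 + a) S) := isSimplex_hom hS c (by linarith)
  have hvS : 0 < vol S := hSb.vol_pos
  have hvol : (1 - 1 / ((n : ℝ) + 3) ^ (5 * n)) * vol (hom c (1 + a) S) ≤ vol K := by
    rw [vol_hom S c (by linarith), ← hε, ← hna]
    have h3 : vol (hom c (1 - a) S) ≤ vol K :=
      ENNReal.toReal_mono hK.1.measure_lt_top.ne (measure_mono hsub)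
    rw [vol_hom S c (by linarith)] at h3
    have h4 := pow_ratio_ineq n ha0.le ha2
    calc (1 - 2 * n * a) * ((1 + a) ^ n * vol S) = ((1 - 2 * n * a) * (1 + a) ^ n) * vol S := by ring
      _ ≤ (1 - a) ^ n * vol S := mul_le_mul_of_nonneg_right h4 hvS.le
      _ ≤ vol K := h3
  have := local_max_explicit n hn K _ hK hS' hsup hvol
  rwa [isoConst_simplex_eq hS' hS] at this

end Vale.Agent.P254
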