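import Vale.Agent.P254.LM.Defs

/-!
# P254: homothetic images
-/

namespace Vale.Agent.P254

open MeasureTheory Set

variable {n : ℕ}

/-- the image of `S` under the homothety with centre `c` and ratio `t` -/
def hom (c : Fin n → ℝ) (t : ℝ) (S : Set (Fin n → ℝ)) : Set (Fin n → ℝ) :=
  (fun x => c + t • (x - c)) '' S

lemma hom_eq_homothety_image (c : Fin n → ℝ) (t : ℝ) (S : Set (Fin n → ℝ)) :
    hom c t S = AffineMap.homothety c t '' S := by
  unfold hom
  apply image_congr
  intro x _
  rw [AffineMap.homothety_apply, vsub_eq_sub, vadd_eq_add, add_comm]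

theorem isSimplex_hom {S : Set (Fin n → ℝ)} (hS : IsSimplex S) (c : Fin n → ℝ) {t : ℝ}
    (ht : t ≠ 0) : IsSimplex (hom c t S) := by
  obtain ⟨v, hv, rfl⟩ := hS
  have hinj : Function.Injective (AffineMap.homothety c t : (Fin n → ℝ) →ᵃ[ℝ] (Fin n → ℝ)) := by
    intro x y hxy
    rw [AffineMap.homothety_apply, AffineMap.homothety_apply] at hxy
    have h1 : t • (x -ᵥ c) = t • (y -ᵥ c) := vadd_right_cancel c hxy
    have h2 : x -ᵥ c = y -ᵥ c := smul_right_injective _ ht h1
    exact vsub_left_injective c h2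
  refine ⟨fun i => AffineMap.homothety c t (v i), hv.map' _ hinj, ?_⟩
  rw [hom_eq_homothety_image, AffineMap.image_convexHull, ← range_comp]
  rfl

theorem vol_hom (S : Set (Fin n → ℝ)) (c : Fin n → ℝ) {t : ℝ} (ht : 0 ≤ t) :
    vol (hom c t S) = t ^ n * vol S := by
  unfold vol
  rw [hom_eq_homothety_image, Measure.addHaar_image_homothety, ENNReal.toReal_mul,
    Module.finrank_fin_fun, abs_of_nonneg (pow_nonneg ht n),
    ENNReal.toReal_ofReal (pow_nonneg ht n)]

end Vale.Agent.P254
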