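import Vale.Agent.P254.LM.Basic

/-!
# P254: Jensen's inequality on the standard simplex
-/

namespace Vale.Agent.P254

open MeasureTheory Set

theorem jensen_Eav (k : ℕ) (u : (Fin (k + 1) → ℝ) → ℝ) (hc : Continuous u)
    (hconv : ConvexOn ℝ univ u) : u (zc (k + 1)) ≤ Eav k u := by
  have hpos : 0 < vol (stdS k) := vol_stdS_pos k
  have h0 : volume (stdS k) ≠ 0 := by
    intro h
    unfold vol at hpos
    rw [h] at hpos
    simp at hpos
  have htop : volume (stdS k) ≠ ⊤ := volume_stdS_ne_top k
  have hbi : IntegrableOn (bary : (Fin k → ℝ) → (Fin (k + 1) → ℝ)) (stdS k) :=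
    continuous_bary.continuousOn.integrableOn_compact (isCompact_stdS k)
  have hui : IntegrableOn (u ∘ bary) (stdS k) := integrableOn_comp_bary hc
  have key := hconv.map_set_average_le (μ := volume) (t := stdS k) (f := bary)
    hc.continuousOn isClosed_univ h0 htop (Filter.Eventually.of_forall fun _ => mem_univ _) hbi hui
  have hreal : (volume.restrict (stdS k)).real univ = 1 / (k.factorial : ℝ) := by
    rw [measureReal_def, Measure.restrict_apply_univ]
    exact vol_stdS k
  have hfac : (k.factorial : ℝ) ≠ 0 := by positivity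
  have hav : ∀ g : (Fin k → ℝ) → ℝ, (⨍ x in stdS k, g x) = (k.factorial : ℝ) * ∫ x in stdS k, g x := by
    intro g
    rw [average_eq, hreal, smul_eq_mul, one_div, inv_inv]
  have hz : (⨍ x in stdS k, bary x) = zc (k + 1) := by
    funext i
    have e1 : (⨍ x in stdS k, bary x) i = (k.factorial : ℝ) * ∫ x in stdS k, bary x i := by
      rw [average_eq, hreal, Pi.smul_apply, smul_eq_mul, one_div, inv_inv]
      congr 1
      exact (ContinuousLinearMap.integral_comp_comm
        (ContinuousLinearMap.proj (R := ℝ) (φ := fun _ : Fin (k + 1) => ℝ) i) hbi).symm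
    rw [e1]
    have e2 := Eav_coord k i
    unfold Eav at e2
    rw [e2]
    unfold zc
    push_cast
    ring
  rw [hz, hav] at key
  exact key

end Vale.Agent.P254
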