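import Vale.Agent.P254.LM.Basic

/-!
# P254: the circumscribed simplex of least volume touches the body at the barycentres of its facets
-/

namespace Vale.Agent.P254

open MeasureTheory Set

variable {n : ℕ} {K : Set (Fin n → ℝ)}

/-- rescaling all barycentric coordinate functions but one -/
theorem exists_rescaled (C : Matrix (Fin (n + 1)) (Fin (n + 1)) ℝ) (hC : C ∈ admC K)
    (j : Fin (n + 1)) (α : Fin (n + 1) → ℝ) (hα : ∀ i, 0 ≤ α i)
    (hle : ∀ x ∈ K, ∑ i, (if i = j then 0 else α i * (C.mulVec (lift1 x)) i) ≤ 1) :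
    ∃ C' ∈ admC K, C'.det = (∏ i, if i = j then 1 else α i) * C.det := by
  classical
  set β : Fin (n + 1) → ℝ := fun i => if i = j then 1 else α i with hβ
  set v : Fin (n + 1) → ℝ := fun i => if i = j then 1 else 1 - α i with hv
  set Mm : Matrix (Fin (n + 1)) (Fin (n + 1)) ℝ := ((Matrix.diagonal β).updateCol j v).transpose
    with hMm
  have hentry : ∀ r c, Mm r c = if r = j then v c else (if c = r then β c else 0) := by
    intro r c
    simp only [hMm, Matrix.transpose_apply, Matrix.updateCol_apply, Matrix.diagonal_apply]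
  have hdet : Mm.det = ∏ i, β i := by
    rw [hMm, Matrix.det_transpose, ← Matrix.cramer_apply, Matrix.cramer_eq_adjugate_mulVec,
      Matrix.adjugate_diagonal, Matrix.mulVec_diagonal]
    have h1 : v j = 1 := by simp [hv]
    rw [h1, mul_one]
    exact Finset.prod_erase _ (by simp [hβ])
  have hcolM : ∀ c, ∑ r, Mm r c = 1 := by
    intro c
    simp_rw [hentry]
    have : ∀ r, (if r = j then v c else (if c = r then β c else 0))
        = (if r = j then v c else 0) + (if c = r then (if r = j then 0 else β c) else 0) := by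
      intro r
      by_cases h1 : r = j <;> by_cases h2 : c = r <;> simp [h1, h2]
    simp_rw [this]
    rw [Finset.sum_add_distrib, Finset.sum_ite_eq' Finset.univ j, Finset.sum_ite_eq Finset.univ c]
    by_cases hc : c = j
    · simp [hc, hv]
    · simp [hc, hv, hβ]
  have hsumC : ∀ y : Fin (n + 1) → ℝ, ∑ i, (C.mulVec y) i = y 0 := by
    intro y
    simp only [Matrix.mulVec, dotProduct]
    rw [Finset.sum_comm]
    simp_rw [← Finset.sum_mul, hC.1]
    simp
  refine ⟨Mm * C, ⟨?_, ?_⟩, ?_⟩
  · intro k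
    simp only [Matrix.mul_apply]
    rw [Finset.sum_comm]
    simp_rw [← Finset.sum_mul, hcolM, one_mul]
    exact hC.1 k
  · intro x hx r
    rw [← Matrix.mulVec_mulVec]
    set y := C.mulVec (lift1 x) with hy
    have hy0 : ∀ i, 0 ≤ y i := hC.2 x hx
    simp only [Matrix.mulVec, dotProduct]
    simp_rw [hentry]
    by_cases hr : r = j
    · simp only [hr, if_true]
      have h1 : ∑ c, v c * y c = ∑ c, y c - ∑ c, (if c = j then 0 else α c * y c) := by
        rw [← Finset.sum_sub_distrib]
        apply Finset.sum_congr rfl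
        intro c _
        by_cases hc : c = j
        · simp [hc, hv]
        · simp [hc, hv]
          ring
      rw [h1, hy, hsumC, lift1_zero]
      have := hle x hx
      linarith
    · simp only [hr, if_false]
      have h1 : ∑ c, (if c = r then β c else 0) * y c = β r * y r := by
        simp [ite_mul]
      rw [h1]
      have : β r = α r := by simp [hβ, hr]
      rw [this]
      exact mul_nonneg (hα r) (hy0 r)
  · rw [Matrix.det_mul, hdet]

/-- a product of factors `1 + t d_i` with `∑ d_i > 0` exceeds one for some small `t > 0` -/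
theorem exists_prod_gt_one {ι : Type*} [Fintype ι] (d : ι → ℝ) (hd : 0 < ∑ i, d i) :
    ∃ t : ℝ, 0 < t ∧ t ≤ 1 ∧ (∀ i, 0 ≤ 1 + t * d i) ∧ 1 < ∏ i, (1 + t * d i) := by
  classical
  have hp : HasDerivAt (fun t : ℝ => ∏ i, (1 + t * d i)) (∑ i, d i) 0 := by
    have h := HasDerivAt.finsetProd (u := Finset.univ) (f := fun (i : ι) (t : ℝ) => 1 + t * d i)
      (f' := fun i => d i) (x := (0 : ℝ)) (fun i _ => by
        have := ((hasDerivAt_id (0 : ℝ)).mul_const (d i)).const_add 1
        simpa using this)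
    have he : (fun t : ℝ => ∏ i, (1 + t * d i)) = ∏ i, fun t : ℝ => 1 + t * d i := by
      funext t
      simp [Finset.prod_apply]
    rw [he]
    simpa using h
  rw [hasDerivAt_iff_tendsto_slope_zero] at hp
  have h1 : ∀ᶠ t in nhdsWithin (0 : ℝ) {0}ᶜ,
      0 < t⁻¹ • ((∏ i, (1 + (0 + t) * d i)) - ∏ i, (1 + (0 : ℝ) * d i)) :=
    hp.eventually (lt_mem_nhds hd)
  have h1' : ∀ᶠ t in nhdsWithin (0 : ℝ) (Set.Ioi 0),
      0 < t⁻¹ • ((∏ i, (1 + (0 + t) * d i)) - ∏ i, (1 + (0 : ℝ) * d i)) :=
    h1.filter_mono (nhdsWithin_mono _ (fun t ht => ne_of_gt ht))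
  have h2 : ∀ᶠ t in nhdsWithin (0 : ℝ) (Set.Ioi 0), t ≤ 1 :=
    (eventually_le_nhds (by norm_num : (0 : ℝ) < 1)).filter_mono nhdsWithin_le_nhds
  have h3 : ∀ᶠ t in nhdsWithin (0 : ℝ) (Set.Ioi 0), ∀ i, 0 ≤ 1 + t * d i := by
    rw [Filter.eventually_all]
    intro i
    have hc : Continuous fun t : ℝ => 1 + t * d i := by fun_prop
    have : ∀ᶠ t in nhds (0 : ℝ), 0 < 1 + t * d i := by
      apply hc.continuousAt.eventually (lt_mem_nhds _)
      simp
    exact (this.mono fun t ht => ht.le).filter_mono nhdsWithin_le_nhds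
  have h4 : ∀ᶠ t in nhdsWithin (0 : ℝ) (Set.Ioi 0), 0 < t := eventually_mem_nhdsWithin
  obtain ⟨t, ht1, ht2, ht3, ht4⟩ := (h1'.and (h2.and (h3.and h4))).exists
  refine ⟨t, ht4, ht2, ht3, ?_⟩
  simp only [zero_add, zero_mul, add_zero, Finset.prod_const_one, smul_eq_mul] at ht1
  have := (mul_pos_iff_of_pos_left (inv_pos.mpr ht4)).mp ht1
  linarith

end Vale.Agent.P254
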