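import Vale.Agent.P254.LM.KleeA
import Vale.Agent.P254.LM.KleeB

/-!
# P254: the circumscribed simplex of least volume touches the body at the barycentres of its facets
-/

namespace Vale.Agent.P254

open MeasureTheory Set

variable {n : ℕ} {K : Set (Fin n → ℝ)}

/-- the coordinates of the barycentre of the facet number `j` -/
lemma ins_zc_apply (k : ℕ) (j i : Fin (k + 2)) :
    ins j (zc (k + 1)) i = if i = j then 0 else 1 / ((k : ℝ) + 1) := by
  unfold ins
  by_cases h : i = j
  · subst h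
    simp
  · rw [if_neg h]
    have h0 : Equiv.swap 0 j i ≠ 0 := by
      intro h1
      have h2 : Equiv.swap 0 j i = Equiv.swap 0 j j := by rw [h1, Equiv.swap_apply_right]
      exact h ((Equiv.swap 0 j).injective h2)
    obtain ⟨m, hm⟩ := Fin.exists_succ_eq.2 h0
    rw [← hm, Fin.cons_succ]
    simp [zc]

/-- the coordinates of `C v` add up to `v 0` when the column sums of `C` are `(1, 0, …, 0)` -/
lemma sum_mulVec_of_colsum {m : ℕ} {C : Matrix (Fin (m + 1)) (Fin (m + 1)) ℝ}
    (hC : ∀ j, ∑ i, C i j = if j = 0 then 1 else 0) (v : Fin (m + 1) → ℝ) :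
    ∑ i, C.mulVec v i = v 0 := by
  simp only [Matrix.mulVec, dotProduct]
  rw [Finset.sum_comm]
  simp only [← Finset.sum_mul, hC]
  simp

/-- an affine function written through `lift1` -/
lemma dotProduct_lift1_affine {m : ℕ} (f : (Fin m → ℝ) →L[ℝ] ℝ) (u : ℝ) (x : Fin m → ℝ) :
    (Fin.cons u (fun i => - f (Pi.single i 1)) : Fin (m + 1) → ℝ) ⬝ᵥ lift1 x = u - f x := by
  have hx : f x = ∑ i, x i * f (Pi.single i 1) := by
    conv_lhs => rw [pi_eq_sum_univ' x]
    rw [map_sum]
    refine Finset.sum_congr rfl fun i _ => ?_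
    rw [map_smul, smul_eq_mul]
  simp only [dotProduct, Fin.sum_univ_succ, Fin.cons_zero, Fin.cons_succ, lift1_zero, lift1_succ]
  rw [hx, mul_one, sub_eq_add_neg, ← Finset.sum_neg_distrib]
  congr 1
  refine Finset.sum_congr rfl fun i _ => ?_
  ring

/-- **Klee's theorem**, in the language of barycentric coordinate systems. -/
theorem klee (k : ℕ) {K : Set (Fin (k + 1) → ℝ)} (hK : IsConvexBody K)
    {C₀ : Matrix (Fin (k + 2)) (Fin (k + 2)) ℝ} (h0 : C₀ ∈ admC K) (hd : C₀.det ≠ 0) :
    ∃ C ∈ admC K, |C₀.det| ≤ |C.det| ∧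
      ∀ j : Fin (k + 2), ∃ x ∈ K, C.mulVec (lift1 x) = ins j (zc (k + 1)) := by
  obtain ⟨C, hC, hmax⟩ := exists_max_admC hK h0
  refine ⟨C, hC, hmax _ h0, fun j => ?_⟩
  have hdetpos : 0 < |C.det| := lt_of_lt_of_le (abs_pos.2 hd) (hmax _ h0)
  have hdet : C.det ≠ 0 := abs_pos.1 hdetpos
  have hunit : IsUnit C.det := isUnit_iff_ne_zero.2 hdet
  by_contra hne
  push Not at hne
  have hCz : C.mulVec (C⁻¹.mulVec (ins j (zc (k + 1)))) = ins j (zc (k + 1)) := by
    rw [Matrix.mulVec_mulVec, Matrix.mul_nonsing_inv _ hunit, Matrix.one_mulVec]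
  have hz0 : (C⁻¹.mulVec (ins j (zc (k + 1)))) 0 = 1 := by
    rw [← sum_mulVec_of_colsum hC.1 (C⁻¹.mulVec (ins j (zc (k + 1)))), hCz, sum_ins, sum_zc]
  have hz : lift1 (Fin.tail (C⁻¹.mulVec (ins j (zc (k + 1))))) = C⁻¹.mulVec (ins j (zc (k + 1))) :=
    lift1_tail hz0
  have hzK : Fin.tail (C⁻¹.mulVec (ins j (zc (k + 1)))) ∉ K := fun h =>
    hne _ h (by rw [hz, hCz])
  obtain ⟨f, u, hfu, huz⟩ := geometric_hahn_banach_closed_point hK.2.1 hK.1.isClosed hzK
  obtain ⟨phi, hphi⟩ : ∃ phi : Fin (k + 2) → ℝ, ∀ x, phi ⬝ᵥ lift1 x = u - f x :=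
    ⟨_, dotProduct_lift1_affine f u⟩
  obtain ⟨e, he⟩ : ∃ e : Fin (k + 2) → ℝ, ∀ v, e ⬝ᵥ C.mulVec v = phi ⬝ᵥ v := by
    refine ⟨Matrix.vecMul phi C⁻¹, fun v => ?_⟩
    rw [Matrix.dotProduct_mulVec, Matrix.vecMul_vecMul, Matrix.nonsing_inv_mul _ hunit,
      Matrix.vecMul_one]
  -- the value at the excluded point
  have hneg : e ⬝ᵥ ins j (zc (k + 1)) < 0 := by
    rw [← hCz, he, ← hz, hphi]
    linarith
  have hk1 : (0 : ℝ) < (k : ℝ) + 1 := by positivity
  have hsumneg : ∑ i, (if i = j then 0 else e i) < 0 := by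
    have h1 : e ⬝ᵥ ins j (zc (k + 1)) = (∑ i, (if i = j then 0 else e i)) * (1 / ((k : ℝ) + 1)) := by
      rw [dotProduct, Finset.sum_mul]
      refine Finset.sum_congr rfl fun i _ => ?_
      rw [ins_zc_apply]
      split_ifs <;> simp
    rw [h1] at hneg
    by_contra hcon
    push Not at hcon
    have : 0 ≤ (∑ i, (if i = j then 0 else e i)) * (1 / ((k : ℝ) + 1)) := by positivity
    linarith
  have hE : 0 < |e j| + 1 := by positivity
  obtain ⟨d, hddef⟩ : ∃ d : Fin (k + 2) → ℝ, ∀ i, d i = if i = j then 0 else - e i / (|e j| + 1) :=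
    ⟨_, fun _ => rfl⟩
  have hdsum : 0 < ∑ i, d i := by
    have h1 : ∑ i, d i = - (∑ i, (if i = j then 0 else e i)) / (|e j| + 1) := by
      rw [← Finset.sum_neg_distrib, Finset.sum_div]
      refine Finset.sum_congr rfl fun i _ => ?_
      rw [hddef]
      split_ifs <;> simp
    rw [h1]
    apply div_pos _ hE
    linarith
  obtain ⟨t, ht0, ht1, htnn, htprod⟩ := exists_prod_gt_one d hdsum
  have hle : ∀ x ∈ K, ∑ i, (if i = j then 0 else (1 + t * d i) * (C.mulVec (lift1 x)) i) ≤ 1 := by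
    intro x hx
    have hl0 : ∀ i, 0 ≤ (C.mulVec (lift1 x)) i := hC.2 x hx
    have hl1 : ∑ i, (C.mulVec (lift1 x)) i = 1 := by
      rw [sum_mulVec_of_colsum hC.1, lift1_zero]
    have hpos : 0 < e ⬝ᵥ C.mulVec (lift1 x) := by
      rw [he, hphi]
      linarith [hfu x hx]
    generalize C.mulVec (lift1 x) = l at hl0 hl1 hpos
    -- split off the coordinate `j`
    have hs1 : ∑ i, (if i = j then 0 else l i) = 1 - l j := by
      have : ∑ i, (if i = j then 0 else l i) = ∑ i, (l i - if i = j then l j else 0) := by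
        refine Finset.sum_congr rfl fun i _ => ?_
        split_ifs with h
        · subst h; simp
        · simp
      rw [this, Finset.sum_sub_distrib, hl1]
      simp
    have hs2 : ∑ i, d i * l i ≤ l j := by
      have h1 : ∑ i, d i * l i = (e j * l j - e ⬝ᵥ l) / (|e j| + 1) := by
        rw [eq_div_iff hE.ne', Finset.sum_mul, dotProduct]
        have : e j * l j = ∑ i, (if i = j then e j * l j else 0) := by simp
        rw [this, ← Finset.sum_sub_distrib]
        refine Finset.sum_congr rfl fun i _ => ?_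
        rw [hddef]
        split_ifs with h
        · subst h; simp
        · field_simp
          ring
      rw [h1, div_le_iff₀ hE]
      have h2 : e j * l j ≤ |e j| * l j := mul_le_mul_of_nonneg_right (le_abs_self _) (hl0 j)
      nlinarith [hl0 j]
    have hs3 : ∑ i, (if i = j then 0 else (1 + t * d i) * l i)
        = (∑ i, (if i = j then 0 else l i)) + t * ∑ i, d i * l i := by
      rw [Finset.mul_sum, ← Finset.sum_add_distrib]
      refine Finset.sum_congr rfl fun i _ => ?_
      split_ifs with h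
      · rw [hddef, if_pos h]; simp
      · ring
    rw [hs3, hs1]
    have h3 : t * ∑ i, d i * l i ≤ t * l j := mul_le_mul_of_nonneg_left hs2 ht0.le
    have h4 : t * l j ≤ 1 * l j := mul_le_mul_of_nonneg_right ht1 (hl0 j)
    linarith
  obtain ⟨C', hC', hdet'⟩ := exists_rescaled C hC j (fun i => 1 + t * d i) htnn hle
  have hprod : (∏ i, if i = j then 1 else (1 + t * d i)) = ∏ i, (1 + t * d i) := by
    refine Finset.prod_congr rfl fun i _ => ?_
    split_ifs with h
    · rw [hddef, if_pos h]; simp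
    · rfl
  have h5 := hmax C' hC'
  rw [hdet', hprod, abs_mul, abs_of_pos (lt_trans one_pos htprod)] at h5
  nlinarith

end Vale.Agent.P254
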