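import Vale.Agent.P254.LM.Basic

/-!
# P254: the circumscribed simplex of least volume touches the body at the barycentres of its facets
-/

namespace Vale.Agent.P254

open MeasureTheory Set

variable {n : ℕ} {K : Set (Fin n → ℝ)}

theorem mulVec_lift1 (C : Matrix (Fin (n + 1)) (Fin (n + 1)) ℝ) (x : Fin n → ℝ) (i : Fin (n + 1)) :
    (C.mulVec (lift1 x)) i = C i 0 + ∑ j : Fin n, C i j.succ * x j := by
  simp only [Matrix.mulVec, dotProduct]
  rw [Fin.sum_univ_succ]
  simp [lift1_zero, lift1_succ]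

theorem sum_mulVec_lift1 {C : Matrix (Fin (n + 1)) (Fin (n + 1)) ℝ} (hC : C ∈ admC K)
    (x : Fin n → ℝ) : ∑ i, (C.mulVec (lift1 x)) i = 1 := by
  simp only [Matrix.mulVec, dotProduct]
  rw [Finset.sum_comm]
  simp_rw [← Finset.sum_mul, hC.1]
  simp [lift1_zero]

theorem mulVec_lift1_le_one {C : Matrix (Fin (n + 1)) (Fin (n + 1)) ℝ} (hC : C ∈ admC K)
    {x : Fin n → ℝ} (hx : x ∈ K) (i : Fin (n + 1)) : (C.mulVec (lift1 x)) i ≤ 1 := by
  rw [← sum_mulVec_lift1 hC x]
  exact Finset.single_le_sum (fun k _ => hC.2 x hx k) (Finset.mem_univ i)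

theorem isClosed_admC (K : Set (Fin n → ℝ)) : IsClosed (admC K) := by
  have h : admC K = (⋂ j, {C : Matrix (Fin (n + 1)) (Fin (n + 1)) ℝ |
      ∑ i, C i j = if j = 0 then 1 else 0}) ∩
      ⋂ x ∈ K, ⋂ i, {C : Matrix (Fin (n + 1)) (Fin (n + 1)) ℝ | 0 ≤ (C.mulVec (lift1 x)) i} := by
    ext C
    simp [admC]
  rw [h]
  apply IsClosed.inter
  · apply isClosed_iInter
    intro j
    apply isClosed_eq
    · exact continuous_finsetSum _ fun i _ => Continuous.matrix_elem continuous_id i j
    · exact continuous_const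
  · apply isClosed_biInter
    intro x _
    apply isClosed_iInter
    intro i
    apply isClosed_le continuous_const
    exact (continuous_apply i).comp (Continuous.matrix_mulVec continuous_id continuous_const)

theorem isCompact_admC (hK : IsConvexBody K) : IsCompact (admC K) := by
  classical
  obtain ⟨x0, hx0⟩ := hK.2.2
  rw [mem_interior_iff_mem_nhds, Metric.nhds_basis_closedBall.mem_iff] at hx0
  obtain ⟨ρ, hρ, hball⟩ := hx0
  set B : ℝ := 1 + (1 + ∑ j, |x0 j|) / ρ with hB
  have hS0 : 0 ≤ ∑ j, |x0 j| := Finset.sum_nonneg fun j _ => abs_nonneg _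
  have hbox : IsCompact (Set.univ.pi fun _ : Fin (n + 1) => Set.univ.pi fun _ : Fin (n + 1) =>
      Set.Icc (-B) B) :=
    isCompact_univ_pi fun _ => isCompact_univ_pi fun _ => isCompact_Icc
  refine IsCompact.of_isClosed_subset hbox (isClosed_admC K) ?_
  intro C hC
  have hx0K : x0 ∈ K := hball (Metric.mem_closedBall_self hρ.le)
  have hsucc : ∀ i (j : Fin n), |C i j.succ| ≤ 1 / ρ := by
    intro i j
    have hxj : x0 + Pi.single j ρ ∈ K := by
      apply hball
      rw [Metric.mem_closedBall, dist_eq_norm, add_sub_cancel_left, Pi.norm_single,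
        Real.norm_eq_abs, abs_of_pos hρ]
    have e1 : (C.mulVec (lift1 (x0 + Pi.single j ρ))) i - (C.mulVec (lift1 x0)) i
        = C i j.succ * ρ := by
      rw [mulVec_lift1, mulVec_lift1]
      simp only [Pi.add_apply, mul_add, Finset.sum_add_distrib]
      have : ∑ k : Fin n, C i k.succ * (Pi.single j ρ : Fin n → ℝ) k = C i j.succ * ρ := by
        rw [Finset.sum_eq_single j]
        · simp
        · intro k _ hk
          simp [Pi.single_eq_of_ne hk]
        · simp
      rw [this]
      ring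
    have a1 := hC.2 _ hxj i
    have a2 := mulVec_lift1_le_one hC hxj i
    have a3 := hC.2 _ hx0K i
    have a4 := mulVec_lift1_le_one hC hx0K i
    have : |C i j.succ * ρ| ≤ 1 := by
      rw [← e1, abs_le]
      constructor <;> linarith
    rw [abs_mul, abs_of_pos hρ] at this
    rw [le_div_iff₀ hρ]
    exact this
  have hzero : ∀ i, |C i 0| ≤ 1 + (∑ j, |x0 j|) / ρ := by
    intro i
    have a3 := hC.2 _ hx0K i
    have a4 := mulVec_lift1_le_one hC hx0K i
    rw [mulVec_lift1] at a3 a4
    have hs : |∑ j : Fin n, C i j.succ * x0 j| ≤ (∑ j, |x0 j|) / ρ := by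
      calc |∑ j : Fin n, C i j.succ * x0 j| ≤ ∑ j : Fin n, |C i j.succ * x0 j| :=
            Finset.abs_sum_le_sum_abs _ _
        _ ≤ ∑ j : Fin n, 1 / ρ * |x0 j| := by
            apply Finset.sum_le_sum
            intro j _
            rw [abs_mul]
            exact mul_le_mul_of_nonneg_right (hsucc i j) (abs_nonneg _)
        _ = (∑ j, |x0 j|) / ρ := by
            rw [← Finset.mul_sum]
            ring
    have hs' := abs_le.mp hs
    rw [abs_le]
    constructor <;> linarith [hs'.1, hs'.2]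
  have hρB : 1 / ρ ≤ B := by
    rw [hB, add_div]
    have : 0 ≤ (∑ j, |x0 j|) / ρ := div_nonneg hS0 hρ.le
    linarith
  have hzB : 1 + (∑ j, |x0 j|) / ρ ≤ B := by
    rw [hB, add_div]
    have : 0 ≤ 1 / ρ := by positivity
    linarith
  intro i _ j _
  rw [Set.mem_Icc, ← abs_le]
  refine Fin.cases ?_ (fun j' => ?_) j
  · exact (hzero i).trans hzB
  · exact (hsucc i j').trans hρB

/-- existence of a maximiser of `|det|` -/
theorem exists_max_admC (hK : IsConvexBody K) {C₀ : Matrix (Fin (n + 1)) (Fin (n + 1)) ℝ}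
    (h0 : C₀ ∈ admC K) : ∃ C ∈ admC K, ∀ C' ∈ admC K, |C'.det| ≤ |C.det| := by
  have hc : Continuous fun C : Matrix (Fin (n + 1)) (Fin (n + 1)) ℝ => |C.det| :=
    (Continuous.matrix_det continuous_id).abs
  obtain ⟨C, hC, hmax⟩ := (isCompact_admC hK).exists_isMaxOn ⟨C₀, h0⟩ hc.continuousOn
  exact ⟨C, hC, fun C' hC' => hmax hC'⟩

end Vale.Agent.P254
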