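import Vale.Agent.P254.LM.CF
import Vale.Agent.P254.LM.Radial
import Vale.Agent.P254.LM.Jensen

/-!
# P254: the weighted Jensen inequality on the simplex

`E[((k+2)|l|² - 2) u] ≥ c0 k (E u - u(barycentre))` for convex `u`.
-/

namespace Vale.Agent.P254

open MeasureTheory Set

lemma integrableOn_prod_of_continuous {k : ℕ} {G : ℝ × (Fin k → ℝ) → ℝ} (hG : Continuous G) :
    IntegrableOn G (Ioo (0 : ℝ) 1 ×ˢ stdS k) :=
  (hG.continuousOn.integrableOn_compact (isCompact_Icc.prod (isCompact_stdS k))).mono_set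
    (prod_mono Ioo_subset_Icc_self Subset.rfl)

lemma convexOn_comp_mix {k : ℕ} {u : (Fin (k + 1) → ℝ) → ℝ} (hconv : ConvexOn ℝ univ u)
    (j : Fin (k + 1)) (r : ℝ) : ConvexOn ℝ univ (fun ζ : Fin k → ℝ => u (mix j r ζ)) := by
  refine ⟨convex_univ, fun x _ y _ a b ha hb hab => ?_⟩
  simp only
  rw [mix_combo j r a b hab]
  exact hconv.2 (mem_univ _) (mem_univ _) ha hb hab

lemma convexOn_comp_mix_radial {k : ℕ} {u : (Fin (k + 1) → ℝ) → ℝ} (hconv : ConvexOn ℝ univ u)
    (j : Fin (k + 1)) (ζ : Fin k → ℝ) (c : ℝ) :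
    ConvexOn ℝ (Icc (0 : ℝ) 1) (fun r : ℝ => u (mix j r ζ) - c) := by
  refine ⟨convex_Icc 0 1, fun x _ y _ a b ha hb hab => ?_⟩
  simp only [smul_eq_mul]
  rw [mix_combo_radial j x y a b hab]
  have h := hconv.2 (mem_univ (mix j x ζ)) (mem_univ (mix j y ζ)) ha hb hab
  simp only [smul_eq_mul] at h
  have e : a * (u (mix j x ζ) - c) + b * (u (mix j y ζ) - c)
      = a * u (mix j x ζ) + b * u (mix j y ζ) - (a + b) * c := by ring
  rw [e, hab]
  linarith

lemma continuous_comp_mix_bary {k : ℕ} {u : (Fin (k + 2) → ℝ) → ℝ} (hc : Continuous u)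
    (j : Fin (k + 2)) : Continuous (fun q : ℝ × (Fin k → ℝ) => u (mix j q.1 (bary q.2))) :=
  hc.comp ((continuous_mix j).comp (continuous_fst.prodMk (continuous_bary.comp continuous_snd)))

lemma continuous_comp_mix_left {k : ℕ} {u : (Fin (k + 1) → ℝ) → ℝ} (hc : Continuous u)
    (j : Fin (k + 1)) (r : ℝ) : Continuous (fun ζ : Fin k → ℝ => u (mix j r ζ)) :=
  hc.comp ((continuous_mix j).comp (continuous_const.prodMk continuous_id))

lemma continuous_comp_mix_right {k : ℕ} {u : (Fin (k + 1) → ℝ) → ℝ} (hc : Continuous u)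
    (j : Fin (k + 1)) (ζ : Fin k → ℝ) : Continuous (fun r : ℝ => u (mix j r ζ)) :=
  hc.comp ((continuous_mix j).comp (continuous_id.prodMk continuous_const))

lemma c0_nonneg (k : ℕ) : 0 ≤ c0 k := by unfold c0; positivity

lemma Eav_zero (F : (Fin 1 → ℝ) → ℝ) : Eav 0 F = F (zc 1) := by
  have h : ∀ l ∈ stdSimplex ℝ (Fin 1), F l = (fun _ => F (zc 1)) l := by
    intro l hl
    have : l = zc 1 := by
      ext i
      have h1 := hl.2
      simp only [Fin.sum_univ_one] at h1
      have hi : i = 0 := Subsingleton.elim _ _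
      subst hi
      simp [zc, h1]
    rw [this]
  rw [Eav_congr h, Eav_const]

/-- bounded on the simplex -/
lemma exists_bound_of_continuous {m : ℕ} {F : (Fin m → ℝ) → ℝ} (hF : Continuous F) :
    ∃ M, ∀ l ∈ stdSimplex ℝ (Fin m), |F l| ≤ M := by
  obtain ⟨M, hM⟩ := (isCompact_stdSimplex ℝ (Fin m)).exists_bound_of_continuousOn hF.continuousOn
  exact ⟨M, fun l hl => by simpa using hM l hl⟩

/-- the contribution of one cone -/
lemma lemmaW_cone (k : ℕ)
    (ih : ∀ u : (Fin (k + 1) → ℝ) → ℝ, Continuous u → ConvexOn ℝ univ u →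
      c0 k * (Eav k u - u (zc (k + 1))) ≤ Eav k (fun l => (((k : ℝ) + 2) * nsq l - 2) * u l))
    (u : (Fin (k + 2) → ℝ) → ℝ) (hc : Continuous u) (hconv : ConvexOn ℝ univ u)
    (j : Fin (k + 2)) :
    0 ≤ ∫ q in Ioo (0 : ℝ) 1 ×ˢ stdS k, q.1 ^ k *
      ((((k : ℝ) + 3) * nsq (mix j q.1 (bary q.2)) - 2) * u (mix j q.1 (bary q.2)) -
        c0 (k + 1) * (u (mix j q.1 (bary q.2)) - u (zc (k + 2)))) := by
  set z := u (zc (k + 2)) with hz
  have hk2 : ((k : ℝ) + 2) ≠ 0 := by positivity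
  have hk4 : ((k : ℝ) + 4) ≠ 0 := by positivity
  let G₁ : ℝ × (Fin k → ℝ) → ℝ := fun q =>
    q.1 ^ (k + 2) * (((k : ℝ) + 3) / ((k : ℝ) + 2)) *
      ((((k : ℝ) + 2) * nsq (bary q.2) - 2) * u (mix j q.1 (bary q.2)))
  let G₂ : ℝ × (Fin k → ℝ) → ℝ := fun q =>
    (((k : ℝ) + 3) / ((k : ℝ) + 2)) *
      (q.1 ^ k * (q.1 ^ 2 - ((k : ℝ) + 2) / ((k : ℝ) + 4)) * (u (mix j q.1 (bary q.2)) - z))
  let G₃ : ℝ × (Fin k → ℝ) → ℝ := fun q =>
    (z / ((k : ℝ) + 2)) * (q.1 ^ k * (((k : ℝ) + 3) * q.1 ^ 2 - ((k : ℝ) + 1)))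
  have hum := continuous_comp_mix_bary hc j
  have hnb : Continuous fun q : ℝ × (Fin k → ℝ) => nsq (bary q.2) :=
    continuous_nsq.comp (continuous_bary.comp continuous_snd)
  have hG₁c : Continuous G₁ :=
    ((continuous_fst.pow _).mul continuous_const).mul
      (((continuous_const.mul hnb).sub continuous_const).mul hum)
  have hG₂c : Continuous G₂ :=
    continuous_const.mul (((continuous_fst.pow k).mul
      ((continuous_fst.pow 2).sub continuous_const)).mul (hum.sub continuous_const))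
  have hG₃c : Continuous G₃ :=
    continuous_const.mul ((continuous_fst.pow k).mul
      ((continuous_const.mul (continuous_fst.pow 2)).sub continuous_const))
  have hG₁ := integrableOn_prod_of_continuous hG₁c
  have hG₂ := integrableOn_prod_of_continuous hG₂c
  have hG₃ := integrableOn_prod_of_continuous hG₃c
  have hsplit : ∀ q : ℝ × (Fin k → ℝ), q.1 ^ k *
      ((((k : ℝ) + 3) * nsq (mix j q.1 (bary q.2)) - 2) * u (mix j q.1 (bary q.2)) -
        c0 (k + 1) * (u (mix j q.1 (bary q.2)) - z)) = G₁ q + G₂ q + G₃ q := by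
    intro q
    have h := nsq_mix j q.1 (sum_bary q.2)
    simp only [G₁, G₂, G₃]
    rw [h]
    unfold c0
    push_cast
    field_simp
    ring
  simp_rw [hsplit]
  rw [integral_add (f := fun q => G₁ q + G₂ q) (hG₁.add hG₂) hG₃, integral_add hG₁ hG₂]
  -- first term
  have h1 : 0 ≤ ∫ q in Ioo (0 : ℝ) 1 ×ˢ stdS k, G₁ q := by
    rw [setIntegral_prod_radial_outer hG₁]
    refine setIntegral_nonneg measurableSet_Ioo fun r hr => ?_
    simp only [G₁]
    rw [integral_const_mul]
    have hur := continuous_comp_mix_left hc j r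
    have hconvr := convexOn_comp_mix hconv j r
    have h2 := ih _ hur hconvr
    have h3 := jensen_Eav k _ hur hconvr
    have h4 : 0 ≤ Eav k (fun l => (((k : ℝ) + 2) * nsq l - 2) * u (mix j r l)) :=
      le_trans (mul_nonneg (c0_nonneg k) (by linarith)) h2
    unfold Eav at h4
    have h5 : 0 ≤ ∫ x in stdS k, (((k : ℝ) + 2) * nsq (bary x) - 2) * u (mix j r (bary x)) := by
      have hf : (0 : ℝ) < (k.factorial : ℝ) := by positivity
      exact nonneg_of_mul_nonneg_right h4 hf
    have hr0 : 0 ≤ r := hr.1.le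
    positivity
  -- second term
  have h2 : 0 ≤ ∫ q in Ioo (0 : ℝ) 1 ×ˢ stdS k, G₂ q := by
    rw [setIntegral_prod_radial_inner hG₂]
    refine setIntegral_nonneg (measurableSet_stdS k) fun y _ => ?_
    simp only [G₂]
    rw [integral_const_mul]
    have hψ := radial_convex k (fun r => u (mix j r (bary y)) - z)
      ((continuous_comp_mix_right hc j (bary y)).sub continuous_const).continuousOn
      (convexOn_comp_mix_radial hconv j (bary y) z) (by simp only [mix_zero]; rw [hz]; ring)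
    positivity
  -- third term
  have h3 : ∫ q in Ioo (0 : ℝ) 1 ×ˢ stdS k, G₃ q = 0 := by
    rw [setIntegral_prod_radial_inner hG₃]
    simp only [G₃]
    simp_rw [integral_const_mul, radial_mass_zero k]
    simp
  rw [h3]
  linarith

theorem lemmaW (k : ℕ) (u : (Fin (k + 1) → ℝ) → ℝ) (hc : Continuous u)
    (hconv : ConvexOn ℝ univ u) :
    c0 k * (Eav k u - u (zc (k + 1))) ≤ Eav k (fun l => (((k : ℝ) + 2) * nsq l - 2) * u l) := by
  induction k with
  | zero =>
    rw [Eav_zero, Eav_zero]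
    have : nsq (zc 1) = 1 := by simp [nsq, zc]
    simp [this]
  | succ k ih =>
    have hnc : Continuous (nsq : (Fin (k + 2) → ℝ) → ℝ) := continuous_nsq
    have hau : Continuous fun l : Fin (k + 2) → ℝ => ((((k + 1 : ℕ) : ℝ) + 2) * nsq l - 2) * u l := by
      fun_prop
    set F : (Fin (k + 2) → ℝ) → ℝ := fun l =>
      (((k : ℝ) + 3) * nsq l - 2) * u l - c0 (k + 1) * (u l - u (zc (k + 2))) with hF
    have hFc : Continuous F := by fun_prop
    have hE : Eav (k + 1) F = Eav (k + 1) (fun l => ((((k + 1 : ℕ) : ℝ) + 2) * nsq l - 2) * u l) -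
        c0 (k + 1) * (Eav (k + 1) u - u (zc (k + 2))) := by
      have e1 : F = fun l => (fun l => ((((k + 1 : ℕ) : ℝ) + 2) * nsq l - 2) * u l) l -
          (fun l => c0 (k + 1) * (u l - u (zc (k + 2)))) l := by
        funext l
        simp only [hF]
        push_cast
        ring
      rw [e1, Eav_sub hau (by fun_prop), Eav_const_mul, Eav_sub hc continuous_const, Eav_const]
    have hpos : 0 ≤ Eav (k + 1) F := by
      rw [Eav_succ k F hFc.measurable (exists_bound_of_continuous hFc)]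
      refine mul_nonneg (by positivity) (Finset.sum_nonneg fun j _ => ?_)
      exact mul_nonneg (by positivity) (lemmaW_cone k ih u hc hconv j)
    rw [hE] at hpos
    linarith

end Vale.Agent.P254
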