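import Vale.Agent.P254.LM.Core
import Vale.Agent.P254.LM.Klee
import Vale.Agent.P254.LM.Transfer

/-!
# P254: simplices are strict local maximisers of the isotropic constant
-/

namespace Vale.Agent.P254

open MeasureTheory Set

theorem local_max (k : ℕ) (K S : Set (Fin (k + 1) → ℝ)) (hK : IsConvexBody K) (hS : IsSimplex S)
    (hKS : K ⊆ S) (hvol : (1 - epsN (k + 1)) * vol S ≤ vol K) :
    isoConst K ≤ isoConst S ∧ (isoConst K = isoConst S → IsSimplex K) := by
  obtain ⟨C₀, hC₀, hd₀, hvol₀⟩ := exists_admC_of_simplex hS hKS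
  obtain ⟨C, hC, hdet, hcen⟩ := klee k hK hC₀ hd₀
  have hd : C.det ≠ 0 := by
    intro h
    rw [h, abs_zero] at hdet
    exact hd₀ (abs_eq_zero.mp (le_antisymm hdet (abs_nonneg _)))
  have hKc' : IsCompact (trC C K) := isCompact_trC hK.1
  have hconv' : Convex ℝ (trC C K) := convex_trC hK.2.1
  have hKT' : trC C K ⊆ stdS (k + 1) := trC_subset_stdS hC
  have hcen' : ∀ j : Fin (k + 2), ∃ x ∈ trC C K, bary x = ins j (zc (k + 1)) := by
    intro j
    obtain ⟨x, hx, hxj⟩ := hcen j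
    refine ⟨Fin.tail (C.mulVec (lift1 x)), ⟨x, hx, rfl⟩, ?_⟩
    rw [bary_tail_mulVec hC, hxj]
  have hvol' : (1 - epsN (k + 1)) * vol (stdS (k + 1)) ≤ vol (trC C K) := by
    rw [vol_trC hK.1 hC hd, ← hvol₀]
    have h1 : |C₀.det| * ((1 - epsN (k + 1)) * vol S) ≤ |C₀.det| * vol K :=
      mul_le_mul_of_nonneg_left hvol (abs_nonneg _)
    have h2 : |C₀.det| * vol K ≤ |C.det| * vol K :=
      mul_le_mul_of_nonneg_right hdet hK.vol_pos.le
    calc (1 - epsN (k + 1)) * (|C₀.det| * vol S) = |C₀.det| * ((1 - epsN (k + 1)) * vol S) := by ring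
      _ ≤ |C.det| * vol K := h1.trans h2
  obtain ⟨hle, heq⟩ := core k hKc' hconv' hKT' hcen' hvol'
  rw [isoQ_trC hK hC hd] at hle heq
  have hSb := hS.isConvexBody
  rw [isoConst_le_iff (Nat.succ_le_succ (Nat.zero_le k)) hK.1 hSb.1,
    isoConst_eq_iff (Nat.succ_le_succ (Nat.zero_le k)) hK.1 hSb.1, isoQ_simplex hS]
  refine ⟨hle, fun h => ?_⟩
  refine isSimplex_of_trC hK hC hd ?_
  rw [heq h]
  exact isSimplex_stdS (k + 1)

end Vale.Agent.P254
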