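import Vale.Agent.P254.LM.LemmaW
import Vale.Agent.P254.LM.GaugeFacts

/-!
# P254: the main inequality `∫_{T \ K} w_T ≥ 0`
-/

namespace Vale.Agent.P254

open MeasureTheory Set

lemma deltaN_pos' (k : ℕ) : 0 < deltaN (k + 1) := by
  unfold deltaN
  push_cast
  positivity

lemma thetaN_lt (k : ℕ) : thetaN (k + 1) < 1 / (((k + 1 : ℕ) : ℝ) + 1) := by
  unfold thetaN
  have h := deltaN_pos' k
  have hn : (0 : ℝ) < ((k + 1 : ℕ) : ℝ) + 1 := by positivity
  rw [div_lt_div_iff₀ (by positivity) hn]
  nlinarith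

lemma deltaN_mul (k : ℕ) : ((k : ℝ) + 1) * ((k : ℝ) + 4) / 2 * deltaN (k + 1) = c0 k := by
  unfold deltaN c0
  push_cast
  have h1 : ((k : ℝ) + 1) ≠ 0 := by positivity
  have h3 : ((k : ℝ) + 3) ≠ 0 := by positivity
  have h4 : ((k : ℝ) + 4) ≠ 0 := by positivity
  have e1 : (k : ℝ) + 1 + 2 = k + 3 := by ring
  have e2 : (k : ℝ) + 1 + 3 = k + 4 := by ring
  rw [e1, e2]
  field_simp
  ring

/-- the contribution of one cone -/
lemma main_cone (k : ℕ) {K : Set (Fin (k + 1) → ℝ)} (hKc : IsCompact K) (hconv : Convex ℝ K)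
    (hKT : K ⊆ stdS (k + 1)) (hin : ContainsCore K (thetaN (k + 1)))
    (j : Fin (k + 2)) (hcen : ∃ x ∈ K, bary x = ins j (zc (k + 1))) :
    0 ≤ ∫ q in Ioo (0 : ℝ) 1 ×ˢ stdS k, q.1 ^ k *
      (if 1 < gam K (mix j q.1 (bary q.2)) then
        ((k : ℝ) + 2) * nsq (mix j q.1 (bary q.2)) - 2 else 0) := by
  have hθ := thetaN_lt k
  have hγc : Continuous (gam K) := continuous_gam hconv hθ hin
  have hγconv : ConvexOn ℝ univ (gam K) := convexOn_gam hconv hθ hin
  have hδ := deltaN_pos' k
  have hk0 : (0 : ℝ) ≤ k := Nat.cast_nonneg k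
  -- the function on the facet
  set U : (Fin (k + 1) → ℝ) → ℝ := fun ζ => gam K (ins j ζ) - 1 with hU
  have hUc : Continuous U := (hγc.comp (continuous_ins j)).sub continuous_const
  have hUconv : ConvexOn ℝ univ U := by
    refine ⟨convex_univ, fun x _ y _ a b ha hb hab => ?_⟩
    simp only [hU, smul_eq_mul]
    rw [ins_add, ins_smul, ins_smul]
    have h := hγconv.2 (mem_univ (ins j x)) (mem_univ (ins j y)) ha hb hab
    simp only [smul_eq_mul] at h
    have e : a * (gam K (ins j x) - 1) + b * (gam K (ins j y) - 1)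
        = a * gam K (ins j x) + b * gam K (ins j y) - (a + b) := by ring
    rw [e, hab]
    linarith
  have hU0 : ∀ ζ ∈ stdSimplex ℝ (Fin (k + 1)), 0 ≤ U ζ := by
    intro ζ hζ
    have := one_le_gam_of_boundary hKc hconv hKT hθ hin (l := ins j ζ)
      (by rw [sum_ins]; exact hζ.2) (ins_self j ζ)
    simp only [hU]
    linarith
  have hUδ : ∀ ζ ∈ stdSimplex ℝ (Fin (k + 1)), U ζ ≤ deltaN (k + 1) := by
    intro ζ hζ
    have := gam_le_of_core hKc hconv hδ hin (ins_mem_stdSimplex j hζ)
    simp only [hU]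
    linarith
  have hUz : U (zc (k + 1)) = 0 := by
    obtain ⟨x, hx, hxj⟩ := hcen
    have h1 := (gam_bary_le_one_iff hKc hconv hθ hin x).mpr hx
    rw [hxj] at h1
    have h2 := hU0 _ (zc_mem_stdSimplex k)
    simp only [hU] at h2 ⊢
    linarith
  -- integrability
  set G : ℝ × (Fin k → ℝ) → ℝ := fun q => q.1 ^ k *
      (if 1 < gam K (mix j q.1 (bary q.2)) then
        ((k : ℝ) + 2) * nsq (mix j q.1 (bary q.2)) - 2 else 0) with hG
  have hmixc : Continuous fun q : ℝ × (Fin k → ℝ) => mix j q.1 (bary q.2) :=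
    (continuous_mix j).comp (continuous_fst.prodMk (continuous_bary.comp continuous_snd))
  have hGm : Measurable G := by
    refine (measurable_fst.pow_const k).mul (Measurable.ite ?_ ?_ measurable_const)
    · exact measurableSet_lt measurable_const (hγc.comp hmixc).measurable
    · exact (((continuous_nsq.comp hmixc).measurable).const_mul _).sub_const _
  have hGb : ∀ q ∈ Ioo (0 : ℝ) 1 ×ˢ stdS k, |G q| ≤ (k : ℝ) + 4 := by
    rintro ⟨r, y⟩ ⟨hr, hy⟩
    simp only at hr hy
    have hmem := mix_mem_stdSimplex j (Ioo_subset_Icc_self hr) (bary_mem_stdSimplex hy)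
    have h1 := nsq_le_one hmem
    have h0 := nsq_nonneg (mix j r (bary y))
    have hrk : |r ^ k| ≤ 1 := by
      rw [abs_pow]
      exact pow_le_one₀ (abs_nonneg _) (by rw [abs_of_pos hr.1]; exact hr.2.le)
    simp only [hG, abs_mul]
    have h2 : |if 1 < gam K (mix j r (bary y)) then
        ((k : ℝ) + 2) * nsq (mix j r (bary y)) - 2 else 0| ≤ (k : ℝ) + 4 := by
      split_ifs
      · rw [abs_le]
        constructor <;> nlinarith
      · simp; linarith
    calc |r ^ k| * _ ≤ 1 * ((k : ℝ) + 4) := mul_le_mul hrk h2 (abs_nonneg _) zero_le_one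
      _ = (k : ℝ) + 4 := one_mul _
  have hGi : IntegrableOn G (Ioo (0 : ℝ) 1 ×ˢ stdS k) := integrableOn_prod_of_bdd hGm hGb
  rw [setIntegral_prod_radial_inner hGi]
  -- the lower bound
  set lower : (Fin k → ℝ) → ℝ := fun y =>
    (((k : ℝ) + 2) * nsq (bary y) - 2) * U (bary y) - c0 k * U (bary y) with hlower
  have hlc : Continuous lower := by
    have h1 : Continuous fun y : Fin k → ℝ => nsq (bary y) := continuous_nsq.comp continuous_bary
    have h2 : Continuous fun y : Fin k → ℝ => U (bary y) := hUc.comp continuous_bary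
    exact (((continuous_const.mul h1).sub continuous_const).mul h2).sub (continuous_const.mul h2)
  have hli : IntegrableOn lower (stdS k) := hlc.continuousOn.integrableOn_compact (isCompact_stdS k)
  have hlint : 0 ≤ ∫ y in stdS k, lower y := by
    have hW := lemmaW k U hUc hUconv
    rw [hUz, sub_zero] at hW
    have hnc : Continuous (nsq : (Fin (k + 1) → ℝ) → ℝ) := continuous_nsq
    have e : Eav k (fun l => (((k : ℝ) + 2) * nsq l - 2) * U l - c0 k * U l) =
        Eav k (fun l => (((k : ℝ) + 2) * nsq l - 2) * U l) - c0 k * Eav k U := by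
      have c1 : Continuous fun l : Fin (k + 1) → ℝ => (((k : ℝ) + 2) * nsq l - 2) * U l :=
        ((continuous_const.mul hnc).sub continuous_const).mul hUc
      have c2 : Continuous fun l : Fin (k + 1) → ℝ => c0 k * U l := continuous_const.mul hUc
      rw [Eav_sub c1 c2, Eav_const_mul]
    have h1 : 0 ≤ Eav k (fun l => (((k : ℝ) + 2) * nsq l - 2) * U l - c0 k * U l) := by
      rw [e]; linarith
    unfold Eav at h1
    exact nonneg_of_mul_nonneg_right h1 (by positivity)
  have hpt : ∀ y ∈ stdS k, lower y ≤ ∫ r in Ioo (0 : ℝ) 1, G (r, y) := by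
    intro y hy
    have hζ := bary_mem_stdSimplex hy
    set g := gam K (ins j (bary y)) with hg
    set A := ((k : ℝ) + 2) * nsq (bary y) - 1 with hA
    have hg1 : 0 ≤ g - 1 := hU0 _ hζ
    have hgδ : g - 1 ≤ deltaN (k + 1) := hUδ _ hζ
    have hn1 := nsq_le_one hζ
    have hn0 := one_le_mul_nsq hζ.2
    push_cast at hn0
    have hnn := nsq_nonneg (bary y)
    have hA0 : 0 ≤ A := by rw [hA]; nlinarith
    have hA1 : A ≤ (k : ℝ) + 1 := by rw [hA]; nlinarith
    have hrad := radial_indicator k A g hA0 hA1 (by linarith)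
    have hcongr : ∫ r in Ioo (0 : ℝ) 1, G (r, y) =
        ∫ r in Ioo (0 : ℝ) 1, r ^ k * (if 1 < r * g then r ^ 2 * A - 1 else 0) := by
      refine setIntegral_congr_fun measurableSet_Ioo fun r hr => ?_
      simp only [hG]
      have h1 : gam K (mix j r (bary y)) = r * g := by
        unfold mix
        rw [gam_ray _ hr.1.le]
      have h2 : ((k : ℝ) + 2) * nsq (mix j r (bary y)) - 2 = r ^ 2 * A - 1 := by
        rw [nsq_mix j r hζ.2, hA]
        push_cast
        have : ((k : ℝ) + 1 + 1) ≠ 0 := by positivity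
        field_simp
        ring
      rw [h1, h2]
    rw [hcongr]
    refine le_trans ?_ hrad
    have hmul := deltaN_mul k
    have hc : ((k : ℝ) + 1) * ((k : ℝ) + 4) / 2 * (g - 1) ^ 2 ≤ c0 k * (g - 1) := by
      rw [← hmul]
      have hpos : 0 ≤ ((k : ℝ) + 1) * ((k : ℝ) + 4) / 2 := by positivity
      have : (g - 1) ^ 2 ≤ deltaN (k + 1) * (g - 1) := by nlinarith
      calc ((k : ℝ) + 1) * ((k : ℝ) + 4) / 2 * (g - 1) ^ 2
          ≤ ((k : ℝ) + 1) * ((k : ℝ) + 4) / 2 * (deltaN (k + 1) * (g - 1)) :=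
            mul_le_mul_of_nonneg_left this hpos
        _ = ((k : ℝ) + 1) * ((k : ℝ) + 4) / 2 * deltaN (k + 1) * (g - 1) := by ring
    simp only [hlower, hU]
    rw [← hg]
    have e : ((k : ℝ) + 2) * nsq (bary y) - 2 = A - 1 := by rw [hA]; ring
    rw [e]
    linarith
  by_cases hI : IntegrableOn (fun y => ∫ r in Ioo (0 : ℝ) 1, G (r, y)) (stdS k)
  · exact le_trans hlint (setIntegral_mono_on hli hI (measurableSet_stdS k) hpt)
  · rw [integral_undef hI]

theorem main_ineq (k : ℕ) {K : Set (Fin (k + 1) → ℝ)} (hKc : IsCompact K) (hconv : Convex ℝ K)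
    (hKT : K ⊆ stdS (k + 1)) (hin : ContainsCore K (thetaN (k + 1)))
    (hcen : ∀ j : Fin (k + 2), ∃ x ∈ K, bary x = ins j (zc (k + 1))) :
    0 ≤ ∫ x in stdS (k + 1) \ K, (((k : ℝ) + 2) * nsq (bary x) - 2) := by
  have hθ := thetaN_lt k
  have hγc : Continuous (gam K) := continuous_gam hconv hθ hin
  have hk0 : (0 : ℝ) ≤ k := Nat.cast_nonneg k
  set F : (Fin (k + 2) → ℝ) → ℝ := fun l =>
    if 1 < gam K l then ((k : ℝ) + 2) * nsq l - 2 else 0 with hF
  have hFm : Measurable F := by
    refine Measurable.ite ?_ ?_ measurable_const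
    · exact measurableSet_lt measurable_const hγc.measurable
    · exact ((continuous_nsq.measurable).const_mul _).sub_const _
  have hFb : ∃ M, ∀ l ∈ stdSimplex ℝ (Fin (k + 2)), |F l| ≤ M := by
    refine ⟨(k : ℝ) + 4, fun l hl => ?_⟩
    have h1 := nsq_le_one hl
    have h0 := nsq_nonneg l
    simp only [hF]
    split_ifs
    · rw [abs_le]
      constructor <;> nlinarith
    · simp; linarith
  have h1 : ∫ x in stdS (k + 1) \ K, (((k : ℝ) + 2) * nsq (bary x) - 2) =
      ∫ x in stdS (k + 1), F (bary x) := by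
    rw [diff_eq, ← setIntegral_indicator hKc.measurableSet.compl]
    refine integral_congr_ae (Filter.Eventually.of_forall fun x => ?_)
    simp only [hF]
    by_cases hx : x ∈ K
    · have := (gam_bary_le_one_iff hKc hconv hθ hin x).mpr hx
      rw [indicator_of_notMem (by simpa using hx), if_neg (not_lt.mpr this)]
    · have : 1 < gam K (bary x) := by
        by_contra hcon
        exact hx ((gam_bary_le_one_iff hKc hconv hθ hin x).mp (not_lt.mp hcon))
      rw [indicator_of_mem (by simpa using hx), if_pos this]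
  rw [h1]
  have h2 : 0 ≤ Eav (k + 1) F := by
    rw [Eav_succ k F hFm hFb]
    refine mul_nonneg (by positivity) (Finset.sum_nonneg fun j _ => ?_)
    exact mul_nonneg (by positivity) (main_cone k hKc hconv hKT hin j (hcen j))
  unfold Eav at h2
  exact nonneg_of_mul_nonneg_right h2 (by positivity)

end Vale.Agent.P254
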