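import Vale.Agent.P254.LM.Defs

/-!
# P254: one-dimensional lemmas
-/

namespace Vale.Agent.P254

open MeasureTheory Set

/-- integral of a monomial combination over the open unit interval -/
theorem integral_Ioo_two_pow (a b : ℝ) (p q : ℕ) :
    ∫ r in Ioo (0 : ℝ) 1, (a * r ^ p - b * r ^ q) = a / ((p : ℝ) + 1) - b / ((q : ℝ) + 1) := by
  rw [← integral_Ioc_eq_integral_Ioo, ← intervalIntegral.integral_of_le zero_le_one]
  rw [intervalIntegral.integral_sub, intervalIntegral.integral_const_mul,
    intervalIntegral.integral_const_mul, integral_pow, integral_pow]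
  · simp [div_eq_mul_inv]
  · exact (continuous_const.mul (continuous_pow p)).intervalIntegrable _ _
  · exact (continuous_const.mul (continuous_pow q)).intervalIntegrable _ _

/-- the weight `r^k (r² - (k+2)/(k+4))` annihilates `r` and changes sign once, so it is nonnegative
on convex functions vanishing at `0` -/
theorem radial_convex (k : ℕ) (ψ : ℝ → ℝ) (hc : ContinuousOn ψ (Icc 0 1))
    (hconv : ConvexOn ℝ (Icc 0 1) ψ) (h0 : ψ 0 = 0) :
    0 ≤ ∫ r in Ioo (0 : ℝ) 1, r ^ k * (r ^ 2 - ((k : ℝ) + 2) / ((k : ℝ) + 4)) * ψ r := by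
  set c2 : ℝ := ((k : ℝ) + 2) / ((k : ℝ) + 4) with hc2
  have hk : (0 : ℝ) ≤ k := Nat.cast_nonneg k
  have hc2pos : 0 < c2 := by positivity
  have hc2lt : c2 < 1 := by
    rw [hc2, div_lt_one (by positivity)]; linarith
  set rc : ℝ := Real.sqrt c2 with hrc
  have hrcpos : 0 < rc := Real.sqrt_pos.mpr hc2pos
  have hrcsq : rc ^ 2 = c2 := Real.sq_sqrt hc2pos.le
  have hrclt : rc < 1 := by
    have h1 : rc ^ 2 < 1 ^ 2 := by rw [hrcsq]; simpa using hc2lt
    exact lt_of_pow_lt_pow_left₀ 2 zero_le_one h1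
  have hrcmem : rc ∈ Icc (0 : ℝ) 1 := ⟨hrcpos.le, hrclt.le⟩
  have h0mem : (0 : ℝ) ∈ Icc (0 : ℝ) 1 := ⟨le_refl _, zero_le_one⟩
  set kap : ℝ := ψ rc / rc with hkap
  have hkaprc : kap * rc = ψ rc := by rw [hkap]; field_simp
  have hpt : ∀ r ∈ Ioo (0 : ℝ) 1, 0 ≤ r ^ k * ((r ^ 2 - c2) * (ψ r - kap * r)) := by
    intro r hr
    apply mul_nonneg (pow_nonneg hr.1.le k)
    rcases le_total r rc with h | h
    · have h1 : r ^ 2 - c2 ≤ 0 := by
        rw [← hrcsq]; nlinarith [hr.1]
      have h2 : ψ r - kap * r ≤ 0 := by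
        have ha : 0 ≤ r / rc := div_nonneg hr.1.le hrcpos.le
        have hb : 0 ≤ 1 - r / rc := by
          rw [sub_nonneg, div_le_one hrcpos]; exact h
        have := hconv.2 hrcmem h0mem ha hb (by ring)
        have e1 : (r / rc) • rc + (1 - r / rc) • (0 : ℝ) = r := by
          simp only [smul_eq_mul, mul_zero, add_zero]; field_simp
        rw [e1, h0] at this
        simp only [smul_eq_mul, mul_zero, add_zero] at this
        have e2 : r / rc * ψ rc = kap * r := by rw [hkap]; ring
        linarith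
      nlinarith
    · have h1 : 0 ≤ r ^ 2 - c2 := by
        rw [← hrcsq]; nlinarith [hrcpos]
      have h2 : 0 ≤ ψ r - kap * r := by
        have hrmem : r ∈ Icc (0 : ℝ) 1 := ⟨hr.1.le, hr.2.le⟩
        have ha : 0 ≤ rc / r := div_nonneg hrcpos.le hr.1.le
        have hb : 0 ≤ 1 - rc / r := by
          rw [sub_nonneg, div_le_one hr.1]; exact h
        have := hconv.2 hrmem h0mem ha hb (by ring)
        have e1 : (rc / r) • r + (1 - rc / r) • (0 : ℝ) = rc := by
          simp only [smul_eq_mul, mul_zero, add_zero]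
          have := hr.1.ne'
          field_simp
        rw [e1, h0] at this
        simp only [smul_eq_mul, mul_zero, add_zero] at this
        -- ψ rc ≤ rc / r * ψ r
        have h3 : kap * rc ≤ rc / r * ψ r := by rw [hkaprc]; exact this
        have h4 : kap * rc * r ≤ rc * ψ r := by
          have := mul_le_mul_of_nonneg_right h3 hr.1.le
          have e3 : rc / r * ψ r * r = rc * ψ r := by
            have := hr.1.ne'
            field_simp
          rw [e3] at this; exact this
        have h5 : rc * (kap * r) ≤ rc * ψ r := by nlinarith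
        have := le_of_mul_le_mul_left h5 hrcpos
        linarith
      exact mul_nonneg h1 h2
  have hint1 : IntegrableOn (fun r : ℝ => r ^ k * ((r ^ 2 - c2) * (ψ r - kap * r))) (Ioo 0 1) := by
    have : ContinuousOn (fun r : ℝ => r ^ k * ((r ^ 2 - c2) * (ψ r - kap * r))) (Icc 0 1) := by
      apply ContinuousOn.mul (continuous_pow k).continuousOn
      apply ContinuousOn.mul ((continuous_pow 2).sub continuous_const).continuousOn
      exact hc.sub (continuous_const.mul continuous_id).continuousOn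
    exact (this.integrableOn_compact isCompact_Icc).mono_set Ioo_subset_Icc_self
  have hint2 : IntegrableOn (fun r : ℝ => kap * (1 * r ^ (k + 3) - c2 * r ^ (k + 1))) (Ioo 0 1) := by
    have : Continuous (fun r : ℝ => kap * (1 * r ^ (k + 3) - c2 * r ^ (k + 1))) := by fun_prop
    exact (this.continuousOn.integrableOn_compact isCompact_Icc).mono_set Ioo_subset_Icc_self
  have hsplit : ∀ r : ℝ, r ^ k * (r ^ 2 - c2) * ψ r =
      r ^ k * ((r ^ 2 - c2) * (ψ r - kap * r)) + kap * (1 * r ^ (k + 3) - c2 * r ^ (k + 1)) := by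
    intro r; ring
  simp_rw [hsplit]
  rw [integral_add hint1 hint2, integral_const_mul, integral_Ioo_two_pow]
  have hz : (1 : ℝ) / (((k + 3 : ℕ) : ℝ) + 1) - c2 / (((k + 1 : ℕ) : ℝ) + 1) = 0 := by
    rw [hc2]; push_cast; field_simp; ring
  rw [hz, mul_zero, add_zero]
  exact setIntegral_nonneg measurableSet_Ioo hpt

/-- the weight `r^k ((k+3) r² - (k+1))` has integral zero -/
theorem radial_mass_zero (k : ℕ) :
    ∫ r in Ioo (0 : ℝ) 1, r ^ k * (((k : ℝ) + 3) * r ^ 2 - ((k : ℝ) + 1)) = 0 := by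
  have h : ∀ r : ℝ, r ^ k * (((k : ℝ) + 3) * r ^ 2 - ((k : ℝ) + 1)) =
      ((k : ℝ) + 3) * r ^ (k + 2) - ((k : ℝ) + 1) * r ^ k := by
    intro r; ring
  simp_rw [h]
  rw [integral_Ioo_two_pow]
  have hk : (0 : ℝ) ≤ k := Nat.cast_nonneg k
  push_cast
  field_simp
  ring

end Vale.Agent.P254
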