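import Vale.Agent.P254.LM.Defs

/-!
# P254: one-dimensional lemmas
-/

namespace Vale.Agent.P254

open MeasureTheory Set

/-- second order upper bound for `(1 - x)^p` on the unit interval -/
theorem one_sub_pow_le_quadratic (p : ℕ) (x : ℝ) (hx0 : 0 ≤ x) (hx1 : x ≤ 1) :
    (1 - x) ^ p ≤ 1 - (p : ℝ) * x + (p : ℝ) * ((p : ℝ) - 1) / 2 * x ^ 2 := by
  induction p with
  | zero => simp
  | succ p ih =>
    have h1 : (1 - x) ^ (p + 1) ≤
        (1 - (p : ℝ) * x + (p : ℝ) * ((p : ℝ) - 1) / 2 * x ^ 2) * (1 - x) := by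
      rw [pow_succ]
      exact mul_le_mul_of_nonneg_right ih (by linarith)
    refine h1.trans ?_
    push_cast
    rcases Nat.eq_zero_or_pos p with hp | hp
    · subst hp; simp
    · have hp1 : (1 : ℝ) ≤ p := by exact_mod_cast hp
      have h3 : 0 ≤ (p : ℝ) * ((p : ℝ) - 1) / 2 * x ^ 3 := by
        have : 0 ≤ (p : ℝ) - 1 := by linarith
        positivity
      nlinarith [h3]

/-- the radial integral in closed form -/
theorem radial_indicator_eq (k : ℕ) (A g : ℝ) (hg : 1 ≤ g) :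
    ∫ r in Ioo (0 : ℝ) 1, r ^ k * (if 1 < r * g then r ^ 2 * A - 1 else 0) =
      A * ((1 - (1 / g) ^ (k + 3)) / ((k : ℝ) + 3)) - (1 - (1 / g) ^ (k + 1)) / ((k : ℝ) + 1) := by
  have hg0 : 0 < g := by linarith
  set ρ : ℝ := 1 / g with hρ
  have hρ0 : 0 < ρ := by positivity
  have hρ1 : ρ ≤ 1 := by rw [hρ, div_le_one hg0]; exact hg
  have e1 : (fun r : ℝ => r ^ k * (if 1 < r * g then r ^ 2 * A - 1 else 0)) =
      (Ioi ρ).indicator (fun r : ℝ => A * r ^ (k + 2) - 1 * r ^ k) := by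
    funext r
    by_cases h : 1 < r * g
    · have : r ∈ Ioi ρ := by
        rw [mem_Ioi, hρ, div_lt_iff₀ hg0]; exact h
      rw [indicator_of_mem this, if_pos h]; ring
    · have : r ∉ Ioi ρ := by
        rw [mem_Ioi, hρ, div_lt_iff₀ hg0]; exact h
      rw [indicator_of_notMem this, if_neg h]; ring
  rw [e1, setIntegral_indicator measurableSet_Ioi]
  have e2 : Ioo (0 : ℝ) 1 ∩ Ioi ρ = Ioo ρ 1 := by
    ext r
    simp only [mem_inter_iff, mem_Ioo, mem_Ioi]
    constructor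
    · rintro ⟨⟨_, h2⟩, h3⟩; exact ⟨h3, h2⟩
    · rintro ⟨h1, h2⟩; exact ⟨⟨hρ0.trans h1, h2⟩, h1⟩
  rw [e2, ← integral_Ioc_eq_integral_Ioo, ← intervalIntegral.integral_of_le hρ1]
  rw [intervalIntegral.integral_sub, intervalIntegral.integral_const_mul,
    intervalIntegral.integral_const_mul, integral_pow, integral_pow]
  · push_cast
    simp only [one_pow, one_mul]
    have : ((k : ℝ) + 2 + 1) = (k : ℝ) + 3 := by ring
    rw [this]
  · exact (continuous_const.mul (continuous_pow _)).intervalIntegrable _ _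
  · exact (continuous_const.mul (continuous_pow _)).intervalIntegrable _ _

/-- radial integral of `r² A - 1` over the part of the ray outside the body -/
theorem radial_indicator (k : ℕ) (A g : ℝ) (hA0 : 0 ≤ A) (hA : A ≤ (k : ℝ) + 1) (hg : 1 ≤ g) :
    (A - 1) * (g - 1) - ((k : ℝ) + 1) * ((k : ℝ) + 4) / 2 * (g - 1) ^ 2 ≤
      ∫ r in Ioo (0 : ℝ) 1, r ^ k * (if 1 < r * g then r ^ 2 * A - 1 else 0) := by
  rw [radial_indicator_eq k A g hg]
  have hg0 : 0 < g := by linarith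
  have hk : (0 : ℝ) ≤ k := Nat.cast_nonneg k
  set u : ℝ := g - 1 with hu
  have hu0 : 0 ≤ u := by linarith
  set x : ℝ := u / g with hx
  have hx0 : 0 ≤ x := by positivity
  have hx1 : x ≤ 1 := by rw [hx, div_le_one hg0]; linarith
  have hρ : 1 / g = 1 - x := by rw [hx, hu]; field_simp; ring
  have hxu : x ≤ u := by
    rw [hx, div_le_iff₀ hg0]; nlinarith
  have hxl : u - u ^ 2 ≤ x := by
    rw [hx, le_div_iff₀ hg0]
    have : g = 1 + u := by rw [hu]; ring
    rw [this]; nlinarith [pow_nonneg hu0 3]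
  have hx2 : x ^ 2 ≤ u ^ 2 := by nlinarith
  rw [hρ]
  -- (a)
  have ha : (1 - (1 - x) ^ (k + 1)) / ((k : ℝ) + 1) ≤ u := by
    rw [div_le_iff₀ (by positivity)]
    have := one_add_mul_le_pow (a := -x) (by linarith) (k + 1)
    push_cast at this
    have e : (1 : ℝ) + -x = 1 - x := by ring
    rw [e] at this
    nlinarith
  -- (b)
  have hb : u - ((k : ℝ) + 4) / 2 * u ^ 2 ≤ (1 - (1 - x) ^ (k + 3)) / ((k : ℝ) + 3) := by
    rw [le_div_iff₀ (by positivity)]
    have := one_sub_pow_le_quadratic (k + 3) x hx0 hx1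
    push_cast at this
    have h3 : ((k : ℝ) + 3) * (x - ((k : ℝ) + 2) / 2 * x ^ 2) ≤ 1 - (1 - x) ^ (k + 3) := by
      nlinarith
    refine le_trans ?_ h3
    rw [mul_comm]
    apply mul_le_mul_of_nonneg_left _ (by positivity)
    have : ((k : ℝ) + 2) / 2 * x ^ 2 ≤ ((k : ℝ) + 2) / 2 * u ^ 2 :=
      mul_le_mul_of_nonneg_left hx2 (by positivity)
    nlinarith
  have hc : A * (u - ((k : ℝ) + 4) / 2 * u ^ 2) ≤
      A * ((1 - (1 - x) ^ (k + 3)) / ((k : ℝ) + 3)) := mul_le_mul_of_nonneg_left hb hA0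
  have hd : A * (((k : ℝ) + 4) / 2 * u ^ 2) ≤ ((k : ℝ) + 1) * (((k : ℝ) + 4) / 2 * u ^ 2) :=
    mul_le_mul_of_nonneg_right hA (by positivity)
  nlinarith

/-- the final numerical inequality -/
theorem final_ineq (n : ℕ) (hn : 1 ≤ n) (v : ℝ) (hv0 : 0 < v) (hv1 : v ≤ 1)
    (hx : 0 ≤ (((n : ℝ) + 2) * v - 2) / n) :
    ((((n : ℝ) + 2) * v - 2) / n) ^ n ≤ v ^ (n + 2) ∧
      (((((n : ℝ) + 2) * v - 2) / n) ^ n = v ^ (n + 2) → v = 1) := by
  set x : ℝ := (((n : ℝ) + 2) * v - 2) / n with hxdef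
  have hn0 : (0 : ℝ) < n := by exact_mod_cast hn
  have hv : (n : ℝ) / ((n : ℝ) + 2) * x + 2 / ((n : ℝ) + 2) = v := by
    rw [hxdef]; field_simp; ring
  set w : Fin 2 → ℝ := ![(n : ℝ) / ((n : ℝ) + 2), 2 / ((n : ℝ) + 2)] with hwdef
  set z : Fin 2 → ℝ := ![x, 1] with hzdef
  have hw : ∀ i ∈ (Finset.univ : Finset (Fin 2)), 0 < w i := by
    intro i _
    fin_cases i
    · simp only [hwdef]; simp; positivity
    · simp only [hwdef]; simp; positivity
  have hw' : ∑ i, w i = 1 := by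
    simp only [hwdef, Fin.sum_univ_two]; simp; field_simp
  have hz : ∀ i ∈ (Finset.univ : Finset (Fin 2)), 0 ≤ z i := by
    intro i _
    fin_cases i
    · simp only [hzdef]; simpa using hx
    · simp only [hzdef]; simp
  have h1 := Real.geom_mean_le_arith_mean_weighted Finset.univ w z
    (fun i hi => (hw i hi).le) hw' hz
  have h2 := Real.geom_mean_eq_arith_mean_weighted_iff_of_pos Finset.univ w z hw hw' hz
  have ep : ∏ i, z i ^ w i = x ^ ((n : ℝ) / ((n : ℝ) + 2)) := by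
    simp [Fin.prod_univ_two, hwdef, hzdef]
  have es : ∑ i, w i * z i = v := by
    rw [← hv]; simp [Fin.sum_univ_two, hwdef, hzdef]
  rw [ep, es] at h1 h2
  have key : (x ^ ((n : ℝ) / ((n : ℝ) + 2))) ^ (n + 2) = x ^ n := by
    rw [← Real.rpow_natCast, ← Real.rpow_mul hx]
    push_cast
    rw [div_mul_cancel₀ _ (by positivity)]
    exact Real.rpow_natCast _ _
  have hnn : 0 ≤ x ^ ((n : ℝ) / ((n : ℝ) + 2)) := Real.rpow_nonneg hx _
  constructor
  · rw [← key]
    exact pow_le_pow_left₀ hnn h1 _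
  · intro heq
    rw [← key] at heq
    have h3 : x ^ ((n : ℝ) / ((n : ℝ) + 2)) = v :=
      (pow_left_inj₀ hnn hv0.le (by omega)).mp heq
    have h4 := h2.mp h3 0 (Finset.mem_univ _) 1 (Finset.mem_univ _)
    have h5 : x = 1 := by simpa [hzdef] using h4
    rw [← hv, h5]; field_simp

end Vale.Agent.P254
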