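import Vale.Agent.P254.LM.Basic

/-!
# P254: affine changes of coordinates in the language of barycentric coordinate systems
-/

namespace Vale.Agent.P254

open MeasureTheory Set

variable {n : ℕ} {K : Set (Fin n → ℝ)} {C : Matrix (Fin (n + 1)) (Fin (n + 1)) ℝ}

theorem sum_mulVec_lift1 (hC : C ∈ admC K) (x : Fin n → ℝ) :
    ∑ i, (C.mulVec (lift1 x)) i = 1 := by
  simp only [Matrix.mulVec, dotProduct]
  rw [Finset.sum_comm]
  simp_rw [← Finset.sum_mul, hC.1]
  simp [lift1_zero]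

theorem bary_tail_mulVec (hC : C ∈ admC K) (x : Fin n → ℝ) :
    bary (Fin.tail (C.mulVec (lift1 x))) = C.mulVec (lift1 x) :=
  bary_tail (sum_mulVec_lift1 hC x)

theorem trC_subset_stdS (hC : C ∈ admC K) : trC C K ⊆ stdS n := by
  rintro y ⟨x, hx, rfl⟩
  rw [mem_stdS_iff_bary]
  intro i
  simp only []
  rw [bary_tail_mulVec hC x]
  exact hC.2 x hx i

theorem continuous_lift1 : Continuous (lift1 : (Fin n → ℝ) → (Fin (n + 1) → ℝ)) := by
  apply continuous_pi
  intro i
  refine Fin.cases ?_ (fun j => ?_) i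
  · simp only [lift1_zero]
    exact continuous_const
  · simp only [lift1_succ]
    exact continuous_apply j

theorem continuous_trMap (C : Matrix (Fin (n + 1)) (Fin (n + 1)) ℝ) :
    Continuous (fun x : Fin n → ℝ => Fin.tail (C.mulVec (lift1 x))) := by
  have h1 : Continuous (fun x : Fin n → ℝ => C.mulVec (lift1 x)) :=
    ((Matrix.toLin' C).continuous_of_finiteDimensional).comp continuous_lift1
  apply continuous_pi
  intro i
  exact (continuous_apply i.succ).comp h1

theorem isCompact_trC (hK : IsCompact K) : IsCompact (trC C K) :=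
  hK.image (continuous_trMap C)

theorem convex_trC (hK : Convex ℝ K) : Convex ℝ (trC C K) := by
  rintro _ ⟨x, hx, rfl⟩ _ ⟨y, hy, rfl⟩ a b ha hb hab
  refine ⟨a • x + b • y, hK hx hy ha hb hab, ?_⟩
  simp only []
  rw [lift1_combo a b hab, Matrix.mulVec_add, Matrix.mulVec_smul, Matrix.mulVec_smul]
  rfl

/-- the identity matrix with the first row replaced by ones -/
def onesRow (n : ℕ) : Matrix (Fin (n + 1)) (Fin (n + 1)) ℝ :=
  (replCol (fun _ => 1) 0).transpose

theorem det_onesRow (n : ℕ) : (onesRow n).det = 1 := by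
  rw [onesRow, Matrix.det_transpose, det_replCol]

theorem onesRow_mulVec (l : Fin (n + 1) → ℝ) :
    (onesRow n).mulVec l = Fin.cons (∑ i, l i) (Fin.tail l) := by
  funext r
  simp only [Matrix.mulVec, dotProduct, onesRow, Matrix.transpose_apply, replCol, Matrix.of_apply]
  refine Fin.cases ?_ (fun j => ?_) r
  · simp
  · simp [Fin.succ_ne_zero, Fin.tail]

theorem onesRow_mul_mulVec (hC : C ∈ admC K) (x : Fin n → ℝ) :
    (onesRow n * C).mulVec (lift1 x) = lift1 (Fin.tail (C.mulVec (lift1 x))) := by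
  rw [← Matrix.mulVec_mulVec, onesRow_mulVec, sum_mulVec_lift1 hC x]
  rfl

/-- `cone0 (trC C K)` is a linear image of `cone0 K` -/
theorem cone0_trC (hC : C ∈ admC K) :
    ∃ A : Matrix (Fin (n + 1)) (Fin (n + 1)) ℝ, A.det = C.det ∧ cone0 (trC C K) = img A (cone0 K) := by
  refine ⟨onesRow n * C, by rw [Matrix.det_mul, det_onesRow, one_mul], ?_⟩
  ext p
  constructor
  · intro hp
    obtain ⟨s, hs, y, ⟨x, hx, rfl⟩, rfl⟩ := mem_cone0.1 hp
    refine ⟨s • lift1 x, mem_cone0.2 ⟨s, hs, x, hx, rfl⟩, ?_⟩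
    simp only []
    rw [Matrix.mulVec_smul, onesRow_mul_mulVec hC]
  · rintro ⟨q, hq, rfl⟩
    obtain ⟨s, hs, x, hx, rfl⟩ := mem_cone0.1 hq
    refine mem_cone0.2 ⟨s, hs, _, ⟨x, hx, rfl⟩, ?_⟩
    simp only []
    rw [Matrix.mulVec_smul, onesRow_mul_mulVec hC]

theorem vol_trC (hK : IsCompact K) (hC : C ∈ admC K) (hd : C.det ≠ 0) :
    vol (trC C K) = |C.det| * vol K := by
  obtain ⟨A, hA, hcone⟩ := cone0_trC hC
  have h1 := vol_cone0 (isCompact_trC (C := C) hK)
  have h2 := vol_cone0 hK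
  rw [hcone, vol_img A (by rw [hA]; exact hd), hA, h2] at h1
  have hn : ((n : ℝ) + 1) ≠ 0 := by positivity
  field_simp at h1
  linarith

theorem isoQ_trC (hK : IsConvexBody K) (hC : C ∈ admC K) (hd : C.det ≠ 0) :
    isoQ (trC C K) = isoQ K := by
  obtain ⟨A, hA, hcone⟩ := cone0_trC hC
  have hv : vol K ≠ 0 := hK.vol_pos.ne'
  have hv' : vol (trC C K) ≠ 0 := by
    rw [vol_trC hK.1 hC hd]
    exact mul_ne_zero (abs_ne_zero.2 hd) hv
  have hvc : vol (cone0 K) ≠ 0 := by
    rw [vol_cone0 hK.1]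
    have hn : ((n : ℝ) + 1) ≠ 0 := by positivity
    exact div_ne_zero hv hn
  have h1 := isoQ_cone0 (isCompact_trC (C := C) hK.1) hv'
  have h2 := isoQ_cone0 hK.1 hv
  rw [hcone, isoQ_img A (by rw [hA]; exact hd) (isCompact_cone0 hK.1) hvc, h2] at h1
  have hκ : (0 : ℝ) < ((n : ℝ) + 1) ^ (n + 3) / (((n : ℝ) + 2) ^ 2 * ((n : ℝ) + 3) ^ (n + 1)) := by
    positivity
  exact (mul_left_cancel₀ hκ.ne' h1).symm

/-- an invertible linear image of a simplex is a simplex -/
theorem IsSimplex.img {N : ℕ} {S : Set (Fin N → ℝ)} (hS : IsSimplex S)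
    (B : Matrix (Fin N) (Fin N) ℝ) (hB : B.det ≠ 0) : IsSimplex (img B S) := by
  obtain ⟨v, hv, rfl⟩ := hS
  refine ⟨fun i => B.mulVec (v i), ?_, ?_⟩
  · have hinj : Function.Injective (Matrix.mulVecLin B).toAffineMap := by
      intro a b hab
      have hab' : B.mulVec a = B.mulVec b := hab
      have hu : IsUnit B := (Matrix.isUnit_iff_isUnit_det B).2 (isUnit_iff_ne_zero.2 hB)
      exact Matrix.mulVec_injective_of_isUnit hu hab'
    exact hv.map' (Matrix.mulVecLin B).toAffineMap hinj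
  · rw [img_convexHull, ← range_comp]
    rfl

theorem isSimplex_of_trC (hK : IsConvexBody K) (hC : C ∈ admC K) (hd : C.det ≠ 0)
    (hS : IsSimplex (trC C K)) : IsSimplex K := by
  obtain ⟨A, hA, hcone⟩ := cone0_trC hC
  have hAd : A.det ≠ 0 := by rw [hA]; exact hd
  have h1 : IsSimplex (Vale.Agent.P254.img A (cone0 K)) := hcone ▸ hS.cone0
  have hinv : (A⁻¹).det ≠ 0 := by
    intro h0
    have h5 : (A⁻¹ * A).det = 1 := by
      rw [Matrix.nonsing_inv_mul A (isUnit_iff_ne_zero.2 hAd), Matrix.det_one]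
    rw [Matrix.det_mul, h0, zero_mul] at h5
    exact zero_ne_one h5
  have h2 := h1.img A⁻¹ hinv
  have h3 : Vale.Agent.P254.img A⁻¹ (Vale.Agent.P254.img A (cone0 K)) = cone0 K := by
    unfold Vale.Agent.P254.img
    rw [← image_comp]
    have : ((fun x => A⁻¹.mulVec x) ∘ fun x => A.mulVec x) = id := by
      funext x
      simp only [Function.comp, Matrix.mulVec_mulVec, id]
      rw [Matrix.nonsing_inv_mul A (isUnit_iff_ne_zero.2 hAd), Matrix.one_mulVec]
    rw [this, image_id]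
  rw [h3] at h2
  exact isSimplex_of_cone0 hK h2

end Vale.Agent.P254
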