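import Vale.Agent.P254.LM.Basic

/-!
# P254: affine changes of coordinates in the language of barycentric coordinate systems
-/

namespace Vale.Agent.P254

open MeasureTheory Set

variable {n : ℕ} {K : Set (Fin n → ℝ)} {C : Matrix (Fin (n + 1)) (Fin (n + 1)) ℝ}

/-- the vertices of the standard simplex -/
def stdV (n : ℕ) : Fin (n + 1) → (Fin n → ℝ) :=
  Fin.cons 0 (fun i => (Pi.single i 1 : Fin n → ℝ))

theorem sum_smul_stdV (n : ℕ) (c : Fin (n + 1) → ℝ) :
    ∑ i, c i • stdV n i = fun j => c j.succ := by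
  rw [Fin.sum_univ_succ]
  simp only [stdV, Fin.cons_zero, Fin.cons_succ, smul_zero, zero_add]
  ext j
  simp [Finset.sum_apply, Pi.single_apply]

theorem stdS_eq_convexHull (n : ℕ) : stdS n = convexHull ℝ (range (stdV n)) := by
  ext x
  rw [mem_convexHull_range_iff, mem_stdS]
  constructor
  · rintro ⟨h0, h1⟩
    refine ⟨Fin.cons (1 - ∑ i, x i) x, ?_, ?_, ?_⟩
    · intro i
      refine Fin.cases ?_ (fun j => ?_) i
      · simpa using h1
      · simpa using h0 j
    · rw [Fin.sum_univ_succ]
      simp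
    · rw [sum_smul_stdV]
      ext j
      simp
  · rintro ⟨μ, h0, h1, h2⟩
    rw [sum_smul_stdV] at h2
    subst h2
    refine ⟨fun i => h0 _, ?_⟩
    rw [Fin.sum_univ_succ] at h1
    have := h0 0
    linarith

theorem affineIndependent_stdV (n : ℕ) : AffineIndependent ℝ (stdV n) := by
  rw [affineIndependent_iff_fintype]
  intro c h0 h1
  rw [sum_smul_stdV] at h1
  have hs : ∀ j : Fin n, c j.succ = 0 := fun j => congrFun h1 j
  rw [Fin.sum_univ_succ] at h0
  simp only [hs, Finset.sum_const_zero, add_zero] at h0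
  intro i
  refine Fin.cases h0 hs i

theorem isSimplex_stdS (n : ℕ) : IsSimplex (stdS n) :=
  ⟨stdV n, affineIndependent_stdV n, stdS_eq_convexHull n⟩

/-- the barycentric coordinate system of a simplex containing `K` -/
theorem exists_admC_of_simplex {S : Set (Fin n → ℝ)} (hS : IsSimplex S) (hKS : K ⊆ S) :
    ∃ C ∈ admC K, C.det ≠ 0 ∧ |C.det| * vol S = vol (stdS n) := by
  obtain ⟨v, hv, rfl⟩ := hS
  let B : Matrix (Fin (n + 1)) (Fin (n + 1)) ℝ := Matrix.of fun r k => lift1 (v k) r
  have hBdet : B.det ≠ 0 := by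
    have h1 : LinearIndependent ℝ B.col := linearIndependent_lift1 hv
    rw [Matrix.linearIndependent_cols_iff_isUnit, Matrix.isUnit_iff_isUnit_det] at h1
    exact h1.ne_zero
  have hBunit : IsUnit B.det := isUnit_iff_ne_zero.mpr hBdet
  have hdetmul : (B⁻¹).det * B.det = 1 := by
    rw [← Matrix.det_mul, Matrix.nonsing_inv_mul B hBunit, Matrix.det_one]
  have hCdet : (B⁻¹).det ≠ 0 := left_ne_zero_of_mul_eq_one hdetmul
  refine ⟨B⁻¹, ⟨?_, ?_⟩, hCdet, ?_⟩
  · intro j
    have h1 : Matrix.vecMul (Pi.single 0 1 : Fin (n + 1) → ℝ) B = fun _ => 1 := by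
      ext k
      simp [B, lift1_zero]
    have h2 : Matrix.vecMul (fun _ => (1 : ℝ)) B⁻¹ = (Pi.single 0 1 : Fin (n + 1) → ℝ) := by
      rw [← h1, Matrix.vecMul_vecMul, Matrix.mul_nonsing_inv B hBunit, Matrix.vecMul_one]
    have h3 := congrFun h2 j
    simp only [Matrix.vecMul, dotProduct, one_mul, Pi.single_apply] at h3
    exact h3
  · intro x hx i
    obtain ⟨μ, h0, h1, h2⟩ := mem_convexHull_range_iff.1 (hKS hx)
    have hB : B.mulVec μ = lift1 x := by
      ext r
      simp only [Matrix.mulVec, dotProduct, B, Matrix.of_apply]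
      refine Fin.cases ?_ (fun j => ?_) r
      · simp only [lift1_zero, one_mul]
        exact h1
      · simp only [lift1_succ]
        rw [← h2]
        simp [Finset.sum_apply, mul_comm]
    rw [← hB, Matrix.mulVec_mulVec, Matrix.nonsing_inv_mul B hBunit, Matrix.one_mulVec]
    exact h0 i
  · have hcomp : IsCompact (convexHull ℝ (range v)) := (finite_range v).isCompact_convexHull ℝ
    have hcone : cone0 (convexHull ℝ (range v)) = img B (stdS (n + 1)) := by
      rw [cone0_convexHull _ (range_nonempty v), stdS_eq_convexHull, img_convexHull]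
      congr 1
      rw [stdV, Fin.range_cons, image_insert_eq, Matrix.mulVec_zero, ← range_comp, ← range_comp]
      have : ((fun x => B.mulVec x) ∘ fun k : Fin (n + 1) => (Pi.single k 1 : Fin (n + 1) → ℝ))
          = lift1 ∘ v := by
        ext k r
        simp [B]
      rw [this]
    have h1 := vol_cone0 hcomp
    rw [hcone, vol_img B hBdet, vol_stdS] at h1
    rw [vol_stdS]
    have habs : |(B⁻¹).det| * |B.det| = 1 := by rw [← abs_mul, hdetmul, abs_one]
    have hfac : ((n + 1).factorial : ℝ) = ((n : ℝ) + 1) * (n.factorial : ℝ) := by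
      rw [Nat.factorial_succ]; push_cast; ring
    have hn : (0 : ℝ) < (n : ℝ) + 1 := by positivity
    have hf : (0 : ℝ) < (n.factorial : ℝ) := by positivity
    have hvol : vol (convexHull ℝ (range v)) = |B.det| * (1 / (n.factorial : ℝ)) := by
      rw [hfac] at h1
      field_simp at h1 ⊢
      linarith
    rw [hvol, ← mul_assoc, habs, one_mul]

end Vale.Agent.P254
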